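import Vale.Agent.Lib.P205.T2.Final

/-!
**The main theorem**: a smooth conformally flat doubly periodic metric on the plane is induced by
a smooth doubly periodic map to four dimensional Euclidean space.
-/

namespace Vale.Agent.Lib.P205.T2

open scoped ContDiff
open Real

noncomputable section

/-- **The main theorem.** -/
theorem main_theorem {l m : ℝ × ℝ} (hd : det2 l m ≠ 0) {u : ℝ × ℝ → ℝ} (hu : ContDiff ℝ ∞ u)
    (hul : Pd u l) (hum : Pd u m) :
    ∃ F : ℝ × ℝ → EuclideanSpace ℝ (Fin 4), ContDiff ℝ ∞ F ∧ (∀ z, F (z + l) = F z) ∧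
      (∀ z, F (z + m) = F z) ∧
      ∀ z v w, inner ℝ (fderiv ℝ F z v) (fderiv ℝ F z w)
        = Real.exp (2 * u z) * (v.1 * w.1 + v.2 * w.2) := by
  obtain ⟨P, U, hL, hUf, hUl, hUm, e1, e2, e11, e12, e22⟩ := exists_PD hd hu hul hum
  obtain ⟨ρ, ε₀, BX, bF, hρ, hρ1, hε, hε1, hBX, hbx, hX, hb1, hb2, hb3, hbc, hb0⟩ :=
    P.exists_family
  obtain ⟨F, hF⟩ : ∃ F : ℝ → Jet3, ∀ t, F t = P.jetF (bF t) := ⟨_, fun _ => rfl⟩
  -- bounds
  have hσ : ∀ t z, 0 < 1 + (F t).f z := by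
    intro t z
    have h1 := P.rf_bound (P.aJ (bF t)) z
    have h2 := P.aJ_norm (bF t)
    have h3 := hb1 t
    have h4 := abs_le.mp (h1.trans (h2.trans (h3.trans hρ1)))
    rw [hF, PD.jetF_f]
    linarith [h4.1]
  have hrad : ∀ t z, 0 < 1 - clampE ε₀ t
      * Xr (1 + (F t).f z) ((F t).f₁ z) ((F t).f₂ z) (U.f₁ z) (U.f₂ z) := by
    intro t z
    rw [hF, PD.jetF_f, PD.jetF_f₁, PD.jetF_f₂, ← e1, ← e2, ← P.rf_XQ (hb2 t) z]
    have h1 := P.rf_bound (P.XQ (bF t)) z
    have h2 := hX (bF t) (hb1 t)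
    have h3 := (abs_le.mp (h1.trans h2)).2
    have h4 := clampE_nonneg ε₀ t
    have h5 := clampE_le hε.le t
    have h6 : clampE ε₀ t * P.rf (P.XQ (bF t)) z ≤ clampE ε₀ t * BX :=
      mul_le_mul_of_nonneg_left h3 h4
    have h7 : clampE ε₀ t * BX ≤ ε₀ * BX := mul_le_mul_of_nonneg_right h5 hBX
    linarith
  -- periodicity
  have hLl : LPer P.L l := by
    rw [hL]
    exact latOf_per_l hd
  have hLm : LPer P.L m := by
    rw [hL]
    exact latOf_per_m hd
  have hFl : ∀ t, (F t).Per l := fun t => by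
    rw [hF]
    exact jetOf_per _ hLl
  have hFm : ∀ t, (F t).Per m := fun t => by
    rw [hF]
    exact jetOf_per _ hLm
  -- the family
  obtain ⟨G, hG⟩ : ∃ G : ℝ → Geo, ∀ t, G t = mkGeo U (F t) (clampE ε₀ t) (hσ t) (hrad t) :=
    ⟨_, fun _ => rfl⟩
  have hflat : ∀ t, (G t).Flat := by
    intro t
    obtain ⟨m₀, hm₀⟩ := P.pde_real (hb2 t) (hb3 t)
    rw [hG]
    refine mkGeo_flat (hσ t) (hrad t) hUl (hFl t) hUm (hFm t) hd (m₀ := m₀) (fun z => ?_)
    rw [e1, e2, e11, e12, e22] at hm₀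
    rw [hF, PD.jetF_f, PD.jetF_f₁, PD.jetF_f₂, PD.jetF_f₁₁, PD.jetF_f₁₂, PD.jetF_f₂₂]
    exact hm₀ z
  -- continuity in the parameter
  have atom : ∀ c : XX → XX, Continuous c →
      Continuous fun q : ℝ × (ℝ × ℝ) => P.rf (c (bF q.1)) q.2 := fun c hc =>
    P.rf_joint.comp ((hc.comp (hbc.comp continuous_fst)).prodMk continuous_snd)
  have hjoint : GeoJoint G := by
    have hGf : G = fun t => mkGeo U (F t) (clampE ε₀ t) (hσ t) (hrad t) := funext hG
    rw [hGf]
    refine mkGeo_joint hσ hrad (clampE_continuous ε₀) ?_ ?_ ?_ ?_ ?_ ?_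
    · simp only [hF, PD.jetF_f]
      exact atom _ (mlt_continuous P.L.sJ_le zero_le_one)
    · simp only [hF, PD.jetF_f₁]
      exact atom _ (mlt_continuous P.L.s1_le zero_le_one)
    · simp only [hF, PD.jetF_f₂]
      exact atom _ (mlt_continuous P.L.s2_le zero_le_one)
    · simp only [hF, PD.jetF_f₁₁]
      exact atom _ (mlt_continuous P.L.s11_le zero_le_one)
    · simp only [hF, PD.jetF_f₁₂]
      exact atom _ (mlt_continuous P.L.s12_le zero_le_one)
    · simp only [hF, PD.jetF_f₂₂]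
      exact atom _ (mlt_continuous P.L.s22_le zero_le_one)
  -- the value at the parameter zero
  have hz : ∀ z, P.rf 0 z = 0 := by
    intro z
    have := P.rf_bound 0 z
    rw [norm_zero] at this
    exact abs_nonpos_iff.mp this
  have hbase : ∀ z, (G 0).Th z = z.1 ∧ (G 0).Ta z = z.2 := by
    intro z
    refine Geo.base (G 0) ?_ ?_ ?_ ?_ z
    · rw [hG]
      exact clampE_eq (le_refl _) hε.le
    · intro y
      rw [hG]
      change vv (F 0) y = 1
      have : (F 0).f y = 0 := by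
        rw [hF, hb0, PD.jetF_f, show P.aJ 0 = 0 from mlt_zero _, hz]
      simp [vv, this]
    · intro y
      rw [hG]
      change - ((F 0).f₁ y * vv (F 0) y) = 0
      have : (F 0).f₁ y = 0 := by
        rw [hF, hb0, PD.jetF_f₁, show P.aD1 0 = 0 from mlt_zero _, hz]
      simp [this]
    · intro y
      rw [hG]
      change - ((F 0).f₂ y * vv (F 0) y) = 0
      have : (F 0).f₂ y = 0 := by
        rw [hF, hb0, PD.jetF_f₂, show P.aD2 0 = 0 from mlt_zero _, hz]
      simp [this]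
  have hdet0 : (G 0).Th l * (G 0).Ta m - (G 0).Ta l * (G 0).Th m ≠ 0 := by
    rw [(hbase l).1, (hbase l).2, (hbase m).1, (hbase m).2]
    exact hd
  obtain ⟨t, n, ht0, ht1, hpos, htune, hLL⟩ := tuning (hjoint.Th_at l) (hjoint.Ta_at l)
    (hjoint.Th_at m) (hjoint.Ta_at m) hdet0 hε
  have hclamp : clampE ε₀ t = t := clampE_eq ht0.le ht1
  have hGε : (G t).ε = t := by
    rw [hG]
    exact hclamp
  have hst : √t = √(G t).ε := by rw [hGε]
  rw [hst] at htune hLL
  have ht0' : 0 < (G t).ε := by rwa [hGε]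
  -- the last step
  have hR2 : ∀ z, Rr U (F t) (clampE ε₀ t) z ^ 2 / (G t).ε * (G t).E z ^ 2 = Real.exp (2 * u z) := by
    intro z
    rw [hG, ← hUf]
    exact Rr_sq (hσ t) (hrad t) (by rwa [hclamp]) z
  have JR := JRr (U := U) (F := F t) (ε := clampE ε₀ t) (hσ t) (hrad t)
  rw [← hG] at JR
  refine final_step (G := G t) (R := Rr U (F t) (clampE ε₀ t)) ?_ (hflat t) ?_ ?_ hd JR Rr_smooth
    (Rr_per hUl (hFl t)) (Rr_per hUm (hFm t)) hR2 ht0' hpos htune hLL
  · rw [hG]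
    exact mkGeo_smooth (hσ t) (hrad t)
  · rw [hG]
    exact mkGeo_per (hσ t) (hrad t) hUl (hFl t)
  · rw [hG]
    exact mkGeo_per (hσ t) (hrad t) hUm (hFm t)

end

end Vale.Agent.Lib.P205.T2
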