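import Vale.Agent.Lib.P205.T2.Jet

/-!
Doubly periodic functions on the plane: attaining a maximum and the vanishing of the integral of a
curl over a fundamental domain.
-/

namespace Vale.Agent.Lib.P205.T2

open MeasureTheory intervalIntegral
open scoped ContDiff

noncomputable section

/-- Periodicity under a translation. -/
def Pd (f : ℝ × ℝ → ℝ) (l : ℝ × ℝ) : Prop := ∀ z, f (z + l) = f z

/-- The determinant of two vectors. -/
def det2 (l m : ℝ × ℝ) : ℝ := l.1 * m.2 - l.2 * m.1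

lemma exists_coords {l m : ℝ × ℝ} (h : det2 l m ≠ 0) (z : ℝ × ℝ) :
    ∃ s t : ℝ, z = s • l + t • m := by
  refine ⟨(z.1 * m.2 - z.2 * m.1) / det2 l m, (l.1 * z.2 - l.2 * z.1) / det2 l m, ?_⟩
  have h' : l.1 * m.2 - l.2 * m.1 ≠ 0 := h
  ext
  · simp only [det2, Prod.fst_add, Prod.smul_fst, smul_eq_mul]
    rw [div_mul_eq_mul_div, div_mul_eq_mul_div, ← add_div, eq_div_iff h']
    ring
  · simp only [det2, Prod.snd_add, Prod.smul_snd, smul_eq_mul]
    rw [div_mul_eq_mul_div, div_mul_eq_mul_div, ← add_div, eq_div_iff h']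
    ring

lemma Pd.zsmul {f : ℝ × ℝ → ℝ} {l : ℝ × ℝ} (h : Pd f l) (n : ℤ) (z : ℝ × ℝ) :
    f (z + n • l) = f z :=
  (show Function.Periodic f l from h).zsmul n z

/-- A continuous doubly periodic function attains its maximum. -/
lemma exists_max_of_periodic {f : ℝ × ℝ → ℝ} (hf : Continuous f) {l m : ℝ × ℝ}
    (hl : Pd f l) (hm : Pd f m) (h : det2 l m ≠ 0) : ∃ w, ∀ z, f z ≤ f w := by
  set K : Set (ℝ × ℝ) := (fun p : ℝ × ℝ => p.1 • l + p.2 • m) '' (Set.Icc 0 1 ×ˢ Set.Icc 0 1) with hK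
  have hKc : IsCompact K :=
    (isCompact_Icc.prod isCompact_Icc).image (by fun_prop)
  have hKn : K.Nonempty := ⟨_, ⟨(0, 0), by simp, rfl⟩⟩
  obtain ⟨w, -, hw⟩ := hKc.exists_isMaxOn hKn hf.continuousOn
  refine ⟨w, fun z => ?_⟩
  obtain ⟨s, t, rfl⟩ := exists_coords h z
  have e : s • l + t • m
      = (Int.fract s • l + Int.fract t • m) + ⌊s⌋ • l + ⌊t⌋ • m := by
    have h1 : s = Int.fract s + ⌊s⌋ := (Int.fract_add_floor s).symm
    have h2 : t = Int.fract t + ⌊t⌋ := (Int.fract_add_floor t).symm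
    ext
    · simp
      nth_rewrite 1 [h1]
      nth_rewrite 1 [h2]
      ring
    · simp
      nth_rewrite 1 [h1]
      nth_rewrite 1 [h2]
      ring
  rw [e, hm.zsmul, hl.zsmul]
  exact hw ⟨(Int.fract s, Int.fract t),
    ⟨⟨Int.fract_nonneg s, (Int.fract_lt_one s).le⟩, ⟨Int.fract_nonneg t, (Int.fract_lt_one t).le⟩⟩,
    rfl⟩

/-- The integral over a period of a derivative along the period vanishes. -/
lemma integral_line_derivative {h h₁ h₂ : ℝ × ℝ → ℝ} (hh : Jt h h₁ h₂) (c1 : Continuous h₁)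
    (c2 : Continuous h₂) {l : ℝ × ℝ} (hl : Pd h l) (z : ℝ × ℝ) :
    ∫ s in (0:ℝ)..1, (h₁ (z + s • l) * l.1 + h₂ (z + s • l) * l.2) = 0 := by
  have hc : Continuous fun s : ℝ => h₁ (z + s • l) * l.1 + h₂ (z + s • l) * l.2 := by fun_prop
  rw [integral_eq_sub_of_hasDerivAt (f := fun s : ℝ => h (z + s • l))
    (fun s _ => hh.hasDerivAt_line z l s) (hc.intervalIntegrable _ _)]
  simp [hl z]

/-- **No positive curl**: the curl of a doubly periodic `1`-form cannot be everywhere positive. -/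
theorem no_pos_curl {A A₁ A₂ B B₁ B₂ : ℝ × ℝ → ℝ} (hA : Jt A A₁ A₂) (hB : Jt B B₁ B₂)
    (cA₁ : Continuous A₁) (cA₂ : Continuous A₂) (cB₁ : Continuous B₁) (cB₂ : Continuous B₂)
    {l m : ℝ × ℝ} (hAl : Pd A l) (hAm : Pd A m) (hBl : Pd B l) (hBm : Pd B m)
    (hd : det2 l m ≠ 0) : ¬ ∀ z, 0 < B₁ z - A₂ z := by
  intro hpos
  set h : ℝ × ℝ → ℝ := fun z => m.2 * B z + m.1 * A z with hh
  set k : ℝ × ℝ → ℝ := fun z => - l.2 * B z - l.1 * A z with hk
  have Jh : Jt h (fun z => m.2 * B₁ z + m.1 * A₁ z) (fun z => m.2 * B₂ z + m.1 * A₂ z) :=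
    (hB.const_mul _).add (hA.const_mul _)
  have Jk : Jt k (fun z => - l.2 * B₁ z - l.1 * A₁ z) (fun z => - l.2 * B₂ z - l.1 * A₂ z) :=
    (hB.const_mul _).sub (hA.const_mul _)
  have hPl : Pd h l := fun z => by simp only [hh, hAl z, hBl z]
  have kPm : Pd k m := fun z => by simp only [hk, hAm z, hBm z]
  set g₁ : ℝ → ℝ → ℝ := fun t s =>
    (m.2 * B₁ (t • m + s • l) + m.1 * A₁ (t • m + s • l)) * l.1
      + (m.2 * B₂ (t • m + s • l) + m.1 * A₂ (t • m + s • l)) * l.2 with hg₁
  set g₂ : ℝ → ℝ → ℝ := fun s t =>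
    (- l.2 * B₁ (s • l + t • m) - l.1 * A₁ (s • l + t • m)) * m.1
      + (- l.2 * B₂ (s • l + t • m) - l.1 * A₂ (s • l + t • m)) * m.2 with hg₂
  have c₁ : Continuous (Function.uncurry g₁) := by
    simp only [hg₁, Function.uncurry_def]; fun_prop
  have c₂ : Continuous (Function.uncurry g₂) := by
    simp only [hg₂, Function.uncurry_def]; fun_prop
  have I₁ : ∀ t, ∫ s in (0:ℝ)..1, g₁ t s = 0 := fun t =>
    integral_line_derivative Jh (by fun_prop) (by fun_prop) hPl (t • m)
  have I₂ : ∀ s, ∫ t in (0:ℝ)..1, g₂ s t = 0 := fun s =>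
    integral_line_derivative Jk (by fun_prop) (by fun_prop) kPm (s • l)
  -- the total integral
  set G : ℝ → ℝ → ℝ := fun t s => B₁ (s • l + t • m) - A₂ (s • l + t • m) with hG
  have cG : Continuous (Function.uncurry G) := by
    simp only [hG, Function.uncurry_def]; fun_prop
  have hGeq : ∀ t s, det2 l m * G t s = g₁ t s + g₂ s t := by
    intro t s
    simp only [hG, hg₁, hg₂, det2, add_comm (t • m) (s • l)]
    ring
  have c₁' : ∀ t, Continuous (g₁ t) := fun t => c₁.comp (by fun_prop : Continuous fun s => (t, s))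
  have c₂' : ∀ t, Continuous (fun s => g₂ s t) :=
    fun t => c₂.comp (by fun_prop : Continuous fun s => (s, t))
  have hint : ∫ t in (0:ℝ)..1, ∫ s in (0:ℝ)..1, (g₁ t s + g₂ s t) = 0 := by
    have e1 : ∀ t, ∫ s in (0:ℝ)..1, (g₁ t s + g₂ s t)
        = ∫ s in (0:ℝ)..1, g₂ s t := by
      intro t
      rw [intervalIntegral.integral_add ((c₁' t).intervalIntegrable _ _)
        ((c₂' t).intervalIntegrable _ _), I₁, zero_add]
    simp only [e1]
    have hsw := intervalIntegral_intervalIntegral_swap (F := fun t s => g₂ s t)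
      (a := 0) (b := 1) (c := 0) (d := 1) (by
        have : Continuous (Function.uncurry fun t s => g₂ s t) := by
          have := c₂.comp continuous_swap
          exact this
        have h2 := this.continuousOn.integrableOn_compact
          (K := Set.Icc (0:ℝ) 1 ×ˢ Set.Icc (0:ℝ) 1) (μ := volume)
          (isCompact_Icc.prod isCompact_Icc)
        refine h2.mono_set ?_
        simp only [Set.uIoc_of_le (zero_le_one' ℝ)]
        exact Set.prod_mono Set.Ioc_subset_Icc_self Set.Ioc_subset_Icc_self)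
    rw [hsw]
    simp [I₂]
  have hcont : Continuous fun t => ∫ s in (0:ℝ)..1, G t s :=
    continuous_parametric_intervalIntegral_of_continuous' cG 0 1
  have hpos1 : ∀ t, 0 < ∫ s in (0:ℝ)..1, G t s := by
    intro t
    refine intervalIntegral_pos_of_pos ?_ (fun s => hpos _) one_pos
    exact (cG.comp (by fun_prop : Continuous fun s => (t, s))).intervalIntegrable _ _
  have hpos2 : 0 < ∫ t in (0:ℝ)..1, ∫ s in (0:ℝ)..1, G t s :=
    intervalIntegral_pos_of_pos (hcont.intervalIntegrable _ _) hpos1 one_pos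
  have : det2 l m * ∫ t in (0:ℝ)..1, ∫ s in (0:ℝ)..1, G t s = 0 := by
    rw [← hint, ← intervalIntegral.integral_const_mul]
    congr 1
    funext t
    rw [← intervalIntegral.integral_const_mul]
    congr 1
    funext s
    exact hGeq t s
  rcases mul_eq_zero.mp this with h0 | h0
  · exact hd h0
  · exact hpos2.ne' h0

end

end Vale.Agent.Lib.P205.T2
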