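import Vale.Agent.Lib.P205.T2.Wiener
import Vale.Agent.Lib.P205.T2.Per

/-!
Evaluation of coefficient families on the plane: exponential series, their derivatives and
products.
-/

namespace Vale.Agent.Lib.P205.T2

open scoped ComplexConjugate ContDiff
open Complex ContinuousLinearMap

noncomputable section

/-- A lattice of frequencies. -/
structure Lat where
  kx : Gm → ℝ
  ky : Gm → ℝ
  addx : ∀ n m, kx (n + m) = kx n + kx m
  addy : ∀ n m, ky (n + m) = ky n + ky m
  K : ℝ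
  Kpos : 0 < K
  boundx : ∀ n, |kx n| ≤ K * (1 + nrm n)
  boundy : ∀ n, |ky n| ≤ K * (1 + nrm n)
  c : ℝ
  cpos : 0 < c
  lower : ∀ n, n ≠ 0 → c ≤ kx n ^ 2 + ky n ^ 2

variable (L : Lat)

lemma Lat.kx_zero : L.kx 0 = 0 := by
  have := L.addx 0 0
  simp only [add_zero] at this
  linarith

lemma Lat.ky_zero : L.ky 0 = 0 := by
  have := L.addy 0 0
  simp only [add_zero] at this
  linarith

lemma Lat.kx_neg (n : Gm) : L.kx (-n) = - L.kx n := by
  have := L.addx n (-n)
  simp only [add_neg_cancel, L.kx_zero] at this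
  linarith

lemma Lat.ky_neg (n : Gm) : L.ky (-n) = - L.ky n := by
  have := L.addy n (-n)
  simp only [add_neg_cancel, L.ky_zero] at this
  linarith

/-- The exponentials. -/
def eb (n : Gm) (z : ℝ × ℝ) : ℂ := cexp (((L.kx n * z.1 + L.ky n * z.2 : ℝ) : ℂ) * I)

lemma norm_eb (n : Gm) (z : ℝ × ℝ) : ‖eb L n z‖ = 1 := Complex.norm_exp_ofReal_mul_I _

lemma eb_add (n m : Gm) (z : ℝ × ℝ) : eb L (n + m) z = eb L n z * eb L m z := by
  simp only [eb, L.addx, L.addy]
  rw [← Complex.exp_add]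
  congr 1
  push_cast
  ring

lemma eb_zero (z : ℝ × ℝ) : eb L 0 z = 1 := by
  simp [eb, L.kx_zero, L.ky_zero]

lemma eb_neg (n : Gm) (z : ℝ × ℝ) : eb L (-n) z = conj (eb L n z) := by
  simp only [eb, L.kx_neg, L.ky_neg]
  rw [← Complex.exp_conj]
  congr 1
  simp only [map_mul, Complex.conj_ofReal, Complex.conj_I]
  push_cast
  ring

/-- The rapidly decreasing coefficient families. -/
def Rapid (c : Gm → ℂ) : Prop := ∀ p : ℕ, Summable fun n => (1 + nrm n) ^ p * ‖c n‖

lemma Rapid.summable_norm {c : Gm → ℂ} (h : Rapid c) : Summable fun n => ‖c n‖ := by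
  simpa using h 0

/-- Multiplication of the coefficients by `i k_x`. -/
def DX (c : Gm → ℂ) (n : Gm) : ℂ := (L.kx n : ℂ) * I * c n

/-- Multiplication of the coefficients by `i k_y`. -/
def DY (c : Gm → ℂ) (n : Gm) : ℂ := (L.ky n : ℂ) * I * c n

lemma DX_DY (c : Gm → ℂ) : DX L (DY L c) = DY L (DX L c) := by
  funext n
  simp only [DX, DY]
  ring

lemma Rapid.DX {c : Gm → ℂ} (h : Rapid c) : Rapid (DX L c) := by
  intro p
  refine Summable.of_nonneg_of_le (fun _ => by have := nrm_nonneg ‹_›; positivity) (fun n => ?_)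
    ((h (p + 1)).mul_left L.K)
  have h1 := L.boundx n
  have h0 := nrm_nonneg n
  simp only [T2.DX, norm_mul, Complex.norm_real, Complex.norm_I, mul_one, Real.norm_eq_abs]
  calc (1 + nrm n) ^ p * (|L.kx n| * ‖c n‖)
      ≤ (1 + nrm n) ^ p * ((L.K * (1 + nrm n)) * ‖c n‖) := by gcongr
    _ = L.K * ((1 + nrm n) ^ (p + 1) * ‖c n‖) := by ring

lemma Rapid.DY {c : Gm → ℂ} (h : Rapid c) : Rapid (DY L c) := by
  intro p
  refine Summable.of_nonneg_of_le (fun _ => by have := nrm_nonneg ‹_›; positivity) (fun n => ?_)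
    ((h (p + 1)).mul_left L.K)
  have h1 := L.boundy n
  have h0 := nrm_nonneg n
  simp only [T2.DY, norm_mul, Complex.norm_real, Complex.norm_I, mul_one, Real.norm_eq_abs]
  calc (1 + nrm n) ^ p * (|L.ky n| * ‖c n‖)
      ≤ (1 + nrm n) ^ p * ((L.K * (1 + nrm n)) * ‖c n‖) := by gcongr
    _ = L.K * ((1 + nrm n) ^ (p + 1) * ‖c n‖) := by ring

/-- The exponential series. -/
def evc (c : Gm → ℂ) (z : ℝ × ℝ) : ℂ := ∑' n, c n * eb L n z

lemma summable_term {c : Gm → ℂ} (hc : Summable fun n => ‖c n‖) (z : ℝ × ℝ) :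
    Summable fun n => ‖c n * eb L n z‖ := by
  refine hc.congr fun n => ?_
  rw [norm_mul, norm_eb, mul_one]

lemma norm_evc_le {c : Gm → ℂ} (hc : Summable fun n => ‖c n‖) (z : ℝ × ℝ) :
    ‖evc L c z‖ ≤ ∑' n, ‖c n‖ := by
  refine (norm_tsum_le_tsum_norm (summable_term L hc z)).trans (le_of_eq ?_)
  congr 1
  funext n
  rw [norm_mul, norm_eb, mul_one]

/-- Evaluation is multiplicative. -/
lemma evc_cv {c d : Gm → ℂ} (hc : Summable fun n => ‖c n‖) (hd : Summable fun n => ‖d n‖)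
    (z : ℝ × ℝ) : evc L (cv c d) z = evc L c z * evc L d z := by
  have h := tsum_cv (summable_term L hc z) (summable_term L hd z)
  simp only [evc]
  rw [← h]
  congr 1
  funext n
  simp only [cv]
  rw [← tsum_mul_right]
  congr 1
  funext m
  have : eb L n z = eb L m z * eb L (n - m) z := by
    rw [← eb_add]
    congr 1
    abel
  rw [this]
  ring

lemma evc_sub {c d : Gm → ℂ} (hc : Summable fun n => ‖c n‖) (hd : Summable fun n => ‖d n‖)
    (z : ℝ × ℝ) : evc L (c - d) z = evc L c z - evc L d z := by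
  simp only [evc]
  rw [← (summable_term L hc z).of_norm.tsum_sub (summable_term L hd z).of_norm]
  congr 1
  funext n
  simp only [Pi.sub_apply]
  ring

/-- The derivative of a single exponential. -/
lemma hasFDerivAt_term (c : ℂ) (n : Gm) (z : ℝ × ℝ) :
    HasFDerivAt (fun z => c * eb L n z)
      ((dL (L.kx n) (L.ky n)).smulRight ((L.kx n : ℂ) * 0 + I * c * eb L n z)) z := by
  have h1 : HasFDerivAt (fun z : ℝ × ℝ => L.kx n * z.1 + L.ky n * z.2) (dL (L.kx n) (L.ky n)) z := by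
    have e1 := (hasFDerivAt_fst (𝕜 := ℝ) (p := z)).const_mul (L.kx n)
    have e2 := (hasFDerivAt_snd (𝕜 := ℝ) (p := z)).const_mul (L.ky n)
    exact e1.add e2
  have h2 := (Complex.ofRealCLM.hasFDerivAt (x := L.kx n * z.1 + L.ky n * z.2)).comp z h1
  have h3 : HasFDerivAt (fun z : ℝ × ℝ => ((L.kx n * z.1 + L.ky n * z.2 : ℝ) : ℂ) * I) _ z :=
    HasFDerivAt.mul_const h2 I
  have h4 := (h3.cexp).const_mul c
  refine (h4.congr_fderiv ?_)
  ext <;> simp [eb] <;> ring

lemma norm_dL_le (a b : ℝ) : ‖dL a b‖ ≤ |a| + |b| := by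
  refine ContinuousLinearMap.opNorm_le_bound _ (by positivity) fun v => ?_
  rw [dL_apply, Real.norm_eq_abs]
  have h1 : |v.1| ≤ ‖v‖ := norm_fst_le v
  have h2 : |v.2| ≤ ‖v‖ := norm_snd_le v
  calc |a * v.1 + b * v.2| ≤ |a| * |v.1| + |b| * |v.2| := by
        refine (abs_add_le _ _).trans ?_
        rw [abs_mul, abs_mul]
    _ ≤ |a| * ‖v‖ + |b| * ‖v‖ := by gcongr
    _ = _ := by ring

/-- Derivative of the series. -/
lemma hasFDerivAt_evc {c : Gm → ℂ} (hc : Rapid c) (z : ℝ × ℝ) :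
    ∃ D : ℝ × ℝ →L[ℝ] ℂ, HasFDerivAt (evc L c) D z ∧ ∀ v : ℝ × ℝ,
      D v = (v.1 : ℂ) * evc L (DX L c) z + (v.2 : ℂ) * evc L (DY L c) z := by
  set g' : Gm → ℝ × ℝ → (ℝ × ℝ →L[ℝ] ℂ) := fun n z =>
    (dL (L.kx n) (L.ky n)).smulRight ((L.kx n : ℂ) * 0 + I * c n * eb L n z) with hg'
  have hu : Summable fun n => 2 * L.K * ((1 + nrm n) ^ 1 * ‖c n‖) := (hc 1).mul_left _
  have hg : ∀ n y, HasFDerivAt (fun z => c n * eb L n z) (g' n y) y :=
    fun n y => hasFDerivAt_term L (c n) n y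
  have hbd : ∀ n y, ‖g' n y‖ ≤ 2 * L.K * ((1 + nrm n) ^ 1 * ‖c n‖) := by
    intro n y
    simp only [hg']
    rw [ContinuousLinearMap.norm_smulRight_apply]
    have h1 := norm_dL_le (L.kx n) (L.ky n)
    have h2 := L.boundx n
    have h3 := L.boundy n
    have h4 : ‖(L.kx n : ℂ) * 0 + I * c n * eb L n y‖ = ‖c n‖ := by
      simp [norm_eb]
    rw [h4]
    have h5 : ‖dL (L.kx n) (L.ky n)‖ ≤ 2 * L.K * (1 + nrm n) := by linarith
    calc _ ≤ (2 * L.K * (1 + nrm n)) * ‖c n‖ := by gcongr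
      _ = _ := by ring
  have hs0 : Summable fun n => c n * eb L n 0 := (summable_term L hc.summable_norm 0).of_norm
  have hF := hasFDerivAt_tsum hu hg hbd hs0 z
  have hsumg : Summable fun n => g' n z :=
    Summable.of_norm_bounded hu (fun n => hbd n z)
  refine ⟨∑' n, g' n z, hF, fun v => ?_⟩
  have hS := hsumg.hasSum.mapL (ContinuousLinearMap.apply ℝ ℂ v)
  have hX := (summable_term L (hc.DX L).summable_norm z).of_norm.hasSum.mul_left (v.1 : ℂ)
  have hY := (summable_term L (hc.DY L).summable_norm z).of_norm.hasSum.mul_left (v.2 : ℂ)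
  have hXY := hX.add hY
  refine hS.unique ?_
  have e : (fun b => ((ContinuousLinearMap.apply ℝ ℂ) v) (g' b z))
      = fun b => (v.1 : ℂ) * (DX L c b * eb L b z) + (v.2 : ℂ) * (DY L c b * eb L b z) := by
    funext n
    simp only [hg', ContinuousLinearMap.apply_apply, ContinuousLinearMap.smulRight_apply, dL_apply,
      T2.DX, T2.DY, Complex.real_smul]
    push_cast
    ring
  rw [e]
  exact hXY

/-- The real part of the series. -/
def rv (c : Gm → ℂ) (z : ℝ × ℝ) : ℝ := (evc L c z).re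

lemma Jt_rv {c : Gm → ℂ} (hc : Rapid c) : Jt (rv L c) (rv L (DX L c)) (rv L (DY L c)) := by
  intro z
  obtain ⟨D, hD, hv⟩ := hasFDerivAt_evc L hc z
  have h := Complex.reCLM.hasFDerivAt.comp z hD
  refine h.congr_fderiv ?_
  ext
  · simp [hv, rv]
  · simp [hv, rv]

lemma contDiff_rv_nat (N : ℕ) : ∀ {c : Gm → ℂ}, Rapid c → ContDiff ℝ N (rv L c) := by
  induction N with
  | zero =>
    intro c hc
    simpa using (Jt_rv L hc).continuous
  | succ N ih =>
    intro c hc
    have J := Jt_rv L hc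
    have e : ((N + 1 : ℕ) : WithTop ℕ∞) = (N : WithTop ℕ∞) + 1 := by norm_cast
    rw [e, contDiff_succ_iff_fderiv]
    refine ⟨fun z => (J z).differentiableAt, by simp, ?_⟩
    have : fderiv ℝ (rv L c)
        = fun z => (rv L (DX L c) z) • fst ℝ ℝ ℝ + (rv L (DY L c) z) • snd ℝ ℝ ℝ := by
      funext z
      exact (J z).fderiv
    rw [this]
    exact ((ih (hc.DX L)).smul contDiff_const).add ((ih (hc.DY L)).smul contDiff_const)

lemma contDiff_rv {c : Gm → ℂ} (hc : Rapid c) : ContDiff ℝ ∞ (rv L c) :=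
  contDiff_infty.mpr fun N => contDiff_rv_nat L N hc

/-- Periodicity of the exponentials. -/
def LPer (l : ℝ × ℝ) : Prop := ∀ n, ∃ a : ℤ, L.kx n * l.1 + L.ky n * l.2 = 2 * Real.pi * a

lemma eb_per {l : ℝ × ℝ} (h : LPer L l) (n : Gm) (z : ℝ × ℝ) : eb L n (z + l) = eb L n z := by
  obtain ⟨a, ha⟩ := h n
  simp only [eb, Prod.fst_add, Prod.snd_add]
  have e : ((L.kx n * (z.1 + l.1) + L.ky n * (z.2 + l.2) : ℝ) : ℂ) * I
      = ((L.kx n * z.1 + L.ky n * z.2 : ℝ) : ℂ) * I + a * (2 * Real.pi * I) := by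
    have : L.kx n * (z.1 + l.1) + L.ky n * (z.2 + l.2)
        = L.kx n * z.1 + L.ky n * z.2 + 2 * Real.pi * a := by linear_combination ha
    rw [this]
    push_cast
    ring
  rw [e, Complex.exp_add, Complex.exp_int_mul_two_pi_mul_I, mul_one]

lemma rv_per {l : ℝ × ℝ} (h : LPer L l) (c : Gm → ℂ) : Pd (rv L c) l := by
  intro z
  simp only [rv, evc, eb_per L h]

/-- Reality of the series. -/
lemma evc_real {c : Gm → ℂ} (hsym : ∀ n, c (-n) = conj (c n)) (z : ℝ × ℝ) :
    evc L c z = (rv L c z : ℂ) := by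
  have h : conj (evc L c z) = evc L c z := by
    simp only [evc]
    rw [Complex.conj_tsum, ← (Equiv.neg Gm).tsum_eq]
    congr 1
    funext n
    simp only [Equiv.neg_apply, map_mul, hsym, eb_neg]
    simp
  exact (Complex.conj_eq_iff_re.mp h).symm

end

end Vale.Agent.Lib.P205.T2
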