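import Vale.Agent.Lib.P205.T2.Fourier2
import Vale.Agent.Lib.P205.T2.Ev

/-!
The frequency lattice dual to a period lattice and the Fourier expansion of smooth periodic
functions.
-/

namespace Vale.Agent.Lib.P205.T2

open Complex
open scoped Real ComplexConjugate ContDiff

noncomputable section

variable {l m : ℝ × ℝ}

lemma abs_int_ge_one {n : ℤ} (h : n ≠ 0) : (1:ℝ) ≤ (n:ℝ) ^ 2 := by
  have : (1:ℤ) ≤ n ^ 2 := by
    have := sq_pos_of_ne_zero (a := n) h
    omega
  exact_mod_cast this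

/-- First component of the frequency. -/
def lkx (l m : ℝ × ℝ) (n : Gm) : ℝ := (n.1 * m.2 - n.2 * l.2) * (2 * π / det2 l m)

/-- Second component of the frequency. -/
def lky (l m : ℝ × ℝ) (n : Gm) : ℝ := (- n.1 * m.1 + n.2 * l.1) * (2 * π / det2 l m)

lemma lk_l (hd : det2 l m ≠ 0) (n : Gm) : lkx l m n * l.1 + lky l m n * l.2 = 2 * π * n.1 := by
  simp only [lkx, lky]
  have e : ((n.1 : ℝ) * m.2 - n.2 * l.2) * (2 * π / det2 l m) * l.1
      + (- n.1 * m.1 + n.2 * l.1) * (2 * π / det2 l m) * l.2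
      = 2 * π * n.1 * (det2 l m / det2 l m) := by
    simp only [det2]
    ring
  rw [e, div_self hd, mul_one]

lemma lk_m (hd : det2 l m ≠ 0) (n : Gm) : lkx l m n * m.1 + lky l m n * m.2 = 2 * π * n.2 := by
  simp only [lkx, lky]
  have e : ((n.1 : ℝ) * m.2 - n.2 * l.2) * (2 * π / det2 l m) * m.1
      + (- n.1 * m.1 + n.2 * l.1) * (2 * π / det2 l m) * m.2
      = 2 * π * n.2 * (det2 l m / det2 l m) := by
    simp only [det2]
    ring
  rw [e, div_self hd, mul_one]

lemma lk_bound (hd : det2 l m ≠ 0) (a b c d : ℝ) (ha : |a| ≤ |l.1| + |l.2| + |m.1| + |m.2|)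
    (hb : |b| ≤ |l.1| + |l.2| + |m.1| + |m.2|) (n : Gm) :
    |(n.1 * a + n.2 * b) * (2 * π / det2 l m)|
      ≤ (|l.1| + |l.2| + |m.1| + |m.2| + 1) * (2 * π / |det2 l m|) * (1 + nrm n) := by
  have hp := Real.pi_pos
  have hD : 0 < |det2 l m| := abs_pos.mpr hd
  rw [abs_mul, abs_div, abs_mul, abs_of_pos hp, abs_two]
  have h1 := abs_add_le (n.1 * a : ℝ) (n.2 * b)
  rw [abs_mul, abs_mul] at h1
  have ha0 := abs_nonneg (n.1 : ℝ)
  have hb0 := abs_nonneg (n.2 : ℝ)
  set A := |l.1| + |l.2| + |m.1| + |m.2| with hA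
  have hA0 : 0 ≤ A := by positivity
  have h2 : |(n.1 : ℝ) * a + n.2 * b| ≤ (A + 1) * (1 + nrm n) := by
    have e1 : |(n.1 : ℝ)| * |a| ≤ |(n.1 : ℝ)| * A := mul_le_mul_of_nonneg_left ha ha0
    have e2 : |(n.2 : ℝ)| * |b| ≤ |(n.2 : ℝ)| * A := mul_le_mul_of_nonneg_left hb hb0
    simp only [nrm]
    nlinarith
  calc _ ≤ ((A + 1) * (1 + nrm n)) * (2 * π / |det2 l m|) :=
        mul_le_mul_of_nonneg_right h2 (by positivity)
    _ = _ := by ring

/-- The frequency lattice dual to the period lattice spanned by `l` and `m`. -/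
def latOf (l m : ℝ × ℝ) (hd : det2 l m ≠ 0) : Lat where
  kx := lkx l m
  ky := lky l m
  addx a b := by
    simp only [lkx, Prod.fst_add, Prod.snd_add, Int.cast_add]
    ring
  addy a b := by
    simp only [lky, Prod.fst_add, Prod.snd_add, Int.cast_add]
    ring
  K := (|l.1| + |l.2| + |m.1| + |m.2| + 1) * (2 * π / |det2 l m|)
  Kpos := by
    have := Real.pi_pos
    have : 0 < |det2 l m| := abs_pos.mpr hd
    positivity
  boundx n := by
    have h := lk_bound hd m.2 (- l.2) 0 0 (by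
      have := abs_nonneg l.1; have := abs_nonneg l.2; have := abs_nonneg m.1; linarith) (by
      rw [abs_neg]
      have := abs_nonneg l.1; have := abs_nonneg m.2; have := abs_nonneg m.1; linarith) n
    have e : lkx l m n = ((n.1 : ℝ) * m.2 + n.2 * (- l.2)) * (2 * π / det2 l m) := by
      simp only [lkx]
      ring
    rw [e]
    exact h
  boundy n := by
    have h := lk_bound hd (- m.1) l.1 0 0 (by
      rw [abs_neg]
      have := abs_nonneg l.1; have := abs_nonneg l.2; have := abs_nonneg m.2; linarith) (by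
      have := abs_nonneg l.2; have := abs_nonneg m.2; have := abs_nonneg m.1; linarith) n
    have e : lky l m n = ((n.1 : ℝ) * (- m.1) + n.2 * l.1) * (2 * π / det2 l m) := by
      simp only [lky]
      ring
    rw [e]
    exact h
  c := 4 * π ^ 2 / (l.1 ^ 2 + l.2 ^ 2 + m.1 ^ 2 + m.2 ^ 2 + 1)
  cpos := by
    have := Real.pi_pos
    positivity
  lower n hn := by
    have h1 := lk_l hd n
    have h2 := lk_m hd n
    set a := lkx l m n
    set b := lky l m n
    have hA : 0 < l.1 ^ 2 + l.2 ^ 2 + m.1 ^ 2 + m.2 ^ 2 + 1 := by positivity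
    rw [div_le_iff₀ hA]
    have c1 : (2 * π * n.1) ^ 2 ≤ (a ^ 2 + b ^ 2) * (l.1 ^ 2 + l.2 ^ 2) := by
      rw [← h1]
      nlinarith [sq_nonneg (a * l.2 - b * l.1)]
    have c2 : (2 * π * n.2) ^ 2 ≤ (a ^ 2 + b ^ 2) * (m.1 ^ 2 + m.2 ^ 2) := by
      rw [← h2]
      nlinarith [sq_nonneg (a * m.2 - b * m.1)]
    have hn' : (1:ℝ) ≤ (n.1 : ℝ) ^ 2 + (n.2 : ℝ) ^ 2 := by
      by_cases h0 : n.1 = 0
      · have h3 : n.2 ≠ 0 := by
          intro h4
          exact hn (Prod.ext h0 h4)
        have := abs_int_ge_one h3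
        nlinarith [sq_nonneg (n.1 : ℝ)]
      · have := abs_int_ge_one h0
        nlinarith [sq_nonneg (n.2 : ℝ)]
    have hpi : 0 ≤ 4 * π ^ 2 := by positivity
    have h5 : 0 ≤ a ^ 2 + b ^ 2 := by positivity
    nlinarith [mul_le_mul_of_nonneg_left hn' hpi]

lemma latOf_per_l (hd : det2 l m ≠ 0) : LPer (latOf l m hd) l := fun n =>
  ⟨n.1, lk_l hd n⟩

lemma latOf_per_m (hd : det2 l m ≠ 0) : LPer (latOf l m hd) m := fun n =>
  ⟨n.2, lk_m hd n⟩

/-- Smooth doubly periodic real functions have rapidly decreasing Hermitian coefficients. -/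
theorem exists_coeffs (hd : det2 l m ≠ 0) {u : ℝ × ℝ → ℝ} (hu : ContDiff ℝ ∞ u)
    (hul : Pd u l) (hum : Pd u m) :
    ∃ c : Gm → ℂ, Rapid c ∧ (∀ n, c (-n) = conj (c n)) ∧ ∀ z, evc (latOf l m hd) c z = (u z : ℂ) := by
  set f : ℝ × ℝ → ℂ := fun p => (u (p.1 • l + p.2 • m) : ℂ) with hf
  have hDP : DP f := by
    refine ⟨?_, ?_, ?_⟩
    · have h1 : ContDiff ℝ ∞ (fun p : ℝ × ℝ => u (p.1 • l + p.2 • m)) :=
        hu.comp ((contDiff_fst.smul contDiff_const).add (contDiff_snd.smul contDiff_const))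
      exact Complex.ofRealCLM.contDiff.comp h1
    · intro p
      have e : (p + (1, 0)).1 • l + (p + (1, 0)).2 • m = p.1 • l + p.2 • m + l := by
        simp only [Prod.fst_add, Prod.snd_add, add_zero, add_smul, one_smul]
        abel
      simp only [hf, e, hul _]
    · intro p
      have e : (p + (0, 1)).1 • l + (p + (0, 1)).2 • m = p.1 • l + p.2 • m + m := by
        simp only [Prod.fst_add, Prod.snd_add, add_zero, add_smul, one_smul]
        abel
      simp only [hf, e, hum _]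
  refine ⟨fun n => cc f n.1 n.2, ?_, ?_, ?_⟩
  · intro p
    obtain ⟨M, hM⟩ := decay (p + 1) hDP
    have hsum := summable_product.mul_left ((4:ℝ) ^ p * M)
    refine Summable.of_nonneg_of_le (fun n => ?_) (fun n => ?_) hsum
    · have := nrm_nonneg n
      positivity
    · have h := hM n.1 n.2
      set a : ℝ := (n.1 : ℝ)
      set b : ℝ := (n.2 : ℝ)
      set Q : ℝ := (1 + a ^ 2) * (1 + b ^ 2) with hQ
      have hQ1 : 0 < Q := by positivity
      have h0 : 1 + nrm n ≤ 4 * Q := by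
        simp only [nrm, hQ]
        have h1 : |a| ≤ 1 + a ^ 2 := by nlinarith [sq_abs a, sq_nonneg (|a| - 1)]
        have h2 : |b| ≤ 1 + b ^ 2 := by nlinarith [sq_abs b, sq_nonneg (|b| - 1)]
        have ha := abs_nonneg a
        have hb := abs_nonneg b
        nlinarith [sq_nonneg a, sq_nonneg b, mul_nonneg (sq_nonneg a) (sq_nonneg b)]
      have h3 : (1 + nrm n) ^ p ≤ (4 * Q) ^ p :=
        pow_le_pow_left₀ (by have := nrm_nonneg n; positivity) h0 p
      have hcn := norm_nonneg (cc f n.1 n.2)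
      have e : 4 ^ p * M * (1 / (1 + a ^ 2) * (1 / (1 + b ^ 2))) = 4 ^ p * M / Q := by
        rw [hQ]
        field_simp
      rw [e, le_div_iff₀ hQ1]
      calc (1 + nrm n) ^ p * ‖cc f n.1 n.2‖ * Q
          ≤ (4 * Q) ^ p * ‖cc f n.1 n.2‖ * Q := by gcongr
        _ = 4 ^ p * (Q ^ (p + 1) * ‖cc f n.1 n.2‖) := by
            rw [mul_pow, pow_succ]
            ring
        _ ≤ 4 ^ p * M := by
            apply mul_le_mul_of_nonneg_left h (by positivity)
  · intro n
    have hr : ∀ p, conj (f p) = f p := fun p => by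
      simp only [hf]
      exact Complex.conj_ofReal _
    exact cc_conj hr n.1 n.2
  · intro z
    obtain ⟨s, t, rfl⟩ := exists_coords hd z
    have h := hasSum_cc hDP s t
    have e : f (s, t) = (u (s • l + t • m) : ℂ) := rfl
    rw [e] at h
    rw [← h.tsum_eq]
    simp only [evc]
    congr 1
    funext n
    congr 1
    rw [← Complex.exp_add]
    simp only [eb]
    congr 1
    have e1 : (latOf l m hd).kx n * (s • l + t • m).1 + (latOf l m hd).ky n * (s • l + t • m).2
        = 2 * π * n.1 * s + 2 * π * n.2 * t := by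
      have h1 := lk_l hd n
      have h2 := lk_m hd n
      change lkx l m n * (s • l + t • m).1 + lky l m n * (s • l + t • m).2 = _
      simp only [Prod.fst_add, Prod.snd_add, Prod.smul_fst, Prod.smul_snd, smul_eq_mul]
      linear_combination s * h1 + t * h2
    rw [e1]
    push_cast
    ring

end

end Vale.Agent.Lib.P205.T2
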