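import Vale.Agent.Lib.P205.T2.Wiener

/-!
A rapidly decreasing family is summable against a submultiplicative weight which grows faster than
every polynomial.
-/

namespace Vale.Agent.Lib.P205.T2

noncomputable section

/-- The scale used at a given step of the construction. -/
def ttt (a : Gm → ℝ) (Q : Gm → ℝ) (j : ℕ) : ℝ := 2 ^ j * (1 + ∑' n, Q n * (nrm n * a n))

/-- The partial products. -/
def PP (a : Gm → ℝ) : ℕ → Gm → ℝ
  | 0 => fun _ => 1
  | j + 1 => fun n => PP a j n * (1 + nrm n / ttt a (PP a j) j)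

variable {a : Gm → ℝ} (ha0 : ∀ n, 0 ≤ a n)
  (ha : ∀ p : ℕ, Summable fun n => (1 + nrm n) ^ p * a n)

section
include ha0

lemma PP_one_le_and_T : ∀ j : ℕ, (∀ n, 1 ≤ PP a j n) ∧ (2 : ℝ) ^ j ≤ ttt a (PP a j) j := by
  intro j
  induction j with
  | zero =>
    refine ⟨fun _ => le_refl _, ?_⟩
    simp only [ttt, PP, pow_zero, one_mul, one_mul]
    have : 0 ≤ ∑' n, (nrm n * a n) := tsum_nonneg fun n => mul_nonneg (nrm_nonneg n) (ha0 n)
    linarith
  | succ j ih =>
    obtain ⟨h1, h2⟩ := ih
    have hT : 0 < ttt a (PP a j) j := lt_of_lt_of_le (by positivity) h2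
    have h3 : ∀ n, 1 ≤ PP a (j + 1) n := by
      intro n
      have : 0 ≤ nrm n / ttt a (PP a j) j := div_nonneg (nrm_nonneg n) hT.le
      have h4 := h1 n
      simp only [PP]
      nlinarith
    refine ⟨h3, ?_⟩
    simp only [ttt]
    have : 0 ≤ ∑' n, PP a (j + 1) n * (nrm n * a n) :=
      tsum_nonneg fun n => mul_nonneg (by linarith [h3 n]) (mul_nonneg (nrm_nonneg n) (ha0 n))
    have h5 : (0:ℝ) < 2 ^ (j + 1) := by positivity
    nlinarith

lemma PP_one_le (j : ℕ) (n : Gm) : 1 ≤ PP a j n := (PP_one_le_and_T ha0 j).1 n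

lemma T_ge (j : ℕ) : (2 : ℝ) ^ j ≤ ttt a (PP a j) j := (PP_one_le_and_T ha0 j).2

lemma T_pos (j : ℕ) : 0 < ttt a (PP a j) j :=
  lt_of_lt_of_le (by positivity) (T_ge ha0 j)

lemma T_one_le (j : ℕ) : 1 ≤ ttt a (PP a j) j :=
  le_trans (one_le_pow₀ (by norm_num)) (T_ge ha0 j)

lemma PP_le_pow (j : ℕ) (n : Gm) : PP a j n ≤ (1 + nrm n) ^ j := by
  induction j with
  | zero => simp [PP]
  | succ j ih =>
    have hT := T_one_le ha0 j
    have h0 := nrm_nonneg n
    have h1 : nrm n / ttt a (PP a j) j ≤ nrm n := div_le_self h0 hT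
    have h2 : 0 ≤ nrm n / ttt a (PP a j) j := div_nonneg h0 (by linarith)
    have h3 := PP_one_le ha0 j n
    simp only [PP, pow_succ]
    exact mul_le_mul ih (by linarith) (by linarith) (by positivity)

lemma PP_submul (j : ℕ) (n m : Gm) : PP a j (n + m) ≤ PP a j n * PP a j m := by
  induction j with
  | zero => simp [PP]
  | succ j ih =>
    have hT := T_pos ha0 j
    have h0 := nrm_nonneg n
    have h0' := nrm_nonneg m
    have h1 : nrm (n + m) / ttt a (PP a j) j ≤ nrm n / ttt a (PP a j) j + nrm m / ttt a (PP a j) j := by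
      rw [← add_div]
      exact div_le_div_of_nonneg_right (nrm_add_le n m) hT.le
    have h2 : 0 ≤ nrm n / ttt a (PP a j) j := div_nonneg h0 hT.le
    have h3 : 0 ≤ nrm m / ttt a (PP a j) j := div_nonneg h0' hT.le
    have h4 := PP_one_le ha0 j (n + m)
    simp only [PP]
    calc PP a j (n + m) * (1 + nrm (n + m) / ttt a (PP a j) j)
        ≤ (PP a j n * PP a j m) *
            ((1 + nrm n / ttt a (PP a j) j) * (1 + nrm m / ttt a (PP a j) j)) := by
          apply mul_le_mul ih ?_ (by have := div_nonneg (nrm_nonneg (n + m)) hT.le; linarith) ?_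
          · nlinarith
          · have := PP_one_le ha0 j n
            have := PP_one_le ha0 j m
            positivity
      _ = _ := by ring

lemma PP_mono (j : ℕ) (n : Gm) : PP a j n ≤ PP a (j + 1) n := by
  have hT := T_pos ha0 j
  have h0 := nrm_nonneg n
  have h2 : 0 ≤ nrm n / ttt a (PP a j) j := div_nonneg h0 hT.le
  have h3 := PP_one_le ha0 j n
  simp only [PP]
  nlinarith

lemma PP_le_exp (j : ℕ) (n : Gm) : PP a j n ≤ Real.exp (nrm n * (2 - 2 / 2 ^ j)) := by
  induction j with
  | zero => simp [PP]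
  | succ j ih =>
    have hT := T_ge ha0 j
    have hTp := T_pos ha0 j
    have h0 := nrm_nonneg n
    have h1 : nrm n / ttt a (PP a j) j ≤ nrm n / 2 ^ j :=
      div_le_div_of_nonneg_left h0 (by positivity) hT
    have h3 := PP_one_le ha0 j n
    have h4 : 1 + nrm n / ttt a (PP a j) j ≤ Real.exp (nrm n / 2 ^ j) := by
      have := Real.add_one_le_exp (nrm n / 2 ^ j)
      linarith
    simp only [PP]
    calc PP a j n * (1 + nrm n / ttt a (PP a j) j)
        ≤ Real.exp (nrm n * (2 - 2 / 2 ^ j)) * Real.exp (nrm n / 2 ^ j) :=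
          mul_le_mul ih h4 (by have := div_nonneg h0 hTp.le; linarith) (Real.exp_pos _).le
      _ = Real.exp (nrm n * (2 - 2 / 2 ^ (j + 1))) := by
          rw [← Real.exp_add]
          congr 1
          field_simp
          ring

lemma PP_bdd (n : Gm) : BddAbove (Set.range fun j => PP a j n) := by
  refine ⟨Real.exp (nrm n * 2), ?_⟩
  rintro _ ⟨j, rfl⟩
  refine (PP_le_exp ha0 j n).trans (Real.exp_le_exp.mpr ?_)
  have h0 := nrm_nonneg n
  have : 0 ≤ (2:ℝ) / 2 ^ j := by positivity
  nlinarith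

lemma PP_nrm_neg (j : ℕ) (n : Gm) : PP a j (-n) = PP a j n := by
  induction j with
  | zero => simp [PP]
  | succ j ih => simp only [PP, ih, nrm_neg]

lemma PP_zero (j : ℕ) : PP a j 0 = 1 := by
  induction j with
  | zero => simp [PP]
  | succ j ih => simp [PP, ih, nrm]

lemma PP_poly (p : ℕ) : ∃ C : ℝ, 0 < C ∧ ∀ n, (1 + nrm n) ^ p ≤ C * PP a p n := by
  induction p with
  | zero => exact ⟨1, one_pos, fun n => by simp [PP]⟩
  | succ p ih =>
    obtain ⟨C, hC, h⟩ := ih
    refine ⟨C * ttt a (PP a p) p, mul_pos hC (T_pos ha0 p), fun n => ?_⟩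
    have hT := T_one_le ha0 p
    have hTp := T_pos ha0 p
    have h0 := nrm_nonneg n
    have e : 1 + nrm n ≤ ttt a (PP a p) p * (1 + nrm n / ttt a (PP a p) p) := by
      rw [mul_add, mul_one, mul_div_cancel₀ _ hTp.ne']
      linarith
    simp only [PP, pow_succ]
    calc (1 + nrm n) ^ p * (1 + nrm n)
        ≤ (C * PP a p n) * (ttt a (PP a p) p * (1 + nrm n / ttt a (PP a p) p)) :=
          mul_le_mul (h n) e (by linarith) (by have := PP_one_le ha0 p n; positivity)
      _ = _ := by ring

include ha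

lemma summable_PP (j : ℕ) : Summable fun n => PP a j n * a n :=
  Summable.of_nonneg_of_le
    (fun n => mul_nonneg (by linarith [PP_one_le ha0 j n]) (ha0 n))
    (fun n => mul_le_mul_of_nonneg_right (PP_le_pow ha0 j n) (ha0 n)) (ha j)

lemma summable_PP_nrm (j : ℕ) : Summable fun n => PP a j n * (nrm n * a n) := by
  refine Summable.of_nonneg_of_le
    (fun n => mul_nonneg (by linarith [PP_one_le ha0 j n]) (mul_nonneg (nrm_nonneg n) (ha0 n)))
    (fun n => ?_) (ha (j + 1))
  have h1 := PP_le_pow ha0 j n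
  have h0 := nrm_nonneg n
  have h2 := ha0 n
  rw [pow_succ]
  calc PP a j n * (nrm n * a n) ≤ (1 + nrm n) ^ j * ((1 + nrm n) * a n) := by
        apply mul_le_mul h1 (mul_le_mul_of_nonneg_right (by linarith) h2) (by positivity)
          (by positivity)
    _ = _ := by ring

lemma sum_PP_le (j : ℕ) :
    ∑' n, PP a j n * a n ≤ ∑' n, a n + (2 - 2 / 2 ^ j) := by
  induction j with
  | zero => simp [PP]
  | succ j ih =>
    set T := ttt a (PP a j) j with hT
    have hTp : 0 < T := T_pos ha0 j
    have e : ∀ n, PP a (j + 1) n * a n = PP a j n * a n + (PP a j n * (nrm n * a n)) / T := by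
      intro n
      simp only [PP, ← hT]
      field_simp
    simp only [e]
    rw [(summable_PP ha0 ha j).tsum_add ((summable_PP_nrm ha0 ha j).div_const T), tsum_div_const]
    have h1 : (∑' n, PP a j n * (nrm n * a n)) / T ≤ 1 / 2 ^ j := by
      rw [hT]
      simp only [ttt]
      set Sg := ∑' n, PP a j n * (nrm n * a n) with hS
      have hS0 : 0 ≤ Sg := tsum_nonneg fun n =>
        mul_nonneg (by linarith [PP_one_le ha0 j n]) (mul_nonneg (nrm_nonneg n) (ha0 n))
      rw [div_le_div_iff₀ (by positivity) (by positivity)]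
      have : (0:ℝ) < 2 ^ j := by positivity
      nlinarith
    have h2 : (2:ℝ) - 2 / 2 ^ (j + 1) = 2 - 2 / 2 ^ j + 1 / 2 ^ j := by
      field_simp
      ring
    rw [h2]
    linarith

/-- **Existence of the weight.** -/
theorem exists_weight : ∃ w : Wt, Summable fun n => w.W n * a n := by
  set W : Gm → ℝ := fun n => ⨆ j, PP a j n with hW
  have hle : ∀ j n, PP a j n ≤ W n := fun j n => le_ciSup (PP_bdd ha0 n) j
  have hW1 : ∀ n, 1 ≤ W n := fun n => (PP_one_le ha0 0 n).trans (hle 0 n)
  have hW0 : W 0 = 1 := by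
    simp only [hW, PP_zero ha0]
    exact ciSup_const
  have hsub : ∀ n m, W (n + m) ≤ W n * W m := by
    intro n m
    refine ciSup_le fun j => (PP_submul ha0 j n m).trans ?_
    exact mul_le_mul (hle j n) (hle j m) (by linarith [PP_one_le ha0 j m]) (by linarith [hW1 n])
  have hsymm : ∀ n, W (-n) = W n := by
    intro n
    simp only [hW, PP_nrm_neg ha0]
  refine ⟨⟨W, hW1, hW0, hsub, hsymm, ?_⟩, ?_⟩
  · intro p
    obtain ⟨C, hC, h⟩ := PP_poly ha0 (a := a) p
    exact ⟨C, hC, fun n => (h n).trans (mul_le_mul_of_nonneg_left (hle p n) hC.le)⟩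
  · refine summable_of_sum_le (c := ∑' n, a n + 2) (fun n => mul_nonneg (by linarith [hW1 n]) (ha0 n)) ?_
    intro s
    -- pass to the limit in the partial products
    have hlim : Filter.Tendsto (fun j => ∑ n ∈ s, PP a j n * a n) Filter.atTop
        (nhds (∑ n ∈ s, W n * a n)) := by
      refine tendsto_finsetSum _ fun n _ => ?_
      refine Filter.Tendsto.mul_const _ ?_
      exact tendsto_atTop_ciSup (monotone_nat_of_le_succ fun j => PP_mono ha0 j n) (PP_bdd ha0 n)
    refine le_of_tendsto' hlim fun j => ?_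
    have h1 : ∑ n ∈ s, PP a j n * a n ≤ ∑' n, PP a j n * a n :=
      (summable_PP ha0 ha j).sum_le_tsum s
        (fun n _ => mul_nonneg (by linarith [PP_one_le ha0 j n]) (ha0 n))
    have h2 := sum_PP_le ha0 ha j
    have h3 : (0:ℝ) ≤ 2 / 2 ^ j := by positivity
    linarith

end

end

end Vale.Agent.Lib.P205.T2
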