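import Vale.Agent.Lib.P205.T2.Family
import Vale.Agent.Lib.P205.T2.Weight
import Vale.Agent.Lib.P205.T2.Lattice

/-!
From smooth periodic functions to the data of the fixed point problem and back to the partial
differential equation for functions on the plane.
-/

namespace Vale.Agent.Lib.P205.T2

open scoped ComplexConjugate ContDiff
open Complex

noncomputable section

/-- A smooth function with its derivatives up to third order. -/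
structure Jet3 where
  (f f₁ f₂ f₁₁ f₁₂ f₂₂ f₁₁₁ f₁₁₂ f₁₂₂ f₂₂₂ : ℝ × ℝ → ℝ)
  J₀ : Jt f f₁ f₂
  J₁ : Jt f₁ f₁₁ f₁₂
  J₂ : Jt f₂ f₁₂ f₂₂
  J₁₁ : Jt f₁₁ f₁₁₁ f₁₁₂
  J₁₂ : Jt f₁₂ f₁₁₂ f₁₂₂
  J₂₂ : Jt f₂₂ f₁₂₂ f₂₂₂
  s₀ : ContDiff ℝ ∞ f
  s₁ : ContDiff ℝ ∞ f₁
  s₂ : ContDiff ℝ ∞ f₂
  s₁₁ : ContDiff ℝ ∞ f₁₁
  s₁₂ : ContDiff ℝ ∞ f₁₂
  s₂₂ : ContDiff ℝ ∞ f₂₂
  s₁₁₁ : ContDiff ℝ ∞ f₁₁₁
  s₁₁₂ : ContDiff ℝ ∞ f₁₁₂
  s₁₂₂ : ContDiff ℝ ∞ f₁₂₂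
  s₂₂₂ : ContDiff ℝ ∞ f₂₂₂

/-- Periodicity of a jet. -/
structure Jet3.Per (J : Jet3) (l : ℝ × ℝ) : Prop where
  p₀ : Pd J.f l
  p₁ : Pd J.f₁ l
  p₂ : Pd J.f₂ l
  p₁₁ : Pd J.f₁₁ l
  p₁₂ : Pd J.f₁₂ l
  p₂₂ : Pd J.f₂₂ l

/-- The jet of an exponential series with rapidly decreasing coefficients. -/
def jetOf (L : Lat) (c : Gm → ℂ) (hc : Rapid c) : Jet3 where
  f := rv L c
  f₁ := rv L (DX L c)
  f₂ := rv L (DY L c)
  f₁₁ := rv L (DX L (DX L c))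
  f₁₂ := rv L (DX L (DY L c))
  f₂₂ := rv L (DY L (DY L c))
  f₁₁₁ := rv L (DX L (DX L (DX L c)))
  f₁₁₂ := rv L (DX L (DX L (DY L c)))
  f₁₂₂ := rv L (DX L (DY L (DY L c)))
  f₂₂₂ := rv L (DY L (DY L (DY L c)))
  J₀ := Jt_rv L hc
  J₁ := by
    have h := Jt_rv L (hc.DX L)
    rwa [← DX_DY] at h
  J₂ := Jt_rv L (hc.DY L)
  J₁₁ := by
    have h := Jt_rv L ((hc.DX L).DX L)
    rwa [← DX_DY, ← DX_DY L c] at h
  J₁₂ := by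
    have h := Jt_rv L ((hc.DY L).DX L)
    rwa [← DX_DY] at h
  J₂₂ := Jt_rv L ((hc.DY L).DY L)
  s₀ := contDiff_rv L hc
  s₁ := contDiff_rv L (hc.DX L)
  s₂ := contDiff_rv L (hc.DY L)
  s₁₁ := contDiff_rv L ((hc.DX L).DX L)
  s₁₂ := contDiff_rv L ((hc.DY L).DX L)
  s₂₂ := contDiff_rv L ((hc.DY L).DY L)
  s₁₁₁ := contDiff_rv L (((hc.DX L).DX L).DX L)
  s₁₁₂ := contDiff_rv L (((hc.DY L).DX L).DX L)
  s₁₂₂ := contDiff_rv L (((hc.DY L).DY L).DX L)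
  s₂₂₂ := contDiff_rv L (((hc.DY L).DY L).DY L)

lemma jetOf_per {L : Lat} {c : Gm → ℂ} (hc : Rapid c) {l : ℝ × ℝ} (h : LPer L l) :
    (jetOf L c hc).Per l where
  p₀ := rv_per L h _
  p₁ := rv_per L h _
  p₂ := rv_per L h _
  p₁₁ := rv_per L h _
  p₁₂ := rv_per L h _
  p₂₂ := rv_per L h _

namespace PD

variable (P : PD)

/-- The coefficient family of the unknown. -/
lemma coef_aJ (b : XX) (n : Gm) : coef P.w (P.aJ b) n = P.L.sJ n * coef P.w b n :=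
  coef_mlt P.w _ b n

lemma coef_aD1 (b : XX) : coef P.w (P.aD1 b) = DX P.L (coef P.w (P.aJ b)) := by
  funext n
  simp only [aD1, aJ, DX, coef_mlt, Lat.s1, Lat.sJ]
  push_cast
  ring

lemma coef_aD2 (b : XX) : coef P.w (P.aD2 b) = DY P.L (coef P.w (P.aJ b)) := by
  funext n
  simp only [aD2, aJ, DY, coef_mlt, Lat.s2, Lat.sJ]
  push_cast
  ring

lemma coef_aD11 (b : XX) : coef P.w (P.aD11 b) = DX P.L (DX P.L (coef P.w (P.aJ b))) := by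
  funext n
  simp only [aD11, aJ, DX, coef_mlt, Lat.s11, Lat.sJ]
  push_cast
  have : (P.L.kx n : ℂ) * I * ((P.L.kx n : ℂ) * I * ((1 / (P.L.den n : ℂ)) * coef P.w b n))
      = (P.L.kx n : ℂ) ^ 2 * I ^ 2 * ((1 / (P.L.den n : ℂ)) * coef P.w b n) := by ring
  rw [this, Complex.I_sq]
  ring

lemma coef_aD12 (b : XX) : coef P.w (P.aD12 b) = DX P.L (DY P.L (coef P.w (P.aJ b))) := by
  funext n
  simp only [aD12, aJ, DX, DY, coef_mlt, Lat.s12, Lat.sJ]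
  push_cast
  have : (P.L.kx n : ℂ) * I * ((P.L.ky n : ℂ) * I * ((1 / (P.L.den n : ℂ)) * coef P.w b n))
      = (P.L.kx n : ℂ) * (P.L.ky n : ℂ) * I ^ 2 * ((1 / (P.L.den n : ℂ)) * coef P.w b n) := by ring
  rw [this, Complex.I_sq]
  ring

lemma coef_aD22 (b : XX) : coef P.w (P.aD22 b) = DY P.L (DY P.L (coef P.w (P.aJ b))) := by
  funext n
  simp only [aD22, aJ, DY, coef_mlt, Lat.s22, Lat.sJ]
  push_cast
  have : (P.L.ky n : ℂ) * I * ((P.L.ky n : ℂ) * I * ((1 / (P.L.den n : ℂ)) * coef P.w b n))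
      = (P.L.ky n : ℂ) ^ 2 * I ^ 2 * ((1 / (P.L.den n : ℂ)) * coef P.w b n) := by ring
  rw [this, Complex.I_sq]
  ring

/-- The jet of the unknown. -/
def jetF (b : XX) : Jet3 := jetOf P.L (coef P.w (P.aJ b)) (P.rapid_coef _)

lemma jetF_f (b : XX) : (P.jetF b).f = P.rf (P.aJ b) := rfl
lemma jetF_f₁ (b : XX) : (P.jetF b).f₁ = P.rf (P.aD1 b) := by
  change rv P.L _ = rv P.L (coef P.w (P.aD1 b))
  rw [coef_aD1]
lemma jetF_f₂ (b : XX) : (P.jetF b).f₂ = P.rf (P.aD2 b) := by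
  change rv P.L _ = rv P.L (coef P.w (P.aD2 b))
  rw [coef_aD2]
lemma jetF_f₁₁ (b : XX) : (P.jetF b).f₁₁ = P.rf (P.aD11 b) := by
  change rv P.L _ = rv P.L (coef P.w (P.aD11 b))
  rw [coef_aD11]
lemma jetF_f₁₂ (b : XX) : (P.jetF b).f₁₂ = P.rf (P.aD12 b) := by
  change rv P.L _ = rv P.L (coef P.w (P.aD12 b))
  rw [coef_aD12]
lemma jetF_f₂₂ (b : XX) : (P.jetF b).f₂₂ = P.rf (P.aD22 b) := by
  change rv P.L _ = rv P.L (coef P.w (P.aD22 b))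
  rw [coef_aD22]

end PD

/-- The function `X` in terms of its arguments. -/
def Xr (σ f₁ f₂ u₁ u₂ : ℝ) : ℝ := (σ * u₁ + f₁) ^ 2 + (σ * u₂ + f₂) ^ 2

/-- First diagonal entry of the matrix in the equation. -/
def M11r (σ f₁ f₂ f₁₁ u₁ u₂ u₁₁ : ℝ) : ℝ :=
  σ ^ 2 * u₁₁ + σ * f₁₁ + σ * (f₁ * u₁ - f₂ * u₂) - f₂ ^ 2

/-- Second diagonal entry of the matrix in the equation. -/
def M22r (σ f₁ f₂ f₂₂ u₁ u₂ u₂₂ : ℝ) : ℝ :=
  σ ^ 2 * u₂₂ + σ * f₂₂ - σ * (f₁ * u₁ - f₂ * u₂) - f₁ ^ 2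

/-- Off-diagonal entry of the matrix in the equation. -/
def M12r (σ f₁ f₂ f₁₂ u₁ u₂ u₁₂ : ℝ) : ℝ :=
  σ ^ 2 * u₁₂ + σ * f₁₂ + σ * (f₁ * u₂ + f₂ * u₁) + f₁ * f₂

namespace PD

variable (P : PD)

lemma rf_XQ {b : XX} (h : Rl b) (z : ℝ × ℝ) :
    P.rf (P.XQ b) z = Xr (1 + P.rf (P.aJ b) z) (P.rf (P.aD1 b) z) (P.rf (P.aD2 b) z)
      (P.rf P.U1 z) (P.rf P.U2 z) := by
  apply Complex.ofReal_injective
  rw [← P.fn_real (P.Rl_XQ h) z]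
  simp only [XQ, P1, P2, sg, fn_add, fn_mul, fn_one, P.fn_real (P.Rl_aJ h), P.fn_real (P.Rl_aD1 h),
    P.fn_real (P.Rl_aD2 h), P.fn_real P.r1, P.fn_real P.r2]
  simp only [Xr]
  push_cast
  ring

/-- **The equation**, for functions on the plane. -/
lemma pde_real {ε : ℝ} {b : XX} (hr : Rl b) (h : P.TT ε b = b) :
    ∃ m₀ : ℝ, ∀ z : ℝ × ℝ,
    (1 - ε * Xr (1 + P.rf (P.aJ b) z) (P.rf (P.aD1 b) z) (P.rf (P.aD2 b) z)
        (P.rf P.U1 z) (P.rf P.U2 z))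
      * ((1 + P.rf (P.aJ b) z) * (P.rf (P.aD11 b) z + P.rf (P.aD22 b) z)
        - (P.rf (P.aD1 b) z ^ 2 + P.rf (P.aD2 b) z ^ 2))
      - ε * (M11r (1 + P.rf (P.aJ b) z) (P.rf (P.aD1 b) z) (P.rf (P.aD2 b) z) (P.rf (P.aD11 b) z)
            (P.rf P.U1 z) (P.rf P.U2 z) (P.rf P.U11 z)
          * M22r (1 + P.rf (P.aJ b) z) (P.rf (P.aD1 b) z) (P.rf (P.aD2 b) z) (P.rf (P.aD22 b) z)
            (P.rf P.U1 z) (P.rf P.U2 z) (P.rf P.U22 z)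
        - M12r (1 + P.rf (P.aJ b) z) (P.rf (P.aD1 b) z) (P.rf (P.aD2 b) z) (P.rf (P.aD12 b) z)
            (P.rf P.U1 z) (P.rf P.U2 z) (P.rf P.U12 z) ^ 2) = m₀ := by
  set N := P.N1 b + (ε : ℂ) • P.N2 b with hN
  have hNr : Rl N := (P.Rl_N1 hr).add ((P.Rl_N2 hr).smul ε)
  set c := coef P.w N 0 with hc
  have hcr : conj c = c := by
    have := coef_Rl P.w hNr 0
    rw [neg_zero] at this
    exact this.symm
  refine ⟨- c.re, fun z => ?_⟩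
  have hcc : c = (c.re : ℂ) := (Complex.conj_eq_iff_re.mp hcr).symm
  have e := congrArg (fun x => P.fn x z) (P.aDl_eq h)
  simp only [← hN, ← hc] at e
  simp only [hN, aDl, N1, N2, XQ, P1, P2, sS, sT, M11, M22, M12, sg, aDl, fn_add, fn_sub, fn_smul,
    fn_mul, fn_one, P.fn_real (P.Rl_aJ hr), P.fn_real (P.Rl_aD1 hr), P.fn_real (P.Rl_aD2 hr),
    P.fn_real (P.Rl_aD11 hr), P.fn_real (P.Rl_aD12 hr), P.fn_real (P.Rl_aD22 hr),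
    P.fn_real P.r1, P.fn_real P.r2, P.fn_real P.r11, P.fn_real P.r12, P.fn_real P.r22] at e
  rw [hcc] at e
  apply Complex.ofReal_injective
  simp only [Xr, M11r, M22r, M12r]
  push_cast
  linear_combination e

end PD

end

end Vale.Agent.Lib.P205.T2
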