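import Mathlib

/-!
Convolution of summable families on the lattice `ℤ × ℤ`.
-/

namespace Vale.Agent.Lib.P205.T2

noncomputable section

/-- The index lattice. -/
abbrev Gm := ℤ × ℤ

/-- Convolution. -/
def cv (f g : Gm → ℂ) (n : Gm) : ℂ := ∑' m, f m * g (n - m)

/-- The shear of the product of the lattice with itself. -/
def shear : Gm × Gm ≃ Gm × Gm where
  toFun p := (p.2, p.1 - p.2)
  invFun p := (p.1 + p.2, p.1)
  left_inv p := by simp
  right_inv p := by simp

variable {f g : Gm → ℂ}

lemma summable_shear (hf : Summable fun n => ‖f n‖) (hg : Summable fun n => ‖g n‖) :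
    Summable (fun p : Gm × Gm => f p.2 * g (p.1 - p.2)) := by
  have h := summable_mul_of_summable_norm hf hg
  exact (shear.summable_iff (f := fun p : Gm × Gm => f p.1 * g p.2)).mpr h

lemma summable_cv_inner (hf : Summable fun n => ‖f n‖) (hg : Summable fun n => ‖g n‖) (n : Gm) :
    Summable (fun m => f m * g (n - m)) :=
  (summable_shear hf hg).prod_factor n

lemma tsum_cv (hf : Summable fun n => ‖f n‖) (hg : Summable fun n => ‖g n‖) :
    ∑' n, cv f g n = (∑' n, f n) * (∑' n, g n) := by
  rw [tsum_mul_tsum_of_summable_norm hf hg]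
  have h1 := (summable_shear hf hg).tsum_prod
  have h2 := shear.tsum_eq (fun p : Gm × Gm => f p.1 * g p.2)
  simp only [shear, Equiv.coe_fn_mk] at h2
  rw [← h2, h1]
  rfl

lemma summable_real_cv {a b : Gm → ℝ} (ha0 : ∀ n, 0 ≤ a n) (hb0 : ∀ n, 0 ≤ b n)
    (ha : Summable a) (hb : Summable b) :
    Summable (fun n => ∑' m, a m * b (n - m)) ∧
      ∑' n, ∑' m, a m * b (n - m) = (∑' n, a n) * (∑' n, b n) := by
  have hane : Summable fun n => ‖a n‖ := by simpa [abs_of_nonneg (ha0 _)] using ha
  have hbne : Summable fun n => ‖b n‖ := by simpa [abs_of_nonneg (hb0 _)] using hb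
  have h := summable_mul_of_summable_norm hane hbne
  have h' : Summable (fun p : Gm × Gm => a p.2 * b (p.1 - p.2)) :=
    (shear.summable_iff (f := fun p : Gm × Gm => a p.1 * b p.2)).mpr h
  refine ⟨h'.prod, ?_⟩
  rw [tsum_mul_tsum_of_summable_norm hane hbne]
  have h1 := h'.tsum_prod
  have h2 := shear.tsum_eq (fun p : Gm × Gm => a p.1 * b p.2)
  simp only [shear, Equiv.coe_fn_mk] at h2
  rw [← h2, h1]

end

end Vale.Agent.Lib.P205.T2
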