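import Vale.Agent.Lib.P205.T2.Frame

/-!
Flat coordinates for a flat metric on the plane with doubly periodic coefficients.
-/

namespace Vale.Agent.Lib.P205.T2

open scoped ContDiff

noncomputable section

/-- Smoothness of the input data. -/
structure GeoSmooth (G : Geo) : Prop where
  E : ContDiff ℝ ∞ G.E
  φ₁ : ContDiff ℝ ∞ G.φ₁
  φ₂ : ContDiff ℝ ∞ G.φ₂
  φ₁₁ : ContDiff ℝ ∞ G.φ₁₁
  φ₁₂ : ContDiff ℝ ∞ G.φ₁₂
  φ₂₂ : ContDiff ℝ ∞ G.φ₂₂
  p₁ : ContDiff ℝ ∞ G.p₁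
  p₂ : ContDiff ℝ ∞ G.p₂
  s₁₁ : ContDiff ℝ ∞ G.s₁₁
  s₁₂ : ContDiff ℝ ∞ G.s₁₂
  s₂₂ : ContDiff ℝ ∞ G.s₂₂
  t₁ : ContDiff ℝ ∞ G.t₁
  t₂ : ContDiff ℝ ∞ G.t₂
  t₃ : ContDiff ℝ ∞ G.t₃
  t₄ : ContDiff ℝ ∞ G.t₄

/-- Periodicity of the input data. -/
structure GeoPer (G : Geo) (l : ℝ × ℝ) : Prop where
  E : Pd G.E l
  φ₁ : Pd G.φ₁ l
  φ₂ : Pd G.φ₂ l
  p₁ : Pd G.p₁ l
  p₂ : Pd G.p₂ l
  s₁₁ : Pd G.s₁₁ l
  s₁₂ : Pd G.s₁₂ l
  s₂₂ : Pd G.s₂₂ l

namespace Geo

variable (G : Geo)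

section smooth

variable {G} (hs : GeoSmooth G)
include hs

lemma δ_smooth : ContDiff ℝ ∞ G.δ :=
  ContDiff.sqrt ((hs.E.pow 2).sub (contDiff_const.mul ((hs.p₁.pow 2).add (hs.p₂.pow 2))))
    (fun z => (G.radpos z).ne')

lemma r_smooth : ContDiff ℝ ∞ G.r := hs.E.add (δ_smooth hs)

lemma Q_smooth : ContDiff ℝ ∞ G.Q :=
  (contDiff_const.mul ((hs.p₁.pow 2).sub (hs.p₂.pow 2))).div (contDiff_const.mul (r_smooth hs))
    (fun z => by have := G.r_pos z; positivity)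

lemma q_smooth : ContDiff ℝ ∞ G.q :=
  (contDiff_const.mul (hs.p₁.mul hs.p₂)).div (r_smooth hs) (fun z => (G.r_pos z).ne')

lemma S₁₁_smooth : ContDiff ℝ ∞ G.S₁₁ :=
  ((r_smooth hs).div_const 2).sub (Q_smooth hs)

lemma S₁₂_smooth : ContDiff ℝ ∞ G.S₁₂ := (q_smooth hs).neg

lemma S₂₂_smooth : ContDiff ℝ ∞ G.S₂₂ :=
  ((r_smooth hs).div_const 2).add (Q_smooth hs)

lemma Ed_smooth : ContDiff ℝ ∞ G.Ed := hs.E.div (δ_smooth hs) (fun z => (G.δ_pos z).ne')

lemma Xi_smooth : ContDiff ℝ ∞ G.Xi :=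
  contDiff_const.div ((r_smooth hs).mul (δ_smooth hs))
    (fun z => (mul_pos (G.r_pos z) (G.δ_pos z)).ne')

lemma a₁_smooth : ContDiff ℝ ∞ G.a₁ :=
  ((Ed_smooth hs).mul hs.φ₂).neg.add
    ((Xi_smooth hs).mul ((hs.p₁.mul hs.s₁₂).sub (hs.p₂.mul hs.s₁₁)))

lemma a₂_smooth : ContDiff ℝ ∞ G.a₂ :=
  ((Ed_smooth hs).mul hs.φ₁).add
    ((Xi_smooth hs).mul ((hs.p₁.mul hs.s₂₂).sub (hs.p₂.mul hs.s₁₂)))

lemma dx_cont : Continuous G.dx :=
  (((hs.E.continuous.pow 2).mul hs.φ₁.continuous).sub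
    (continuous_const.mul ((hs.p₁.continuous.mul hs.s₁₁.continuous).add
      (hs.p₂.continuous.mul hs.s₁₂.continuous)))).div (δ_smooth hs).continuous
    (fun z => (G.δ_pos z).ne')

lemma dy_cont : Continuous G.dy :=
  (((hs.E.continuous.pow 2).mul hs.φ₂.continuous).sub
    (continuous_const.mul ((hs.p₁.continuous.mul hs.s₁₂.continuous).add
      (hs.p₂.continuous.mul hs.s₂₂.continuous)))).div (δ_smooth hs).continuous
    (fun z => (G.δ_pos z).ne')

lemma rx_cont : Continuous G.rx :=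
  (hs.E.continuous.mul hs.φ₁.continuous).add (dx_cont hs)

lemma ry_cont : Continuous G.ry :=
  (hs.E.continuous.mul hs.φ₂.continuous).add (dy_cont hs)

lemma Edx_cont : Continuous G.Edx := by
  refine Continuous.div (((hs.E.continuous.mul hs.φ₁.continuous).mul (δ_smooth hs).continuous).sub
    (hs.E.continuous.mul (dx_cont hs))) ((δ_smooth hs).continuous.pow 2) ?_
  exact fun z => by have := G.δ_pos z; positivity

lemma Edy_cont : Continuous G.Edy := by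
  refine Continuous.div (((hs.E.continuous.mul hs.φ₂.continuous).mul (δ_smooth hs).continuous).sub
    (hs.E.continuous.mul (dy_cont hs))) ((δ_smooth hs).continuous.pow 2) ?_
  exact fun z => by have := G.δ_pos z; positivity

lemma Xix_cont : Continuous G.Xix := by
  refine Continuous.div (continuous_const.mul (((rx_cont hs).mul (δ_smooth hs).continuous).add
    ((r_smooth hs).continuous.mul (dx_cont hs)))).neg
    (((r_smooth hs).continuous.mul (δ_smooth hs).continuous).pow 2) ?_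
  exact fun z => by have := G.δ_pos z; have := G.r_pos z; positivity

lemma Xiy_cont : Continuous G.Xiy := by
  refine Continuous.div (continuous_const.mul (((ry_cont hs).mul (δ_smooth hs).continuous).add
    ((r_smooth hs).continuous.mul (dy_cont hs)))).neg
    (((r_smooth hs).continuous.mul (δ_smooth hs).continuous).pow 2) ?_
  exact fun z => by have := G.δ_pos z; have := G.r_pos z; positivity

lemma a₁x_cont : Continuous G.a₁x := by
  have h1 := hs.φ₁₂.continuous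
  have h2 := hs.φ₂.continuous
  have h3 := (Edx_cont hs)
  have h4 := (Ed_smooth hs).continuous
  have h5 := (Xix_cont hs)
  have h6 := (Xi_smooth hs).continuous
  have h7 := hs.p₁.continuous
  have h8 := hs.p₂.continuous
  have h9 := hs.t₁.continuous
  have h10 := hs.t₂.continuous
  have h11 : Continuous G.w₁ :=
    (hs.p₁.continuous.mul hs.s₁₂.continuous).sub (hs.p₂.continuous.mul hs.s₁₁.continuous)
  unfold a₁x
  fun_prop

lemma a₁y_cont : Continuous G.a₁y := by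
  have h1 := hs.φ₂₂.continuous
  have h2 := hs.φ₂.continuous
  have h3 := (Edy_cont hs)
  have h4 := (Ed_smooth hs).continuous
  have h5 := (Xiy_cont hs)
  have h6 := (Xi_smooth hs).continuous
  have h7 := hs.p₁.continuous
  have h8 := hs.p₂.continuous
  have h9 := hs.t₃.continuous
  have h10 := hs.t₂.continuous
  have h11 : Continuous G.w₁ :=
    (hs.p₁.continuous.mul hs.s₁₂.continuous).sub (hs.p₂.continuous.mul hs.s₁₁.continuous)
  have h12 := hs.s₁₁.continuous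
  have h13 := hs.s₁₂.continuous
  have h14 := hs.s₂₂.continuous
  unfold a₁y
  fun_prop

lemma a₂x_cont : Continuous G.a₂x := by
  have h1 := hs.φ₁₁.continuous
  have h2 := hs.φ₁.continuous
  have h3 := (Edx_cont hs)
  have h4 := (Ed_smooth hs).continuous
  have h5 := (Xix_cont hs)
  have h6 := (Xi_smooth hs).continuous
  have h7 := hs.p₁.continuous
  have h8 := hs.p₂.continuous
  have h9 := hs.t₃.continuous
  have h10 := hs.t₂.continuous
  have h11 : Continuous G.w₂ :=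
    (hs.p₁.continuous.mul hs.s₂₂.continuous).sub (hs.p₂.continuous.mul hs.s₁₂.continuous)
  have h12 := hs.s₁₁.continuous
  have h13 := hs.s₁₂.continuous
  have h14 := hs.s₂₂.continuous
  unfold a₂x
  fun_prop

lemma a₂y_cont : Continuous G.a₂y := by
  have h1 := hs.φ₁₂.continuous
  have h2 := hs.φ₁.continuous
  have h3 := (Edy_cont hs)
  have h4 := (Ed_smooth hs).continuous
  have h5 := (Xiy_cont hs)
  have h6 := (Xi_smooth hs).continuous
  have h7 := hs.p₁.continuous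
  have h8 := hs.p₂.continuous
  have h9 := hs.t₃.continuous
  have h10 := hs.t₄.continuous
  have h11 : Continuous G.w₂ :=
    (hs.p₁.continuous.mul hs.s₂₂.continuous).sub (hs.p₂.continuous.mul hs.s₁₂.continuous)
  unfold a₂y
  fun_prop

end smooth

section periodic

variable {G} {l : ℝ × ℝ} (hp : GeoPer G l)
include hp

lemma δ_per : Pd G.δ l := fun z => by
  simp only [δ, hp.E z, hp.p₁ z, hp.p₂ z]

lemma r_per : Pd G.r l := fun z => by
  simp only [r, hp.E z, δ_per hp z]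

lemma Q_per : Pd G.Q l := fun z => by
  simp only [Q, hp.p₁ z, hp.p₂ z, r_per hp z]

lemma q_per : Pd G.q l := fun z => by
  simp only [q, hp.p₁ z, hp.p₂ z, r_per hp z]

lemma S₁₁_per : Pd G.S₁₁ l := fun z => by
  simp only [S₁₁, Q_per hp z, r_per hp z]

lemma S₁₂_per : Pd G.S₁₂ l := fun z => by
  simp only [S₁₂, q_per hp z]

lemma S₂₂_per : Pd G.S₂₂ l := fun z => by
  simp only [S₂₂, Q_per hp z, r_per hp z]

lemma a₁_per : Pd G.a₁ l := fun z => by
  simp only [a₁, Ed, Xi, w₁, hp.E z, δ_per hp z, r_per hp z, hp.φ₂ z, hp.p₁ z, hp.p₂ z, hp.s₁₁ z,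
    hp.s₁₂ z]

lemma a₂_per : Pd G.a₂ l := fun z => by
  simp only [a₂, Ed, Xi, w₂, hp.E z, δ_per hp z, r_per hp z, hp.φ₁ z, hp.p₁ z, hp.p₂ z, hp.s₂₂ z,
    hp.s₁₂ z]

end periodic

/-- If the Gauss curvature has a fixed sign then it vanishes. -/
theorem curvature_zero {G : Geo} (hs : GeoSmooth G) {l m : ℝ × ℝ} (hl : GeoPer G l)
    (hm : GeoPer G m) (hd : det2 l m ≠ 0) {κ : ℝ} {P : ℝ × ℝ → ℝ}
    (hk : ∀ z, (G.φ₁₁ z + G.φ₂₂ z) * G.δ z ^ 2 + G.ε * G.C z = κ * P z) (hP : ∀ z, 0 < P z) :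
    κ = 0 := by
  by_contra hne
  have hcurl : ∀ z, G.a₂x z - G.a₁y z = G.E z / G.δ z ^ 3 * (κ * P z) := by
    intro z
    rw [G.curl_eq z, hk z]
  rcases lt_or_gt_of_ne hne with hneg | hpos
  · refine no_pos_curl G.Ja₁.neg G.Ja₂.neg (a₁x_cont hs).neg (a₁y_cont hs).neg
      (a₂x_cont hs).neg (a₂y_cont hs).neg ?_ ?_ ?_ ?_ hd ?_
    · exact fun z => by simp only [a₁_per hl z]
    · exact fun z => by simp only [a₁_per hm z]
    · exact fun z => by simp only [a₂_per hl z]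
    · exact fun z => by simp only [a₂_per hm z]
    · intro z
      have h1 : 0 < G.E z / G.δ z ^ 3 := div_pos (G.Epos z) (pow_pos (G.δ_pos z) 3)
      have h2 := hcurl z
      have h3 : G.E z / G.δ z ^ 3 * (κ * P z) < 0 :=
        mul_neg_of_pos_of_neg h1 (mul_neg_of_neg_of_pos hneg (hP z))
      linarith
  · refine no_pos_curl G.Ja₁ G.Ja₂ (a₁x_cont hs) (a₁y_cont hs)
      (a₂x_cont hs) (a₂y_cont hs) (a₁_per hl) (a₁_per hm) (a₂_per hl) (a₂_per hm) hd ?_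
    intro z
    have h1 : 0 < G.E z / G.δ z ^ 3 := div_pos (G.Epos z) (pow_pos (G.δ_pos z) 3)
    have h2 := hcurl z
    have h3 : 0 < G.E z / G.δ z ^ 3 * (κ * P z) := mul_pos h1 (mul_pos hpos (hP z))
    linarith

/-- Flatness of the metric. -/
def Flat (G : Geo) : Prop := ∀ z, (G.φ₁₁ z + G.φ₂₂ z) * G.δ z ^ 2 + G.ε * G.C z = 0

section flat

variable {G} (hf : G.Flat)
include hf

lemma a_closed (z : ℝ × ℝ) : G.a₁y z = G.a₂x z := by
  have := G.curl_eq z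
  rw [hf z, mul_zero] at this
  linarith

/-- The rotation angle of the flat frame. -/
def ang (G : Geo) : ℝ × ℝ → ℝ := Pot G.a₁ G.a₂

lemma Jang : Jt G.ang G.a₁ G.a₂ := Jt_Pot G.Ja₁ G.Ja₂ (a_closed hf)

omit hf in
/-- The first component of the first coordinate differential. -/
def Ax (G : Geo) (z : ℝ × ℝ) : ℝ :=
  Real.cos (G.ang z) * G.S₁₁ z - Real.sin (G.ang z) * G.S₁₂ z
/-- The second component of the first coordinate differential. -/
def Ay (G : Geo) (z : ℝ × ℝ) : ℝ :=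
  Real.cos (G.ang z) * G.S₁₂ z - Real.sin (G.ang z) * G.S₂₂ z
/-- The first component of the second coordinate differential. -/
def Bx (G : Geo) (z : ℝ × ℝ) : ℝ :=
  Real.sin (G.ang z) * G.S₁₁ z + Real.cos (G.ang z) * G.S₁₂ z
/-- The second component of the second coordinate differential. -/
def By (G : Geo) (z : ℝ × ℝ) : ℝ :=
  Real.sin (G.ang z) * G.S₁₂ z + Real.cos (G.ang z) * G.S₂₂ z

lemma JAx : Jt G.Ax
    (fun z => - Real.sin (G.ang z) * G.a₁ z * G.S₁₁ z + Real.cos (G.ang z) * G.S₁₁x z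
      - (Real.cos (G.ang z) * G.a₁ z * G.S₁₂ z + Real.sin (G.ang z) * G.S₁₂x z))
    (fun z => - Real.sin (G.ang z) * G.a₂ z * G.S₁₁ z + Real.cos (G.ang z) * G.S₁₁y z
      - (Real.cos (G.ang z) * G.a₂ z * G.S₁₂ z + Real.sin (G.ang z) * G.S₁₂y z)) :=
  (((Jang hf).cos).mul G.JS₁₁).sub (((Jang hf).sin).mul G.JS₁₂)

lemma JAy : Jt G.Ay
    (fun z => - Real.sin (G.ang z) * G.a₁ z * G.S₁₂ z + Real.cos (G.ang z) * G.S₁₂x z
      - (Real.cos (G.ang z) * G.a₁ z * G.S₂₂ z + Real.sin (G.ang z) * G.S₂₂x z))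
    (fun z => - Real.sin (G.ang z) * G.a₂ z * G.S₁₂ z + Real.cos (G.ang z) * G.S₁₂y z
      - (Real.cos (G.ang z) * G.a₂ z * G.S₂₂ z + Real.sin (G.ang z) * G.S₂₂y z)) :=
  (((Jang hf).cos).mul G.JS₁₂).sub (((Jang hf).sin).mul G.JS₂₂)

lemma JBx : Jt G.Bx
    (fun z => Real.cos (G.ang z) * G.a₁ z * G.S₁₁ z + Real.sin (G.ang z) * G.S₁₁x z
      + (- Real.sin (G.ang z) * G.a₁ z * G.S₁₂ z + Real.cos (G.ang z) * G.S₁₂x z))
    (fun z => Real.cos (G.ang z) * G.a₂ z * G.S₁₁ z + Real.sin (G.ang z) * G.S₁₁y z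
      + (- Real.sin (G.ang z) * G.a₂ z * G.S₁₂ z + Real.cos (G.ang z) * G.S₁₂y z)) :=
  (((Jang hf).sin).mul G.JS₁₁).add (((Jang hf).cos).mul G.JS₁₂)

lemma JBy : Jt G.By
    (fun z => Real.cos (G.ang z) * G.a₁ z * G.S₁₂ z + Real.sin (G.ang z) * G.S₁₂x z
      + (- Real.sin (G.ang z) * G.a₁ z * G.S₂₂ z + Real.cos (G.ang z) * G.S₂₂x z))
    (fun z => Real.cos (G.ang z) * G.a₂ z * G.S₁₂ z + Real.sin (G.ang z) * G.S₁₂y z
      + (- Real.sin (G.ang z) * G.a₂ z * G.S₂₂ z + Real.cos (G.ang z) * G.S₂₂y z)) :=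
  (((Jang hf).sin).mul G.JS₁₂).add (((Jang hf).cos).mul G.JS₂₂)

/-- The first flat coordinate. -/
def Th (G : Geo) : ℝ × ℝ → ℝ := Pot G.Ax G.Ay

/-- The second flat coordinate. -/
def Ta (G : Geo) : ℝ × ℝ → ℝ := Pot G.Bx G.By

lemma JTh : Jt G.Th G.Ax G.Ay := by
  refine Jt_Pot (JAx hf) (JAy hf) ?_
  intro z
  have e1 := G.struct_eq1 z
  have e2 := G.struct_eq2 z
  linear_combination (- Real.cos (G.ang z)) * e1 + (Real.sin (G.ang z)) * e2

lemma JTa : Jt G.Ta G.Bx G.By := by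
  refine Jt_Pot (JBx hf) (JBy hf) ?_
  intro z
  have e1 := G.struct_eq1 z
  have e2 := G.struct_eq2 z
  linear_combination (- Real.sin (G.ang z)) * e1 + (- Real.cos (G.ang z)) * e2

omit hf in
/-- The pullback of the flat metric. -/
lemma metric_flat (z : ℝ × ℝ) :
    G.Ax z ^ 2 + G.Bx z ^ 2 = G.E z ^ 2 - G.ε * G.p₁ z ^ 2 ∧
    G.Ax z * G.Ay z + G.Bx z * G.By z = - (G.ε * (G.p₁ z * G.p₂ z)) ∧
    G.Ay z ^ 2 + G.By z ^ 2 = G.E z ^ 2 - G.ε * G.p₂ z ^ 2 ∧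
    G.Ax z * G.By z - G.Ay z * G.Bx z = G.E z * G.δ z := by
  obtain ⟨h1, h2, h3, h4⟩ := G.S_sq z
  have hc := Real.cos_sq_add_sin_sq (G.ang z)
  refine ⟨?_, ?_, ?_, ?_⟩
  · rw [← h1]
    simp only [Ax, Bx]
    linear_combination (G.S₁₁ z ^ 2 + G.S₁₂ z ^ 2) * hc
  · rw [← h2]
    simp only [Ax, Ay, Bx, By]
    linear_combination (G.S₁₁ z * G.S₁₂ z + G.S₁₂ z * G.S₂₂ z) * hc
  · rw [← h3]
    simp only [Ay, By]
    linear_combination (G.S₁₂ z ^ 2 + G.S₂₂ z ^ 2) * hc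
  · rw [← h4]
    simp only [Ax, Ay, Bx, By]
    linear_combination (G.S₁₁ z * G.S₂₂ z - G.S₁₂ z ^ 2) * hc

end flat

end Geo

end

end Vale.Agent.Lib.P205.T2
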