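import Vale.Agent.Lib.P205.T2.Build

/-!
The data of the fixed point problem attached to a smooth doubly periodic function.
-/

namespace Vale.Agent.Lib.P205.T2

open scoped ComplexConjugate ContDiff
open Complex

noncomputable section

lemma DX_sym (L : Lat) {c : Gm → ℂ} (h : ∀ n, c (-n) = conj (c n)) (n : Gm) :
    DX L c (-n) = conj (DX L c n) := by
  simp only [DX, L.kx_neg, h n, map_mul, Complex.conj_ofReal, Complex.conj_I]
  push_cast
  ring

lemma DY_sym (L : Lat) {c : Gm → ℂ} (h : ∀ n, c (-n) = conj (c n)) (n : Gm) :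
    DY L c (-n) = conj (DY L c n) := by
  simp only [DY, L.ky_neg, h n, map_mul, Complex.conj_ofReal, Complex.conj_I]
  push_cast
  ring

/-- **The data attached to a smooth doubly periodic function.** -/
theorem exists_PD {l m : ℝ × ℝ} (hd : det2 l m ≠ 0) {u : ℝ × ℝ → ℝ} (hu : ContDiff ℝ ∞ u)
    (hul : Pd u l) (hum : Pd u m) :
    ∃ (P : PD) (U : Jet3), P.L = latOf l m hd ∧ U.f = u ∧ U.Per l ∧ U.Per m ∧
      P.rf P.U1 = U.f₁ ∧ P.rf P.U2 = U.f₂ ∧ P.rf P.U11 = U.f₁₁ ∧ P.rf P.U12 = U.f₁₂ ∧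
      P.rf P.U22 = U.f₂₂ := by
  obtain ⟨c, hc, hsym, hev⟩ := exists_coeffs hd hu hul hum
  set L := latOf l m hd with hL
  set a : Gm → ℝ := fun n => (1 + nrm n) ^ 2 * ‖c n‖ with ha
  have ha0 : ∀ n, 0 ≤ a n := fun n => by
    have := nrm_nonneg n
    simp only [ha]
    positivity
  have ha1 : ∀ p : ℕ, Summable fun n => (1 + nrm n) ^ p * a n := by
    intro p
    refine (hc (p + 2)).congr fun n => ?_
    simp only [ha]
    ring
  obtain ⟨w, hw⟩ := exists_weight ha0 ha1
  have hWa : ∀ n, 0 < w.W n := w.pos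
  -- membership of the derivatives in the algebra
  have hmem : ∀ (d : Gm → ℂ) (C : ℝ), (∀ n, ‖d n‖ ≤ C * a n) →
      Summable fun n => w.W n * ‖d n‖ := by
    intro d C h
    refine Summable.of_nonneg_of_le (fun n => mul_nonneg (hWa n).le (norm_nonneg _)) (fun n => ?_)
      (hw.mul_left C)
    calc w.W n * ‖d n‖ ≤ w.W n * (C * a n) := mul_le_mul_of_nonneg_left (h n) (hWa n).le
      _ = _ := by ring
  have hK := L.Kpos
  have hone : ∀ n, 1 ≤ 1 + nrm n := fun n => by linarith [nrm_nonneg n]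
  have hpos : ∀ n, 0 ≤ L.K * (1 + nrm n) := fun n => mul_nonneg hK.le (by linarith [hone n])
  have hx : ∀ n, |L.kx n| ≤ L.K * (1 + nrm n) := L.boundx
  have hy : ∀ n, |L.ky n| ≤ L.K * (1 + nrm n) := L.boundy
  have h1 : ∀ n, ‖DX L c n‖ ≤ L.K * a n := by
    intro n
    simp only [DX, norm_mul, Complex.norm_real, Complex.norm_I, mul_one, Real.norm_eq_abs, ha]
    have hc0 := norm_nonneg (c n)
    calc |L.kx n| * ‖c n‖ ≤ (L.K * (1 + nrm n)) * ‖c n‖ := by gcongr; exact hx n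
      _ ≤ (L.K * (1 + nrm n)) * (1 + nrm n) * ‖c n‖ :=
          mul_le_mul_of_nonneg_right (le_mul_of_one_le_right (hpos n) (hone n)) hc0
      _ = _ := by ring
  have h2 : ∀ n, ‖DY L c n‖ ≤ L.K * a n := by
    intro n
    simp only [DY, norm_mul, Complex.norm_real, Complex.norm_I, mul_one, Real.norm_eq_abs, ha]
    have hc0 := norm_nonneg (c n)
    calc |L.ky n| * ‖c n‖ ≤ (L.K * (1 + nrm n)) * ‖c n‖ := by gcongr; exact hy n
      _ ≤ (L.K * (1 + nrm n)) * (1 + nrm n) * ‖c n‖ :=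
          mul_le_mul_of_nonneg_right (le_mul_of_one_le_right (hpos n) (hone n)) hc0
      _ = _ := by ring
  have h11 : ∀ n, ‖DX L (DX L c) n‖ ≤ (L.K * L.K) * a n := by
    intro n
    simp only [DX, norm_mul, Complex.norm_real, Complex.norm_I, mul_one, Real.norm_eq_abs, ha]
    have hc0 := norm_nonneg (c n)
    calc |L.kx n| * (|L.kx n| * ‖c n‖)
        ≤ (L.K * (1 + nrm n)) * ((L.K * (1 + nrm n)) * ‖c n‖) :=
          mul_le_mul (hx n) (mul_le_mul_of_nonneg_right (hx n) hc0) (by positivity) (hpos n)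
      _ = _ := by ring
  have h12 : ∀ n, ‖DX L (DY L c) n‖ ≤ (L.K * L.K) * a n := by
    intro n
    simp only [DX, DY, norm_mul, Complex.norm_real, Complex.norm_I, mul_one, Real.norm_eq_abs, ha]
    have hc0 := norm_nonneg (c n)
    calc |L.kx n| * (|L.ky n| * ‖c n‖)
        ≤ (L.K * (1 + nrm n)) * ((L.K * (1 + nrm n)) * ‖c n‖) :=
          mul_le_mul (hx n) (mul_le_mul_of_nonneg_right (hy n) hc0) (by positivity) (hpos n)
      _ = _ := by ring
  have h22 : ∀ n, ‖DY L (DY L c) n‖ ≤ (L.K * L.K) * a n := by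
    intro n
    simp only [DY, norm_mul, Complex.norm_real, Complex.norm_I, mul_one, Real.norm_eq_abs, ha]
    have hc0 := norm_nonneg (c n)
    calc |L.ky n| * (|L.ky n| * ‖c n‖)
        ≤ (L.K * (1 + nrm n)) * ((L.K * (1 + nrm n)) * ‖c n‖) :=
          mul_le_mul (hy n) (mul_le_mul_of_nonneg_right (hy n) hc0) (by positivity) (hpos n)
      _ = _ := by ring
  have hR : ∀ (d : Gm → ℂ) (hd : Summable fun n => w.W n * ‖d n‖), (∀ n, d (-n) = conj (d n)) →
      Rl (ofCoef w d hd) := by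
    intro d hd hs
    refine Rl_of_coef w fun n => ?_
    rw [coef_ofCoef, coef_ofCoef]
    exact hs n
  let P : PD :=
    { L := L
      w := w
      U1 := ofCoef w (DX L c) (hmem _ _ h1)
      U2 := ofCoef w (DY L c) (hmem _ _ h2)
      U11 := ofCoef w (DX L (DX L c)) (hmem _ _ h11)
      U12 := ofCoef w (DX L (DY L c)) (hmem _ _ h12)
      U22 := ofCoef w (DY L (DY L c)) (hmem _ _ h22)
      r1 := hR _ _ (DX_sym L hsym)
      r2 := hR _ _ (DY_sym L hsym)
      r11 := hR _ _ (DX_sym L (DX_sym L hsym))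
      r12 := hR _ _ (DX_sym L (DY_sym L hsym))
      r22 := hR _ _ (DY_sym L (DY_sym L hsym)) }
  have hrf : ∀ (d : Gm → ℂ) (hd : Summable fun n => w.W n * ‖d n‖),
      P.rf (ofCoef w d hd) = rv L d := by
    intro d hd
    have : coef w (ofCoef w d hd) = d := funext (coef_ofCoef w d hd)
    change rv L (coef w (ofCoef w d hd)) = rv L d
    rw [this]
  refine ⟨P, jetOf L c hc, rfl, ?_, jetOf_per hc (latOf_per_l hd), jetOf_per hc (latOf_per_m hd),
    hrf _ (hmem _ _ h1), hrf _ (hmem _ _ h2), hrf _ (hmem _ _ h11), hrf _ (hmem _ _ h12),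
    hrf _ (hmem _ _ h22)⟩
  funext z
  change (evc L c z).re = u z
  rw [hev z]
  simp

end

end Vale.Agent.Lib.P205.T2
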