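import Vale.Agent.Lib.P205.T2.Fixed

/-!
The family of solutions: from the fixed point in the Wiener algebra to functions on the plane.
-/

namespace Vale.Agent.Lib.P205.T2

open scoped ComplexConjugate ContDiff
open Complex

noncomputable section

/-- Clamping a real parameter. -/
def clampE (ε₀ t : ℝ) : ℝ := max 0 (min t ε₀)

lemma clampE_nonneg (ε₀ t : ℝ) : 0 ≤ clampE ε₀ t := le_max_left _ _

lemma clampE_le {ε₀ : ℝ} (h : 0 ≤ ε₀) (t : ℝ) : clampE ε₀ t ≤ ε₀ :=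
  max_le h (min_le_right _ _)

lemma clampE_eq {ε₀ t : ℝ} (h0 : 0 ≤ t) (h1 : t ≤ ε₀) : clampE ε₀ t = t := by
  simp [clampE, h0, h1]

lemma clampE_continuous (ε₀ : ℝ) : Continuous (clampE ε₀) := by
  unfold clampE
  fun_prop

lemma clampE_lip (ε₀ t t' : ℝ) : |clampE ε₀ t - clampE ε₀ t'| ≤ |t - t'| := by
  have h1 : |max 0 (min t ε₀) - max 0 (min t' ε₀)| ≤ |min t ε₀ - min t' ε₀| := by
    have := abs_max_sub_max_le_max (0:ℝ) (min t ε₀) (0:ℝ) (min t' ε₀)
    simpa using this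
  have h2 : |min t ε₀ - min t' ε₀| ≤ |t - t'| := by
    have := abs_min_sub_min_le_max t ε₀ t' ε₀
    simpa using this
  exact h1.trans h2

namespace PD

variable (P : PD)

lemma mul_zero_zero : P.m 0 0 = 0 := by
  have := norm_mul_le P.w 0 0
  simp only [norm_zero, mul_zero, norm_le_zero_iff] at this
  exact this

lemma TT_zero : P.TT 0 0 = 0 := by
  have e1 : P.aJ 0 = 0 := mlt_zero _
  have e2 : P.aD1 0 = 0 := mlt_zero _
  have e3 : P.aD2 0 = 0 := mlt_zero _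
  have e4 : P.aDl 0 = 0 := by
    have e5 : P.aD11 0 = 0 := mlt_zero _
    have e6 : P.aD22 0 = 0 := mlt_zero _
    simp [aDl, e5, e6]
  have e7 : P.N1 0 = 0 := by
    simp [N1, e1, e2, e3, e4, mul_zero_zero]
  simp only [TT, e7, Complex.ofReal_zero, zero_smul, add_zero]
  exact mlt_zero _

/-- **The family of fixed points.** -/
theorem exists_family : ∃ (ρ ε₀ BX : ℝ) (bF : ℝ → XX), 0 < ρ ∧ ρ ≤ 1 / 4 ∧ 0 < ε₀ ∧ ε₀ ≤ 1 ∧ 0 ≤ BX ∧
    ε₀ * BX ≤ 1 / 2 ∧ (∀ b, ‖b‖ ≤ ρ → ‖P.XQ b‖ ≤ BX) ∧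
    (∀ t, ‖bF t‖ ≤ ρ) ∧ (∀ t, Rl (bF t)) ∧ (∀ t, P.TT (clampE ε₀ t) (bF t) = bF t) ∧
    Continuous bF ∧ bF 0 = 0 := by
  obtain ⟨ρ, ε₀, B, BX, hρ, hρ1, hε, hε1, hB, hBX, hbx, hX, h1, h2, h3⟩ := P.exists_constants
  have hex : ∀ t, ∃ b, ‖b‖ ≤ ρ ∧ Rl b ∧ P.TT (clampE ε₀ t) b = b := fun t =>
    P.exists_fixed hρ.le (h1 _ (clampE_nonneg _ _) (clampE_le hε.le _))
      (h2 _ (clampE_nonneg _ _) (clampE_le hε.le _))
  choose bF hb1 hb2 hb3 using hex
  have hlip : ∀ t t', ‖bF t - bF t'‖ ≤ 2 * B * |t - t'| := by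
    intro t t'
    have e1 := h2 _ (clampE_nonneg ε₀ t) (clampE_le hε.le t) (bF t) (bF t') (hb1 t) (hb1 t')
    have e2 := h3 (clampE ε₀ t) (clampE ε₀ t') (bF t') (hb1 t')
    have e3 : bF t - bF t' = (P.TT (clampE ε₀ t) (bF t) - P.TT (clampE ε₀ t) (bF t'))
        + (P.TT (clampE ε₀ t) (bF t') - P.TT (clampE ε₀ t') (bF t')) := by
      rw [hb3 t, hb3 t']
      abel
    have e4 := norm_add_le (P.TT (clampE ε₀ t) (bF t) - P.TT (clampE ε₀ t) (bF t'))
      (P.TT (clampE ε₀ t) (bF t') - P.TT (clampE ε₀ t') (bF t'))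
    have e5 : ‖bF t - bF t'‖ ≤ 1 / 2 * ‖bF t - bF t'‖ + B * |clampE ε₀ t - clampE ε₀ t'| := by
      calc ‖bF t - bF t'‖ = _ := by rw [← e3]
        _ ≤ _ := e4.trans (add_le_add e1 e2)
    have e6 := clampE_lip ε₀ t t'
    have e7 := mul_le_mul_of_nonneg_left e6 hB
    linarith
  have hcont : Continuous bF := by
    have : LipschitzWith (Real.toNNReal (2 * B)) bF := by
      refine LipschitzWith.of_dist_le_mul fun t t' => ?_
      rw [dist_eq_norm, Real.dist_eq, Real.coe_toNNReal _ (by positivity)]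
      exact hlip t t'
    exact this.continuous
  refine ⟨ρ, ε₀, BX, bF, hρ, hρ1, hε, hε1, hBX, hbx, hX, hb1, hb2, hb3, hcont, ?_⟩
  -- the value at zero
  have hc0 : clampE ε₀ 0 = 0 := clampE_eq (le_refl _) hε.le
  have e0 := h2 0 (le_refl _) hε.le (bF 0) 0 (hb1 0)
    (by simpa using hρ.le)
  rw [P.TT_zero] at e0
  have e1 := hb3 0
  rw [hc0] at e1
  rw [e1, sub_zero] at e0
  have e2 : ‖bF 0‖ ≤ 0 := by linarith [norm_nonneg (bF 0)]
  exact norm_le_zero_iff.mp e2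

/-- The equation satisfied by a fixed point, in the algebra. -/
lemma aDl_eq {ε : ℝ} {b : XX} (h : P.TT ε b = b) :
    P.aDl b = (P.N1 b + (ε : ℂ) • P.N2 b)
      - (coef P.w (P.N1 b + (ε : ℂ) • P.N2 b) 0) • one P.w := by
  set N := P.N1 b + (ε : ℂ) • P.N2 b with hN
  refine eq_of_coef P.w fun n => ?_
  have e1 : coef P.w b n = P.L.sB n * coef P.w N n := by
    conv_lhs => rw [← h]
    exact coef_mlt P.w P.L.sB_le N n
  have e2 : coef P.w (P.aDl b) n = (P.L.s11 n + P.L.s22 n) * coef P.w b n := by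
    simp only [aDl]
    rw [coef_add, aD11, aD22, coef_mlt, coef_mlt]
    ring
  rw [e2, e1, coef_sub, coef_smul, coef_one]
  by_cases hn : n = 0
  · subst hn
    simp [Lat.s11, Lat.s22, Lat.kx_zero, Lat.ky_zero]
  · simp only [hn, if_false, mul_zero, sub_zero]
    have h2 := P.L.lower n hn
    have h3 := P.L.cpos
    have h4 : 0 < P.L.kx n ^ 2 + P.L.ky n ^ 2 := by linarith
    have h5 := P.L.den_pos n
    have e3 : (P.L.s11 n + P.L.s22 n) * P.L.sB n = 1 := by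
      simp only [Lat.s11, Lat.s22, Lat.sB, hn, if_false]
      rw [← Complex.ofReal_add, ← Complex.ofReal_mul]
      have : (-P.L.kx n ^ 2 / P.L.den n + -P.L.ky n ^ 2 / P.L.den n)
          * -(1 + 1 / (P.L.kx n ^ 2 + P.L.ky n ^ 2)) = 1 := by
        have e4 : P.L.den n = 1 + (P.L.kx n ^ 2 + P.L.ky n ^ 2) := by
          simp only [Lat.den]
          ring
        rw [e4] at h5 ⊢
        field_simp
        ring
      rw [this]
      simp
    rw [← mul_assoc, e3, one_mul]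

/-- The function of an element. -/
def fn (x : XX) (z : ℝ × ℝ) : ℂ := evc P.L (coef P.w x) z

/-- The real function of an element. -/
def rf (x : XX) (z : ℝ × ℝ) : ℝ := rv P.L (coef P.w x) z

lemma fn_add (x y : XX) (z : ℝ × ℝ) : P.fn (x + y) z = P.fn x z + P.fn y z := by
  simp only [fn, evc, coef_add, add_mul]
  exact (summable_term P.L (summable_coef P.w x) z).of_norm.tsum_add
    (summable_term P.L (summable_coef P.w y) z).of_norm

lemma fn_sub (x y : XX) (z : ℝ × ℝ) : P.fn (x - y) z = P.fn x z - P.fn y z := by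
  simp only [fn, evc, coef_sub, sub_mul]
  exact (summable_term P.L (summable_coef P.w x) z).of_norm.tsum_sub
    (summable_term P.L (summable_coef P.w y) z).of_norm

lemma fn_smul (c : ℂ) (x : XX) (z : ℝ × ℝ) : P.fn (c • x) z = c * P.fn x z := by
  simp only [fn, evc, coef_smul, mul_assoc]
  exact tsum_mul_left

lemma fn_mul (x y : XX) (z : ℝ × ℝ) : P.fn (P.m x y) z = P.fn x z * P.fn y z := by
  have e : coef P.w (P.m x y) = cv (coef P.w x) (coef P.w y) := funext (coef_mul P.w x y)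
  simp only [fn]
  rw [e]
  exact evc_cv P.L (summable_coef P.w x) (summable_coef P.w y) z

lemma fn_one (z : ℝ × ℝ) : P.fn (one P.w) z = 1 := by
  simp only [fn, evc, coef_one]
  rw [tsum_eq_single 0]
  · simp [eb_zero]
  · intro n hn
    simp [hn]

lemma fn_real {x : XX} (h : Rl x) (z : ℝ × ℝ) : P.fn x z = (P.rf x z : ℂ) :=
  evc_real P.L (coef_Rl P.w h) z

lemma rf_bound (x : XX) (z : ℝ × ℝ) : |P.rf x z| ≤ ‖x‖ := by
  have h1 : |P.rf x z| ≤ ‖evc P.L (coef P.w x) z‖ := Complex.abs_re_le_norm _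
  refine h1.trans ((norm_evc_le P.L (summable_coef P.w x) z).trans ?_)
  rw [XX.norm_eq]
  exact (summable_coef P.w x).tsum_le_tsum (norm_coef_le P.w x) (XX.summ x)

lemma rf_sub (x y : XX) (z : ℝ × ℝ) : P.rf (x - y) z = P.rf x z - P.rf y z := by
  have := P.fn_sub x y z
  have e := congrArg Complex.re this
  simpa [fn, rf, rv] using e

/-- The coefficient family of any element decreases rapidly. -/
lemma rapid_coef (x : XX) : Rapid (coef P.w x) := by
  intro p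
  obtain ⟨C, hC, h⟩ := P.w.poly p
  refine Summable.of_nonneg_of_le (fun n => ?_) (fun n => ?_) ((XX.summ x).mul_left C)
  · have := nrm_nonneg n
    positivity
  · rw [norm_eq_coef P.w x n]
    calc (1 + nrm n) ^ p * ‖coef P.w x n‖ ≤ (C * P.w.W n) * ‖coef P.w x n‖ :=
          mul_le_mul_of_nonneg_right (h n) (norm_nonneg _)
      _ = _ := by ring

/-- Joint continuity of the evaluation. -/
lemma rf_joint : Continuous fun p : XX × (ℝ × ℝ) => P.rf p.1 p.2 := by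
  rw [continuous_iff_continuousAt]
  rintro ⟨x₀, z₀⟩
  rw [Metric.continuousAt_iff]
  intro ε hε
  have hc : Continuous (P.rf x₀) := (Jt_rv P.L (P.rapid_coef x₀)).continuous
  obtain ⟨δ₁, hδ₁, h1⟩ := Metric.continuousAt_iff.mp (hc.continuousAt (x := z₀)) (ε / 2)
    (half_pos hε)
  refine ⟨min δ₁ (ε / 2), lt_min hδ₁ (half_pos hε), ?_⟩
  rintro ⟨x, z⟩ hd
  have h2 : dist x x₀ < ε / 2 := lt_of_le_of_lt (le_max_left _ _)
    (lt_of_lt_of_le hd (min_le_right _ _))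
  have h3 : dist z z₀ < δ₁ := lt_of_le_of_lt (le_max_right _ _)
    (lt_of_lt_of_le hd (min_le_left _ _))
  have h4 := h1 h3
  have h5 : |P.rf x z - P.rf x₀ z| ≤ ‖x - x₀‖ := by
    rw [← rf_sub]
    exact P.rf_bound _ _
  rw [dist_eq_norm] at h2
  rw [Real.dist_eq] at h4 ⊢
  have e : P.rf x z - P.rf x₀ z₀ = (P.rf x z - P.rf x₀ z) + (P.rf x₀ z - P.rf x₀ z₀) := by ring
  simp only
  rw [e]
  refine (abs_add_le _ _).trans_lt ?_
  linarith

end PD

end

end Vale.Agent.Lib.P205.T2
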