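import Vale.Agent.Lib.P205.T2.Periods
import Vale.Agent.Lib.P205.Main

/-!
From flat coordinates to the immersion: the cone over a Hopf torus.
-/

namespace Vale.Agent.Lib.P205.T2

open Real
open scoped ContDiff

noncomputable section

/-- The map with four prescribed components. -/
def vec4 (f₁ f₂ f₃ f₄ : ℝ × ℝ → ℝ) (z : ℝ × ℝ) : EuclideanSpace ℝ (Fin 4) :=
  !₂[f₁ z, f₂ z, f₃ z, f₄ z]

lemma vec4_smooth {f₁ f₂ f₃ f₄ : ℝ × ℝ → ℝ} (h1 : ContDiff ℝ ∞ f₁) (h2 : ContDiff ℝ ∞ f₂)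
    (h3 : ContDiff ℝ ∞ f₃) (h4 : ContDiff ℝ ∞ f₄) : ContDiff ℝ ∞ (vec4 f₁ f₂ f₃ f₄) := by
  rw [contDiff_euclidean]
  intro i
  fin_cases i
  · simpa [vec4] using h1
  · simpa [vec4] using h2
  · simpa [vec4] using h3
  · simpa [vec4] using h4

/-- Inner products of the differential of a map given by components. -/
lemma inner_vec4 {f₁ f₂ f₃ f₄ a₁ a₂ a₃ a₄ b₁ b₂ b₃ b₄ : ℝ × ℝ → ℝ}
    (h1 : Jt f₁ a₁ b₁) (h2 : Jt f₂ a₂ b₂) (h3 : Jt f₃ a₃ b₃) (h4 : Jt f₄ a₄ b₄)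
    (hs : ContDiff ℝ ∞ (vec4 f₁ f₂ f₃ f₄)) (z v w : ℝ × ℝ) :
    inner ℝ (fderiv ℝ (vec4 f₁ f₂ f₃ f₄) z v) (fderiv ℝ (vec4 f₁ f₂ f₃ f₄) z w)
      = (a₁ z * v.1 + b₁ z * v.2) * (a₁ z * w.1 + b₁ z * w.2)
        + (a₂ z * v.1 + b₂ z * v.2) * (a₂ z * w.1 + b₂ z * w.2)
        + (a₃ z * v.1 + b₃ z * v.2) * (a₃ z * w.1 + b₃ z * w.2)
        + (a₄ z * v.1 + b₄ z * v.2) * (a₄ z * w.1 + b₄ z * w.2) := by
  have hdiff : DifferentiableAt ℝ (vec4 f₁ f₂ f₃ f₄) z :=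
    (hs.differentiable (by simp)).differentiableAt
  have hcomp : ∀ (i : Fin 4) (r : ℝ × ℝ), (fderiv ℝ (vec4 f₁ f₂ f₃ f₄) z r) i
      = (![a₁ z, a₂ z, a₃ z, a₄ z] i) * r.1 + (![b₁ z, b₂ z, b₃ z, b₄ z] i) * r.2 := by
    intro i r
    have hproj := (PiLp.proj (𝕜 := ℝ) 2 (fun _ : Fin 4 => ℝ) i).hasFDerivAt.comp z hdiff.hasFDerivAt
    have hval : (fderiv ℝ (vec4 f₁ f₂ f₃ f₄) z r) i
        = ((PiLp.proj (𝕜 := ℝ) 2 (fun _ : Fin 4 => ℝ) i).comp (fderiv ℝ (vec4 f₁ f₂ f₃ f₄) z)) r :=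
      rfl
    rw [hval]
    fin_cases i
    · have := (h1 z).unique hproj
      rw [← this]
      simp
    · have := (h2 z).unique hproj
      rw [← this]
      simp
    · have := (h3 z).unique hproj
      rw [← this]
      simp
    · have := (h4 z).unique hproj
      rw [← this]
      simp
  rw [PiLp.inner_apply]
  simp only [Fin.sum_univ_four]
  rw [hcomp 0 v, hcomp 0 w, hcomp 1 v, hcomp 1 w, hcomp 2 v, hcomp 2 w, hcomp 3 v, hcomp 3 w]
  simp only [RCLike.inner_apply, conj_trivial]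
  simp
  ring

/-- Product formula on a circle factor. -/
lemma circle_pair (a ax ay c s Px Py : ℝ) (h : c ^ 2 + s ^ 2 = 1) :
    (ax * c + a * (- s * Px)) * (ay * c + a * (- s * Py))
      + (ax * s + a * (c * Px)) * (ay * s + a * (c * Py)) = ax * ay + a ^ 2 * (Px * Py) := by
  linear_combination (ax * ay + a ^ 2 * (Px * Py)) * h

/-- The algebra of the metric of the cone. -/
lemma cone_alg (R Rx Ry cS sS S' A' B' l h t1 t2 X1 X2 : ℝ) (hcs : cS ^ 2 + sS ^ 2 = 1)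
    (hA : cS * A' = l * h * sS) (hB : sS * B' = l * h * cS)
    (hh : S' ^ 2 + (l * h) ^ 2 = l ^ 2) :
    (Rx * cS + R * (- sS * (S' * t1))) * (Ry * cS + R * (- sS * (S' * t2)))
      + R * cS * (R * cS) * ((X1 + A' * t1) * (X2 + A' * t2))
      + (Rx * sS + R * (cS * (S' * t1))) * (Ry * sS + R * (cS * (S' * t2)))
      + R * sS * (R * sS) * ((X1 - B' * t1) * (X2 - B' * t2))
      = Rx * Ry + R ^ 2 * (X1 * X2 + l ^ 2 * (t1 * t2)) := by
  have e1 : R * cS * (R * cS) * ((X1 + A' * t1) * (X2 + A' * t2))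
      = R ^ 2 * (cS ^ 2 * X1 * X2 + cS * (cS * A') * (X1 * t2 + X2 * t1)
        + (cS * A') ^ 2 * (t1 * t2)) := by ring
  have e2 : R * sS * (R * sS) * ((X1 - B' * t1) * (X2 - B' * t2))
      = R ^ 2 * (sS ^ 2 * X1 * X2 - sS * (sS * B') * (X1 * t2 + X2 * t1)
        + (sS * B') ^ 2 * (t1 * t2)) := by ring
  rw [e1, e2, hA, hB]
  have e3 : (l * h) ^ 2 = l ^ 2 - S' ^ 2 := by linarith
  have e4 : (l * h * sS) ^ 2 + (l * h * cS) ^ 2 = (l ^ 2 - S' ^ 2) * (cS ^ 2 + sS ^ 2) := by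
    rw [← e3]; ring
  have e5 : R ^ 2 * (cS ^ 2 * X1 * X2 + cS * (l * h * sS) * (X1 * t2 + X2 * t1)
        + (l * h * sS) ^ 2 * (t1 * t2))
      + R ^ 2 * (sS ^ 2 * X1 * X2 - sS * (l * h * cS) * (X1 * t2 + X2 * t1)
        + (l * h * cS) ^ 2 * (t1 * t2))
      = R ^ 2 * ((cS ^ 2 + sS ^ 2) * X1 * X2
        + ((l * h * sS) ^ 2 + (l * h * cS) ^ 2) * (t1 * t2)) := by ring
  rw [e4, hcs] at e5
  linear_combination e5 + (Rx * Ry + R ^ 2 * S' ^ 2 * (t1 * t2)) * hcs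

/-- **The final construction.** A smooth function `R` and flat coordinates `X, Y` with the right
periods give the immersion. -/
theorem immersion_of_coords {R R₁ R₂ X X₁ X₂ Y Y₁ Y₂ g₁₁ g₁₂ g₂₂ : ℝ × ℝ → ℝ} {ε : ℝ} (hε : 0 < ε)
    (JR : Jt R R₁ R₂) (JX : Jt X X₁ X₂) (JY : Jt Y Y₁ Y₂)
    (sR : ContDiff ℝ ∞ R) (sX : ContDiff ℝ ∞ X) (sY : ContDiff ℝ ∞ Y)
    (h11 : ∀ z, R₁ z ^ 2 + R z ^ 2 / ε * (X₁ z ^ 2 + Y₁ z ^ 2) = g₁₁ z)
    (h12 : ∀ z, R₁ z * R₂ z + R z ^ 2 / ε * (X₁ z * X₂ z + Y₁ z * Y₂ z) = g₁₂ z)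
    (h22 : ∀ z, R₂ z ^ 2 + R z ^ 2 / ε * (X₂ z ^ 2 + Y₂ z ^ 2) = g₂₂ z)
    {l m : ℝ × ℝ} {n : ℤ} {τ L : ℝ} (hRl : Pd R l) (hRm : Pd R m)
    (hXl : ∀ z, X (z + l) = X z + 2 * π * n * √ε) (hYl : ∀ z, Y (z + l) = Y z)
    (hXm : ∀ z, X (z + m) = X z + τ) (hYm : ∀ z, Y (z + m) = Y z + L)
    (hL : 1000 ≤ |L| / √ε) :
    ∃ F : ℝ × ℝ → EuclideanSpace ℝ (Fin 4), ContDiff ℝ ∞ F ∧ (∀ z, F (z + l) = F z) ∧
      (∀ z, F (z + m) = F z) ∧
      ∀ z v w, inner ℝ (fderiv ℝ F z v) (fderiv ℝ F z w)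
        = g₁₁ z * (v.1 * w.1) + g₁₂ z * (v.1 * w.2 + v.2 * w.1) + g₂₂ z * (v.2 * w.2) := by
  have hpi := pi_pos
  have hs0 : 0 < √ε := Real.sqrt_pos.mpr hε
  have hLne : L ≠ 0 := by
    intro h
    rw [h, abs_zero, zero_div] at hL
    norm_num at hL
  set ll : ℝ := |L| / √ε with hll
  -- the holonomy
  obtain ⟨θ, k, hθ0, hθ1, hθeq⟩ : ∃ (θ : ℝ) (k : ℤ), 0 ≤ θ ∧ θ < 2 * π ∧
      - (τ / √ε) = θ + 2 * π * k := by
    refine ⟨- (τ / √ε) - 2 * π * ⌊- (τ / √ε) / (2 * π)⌋, ⌊- (τ / √ε) / (2 * π)⌋, ?_, ?_, by ring⟩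
    · have := Int.floor_le (- (τ / √ε) / (2 * π))
      rw [le_div_iff₀ (by positivity)] at this
      linarith
    · have := Int.lt_floor_add_one (- (τ / √ε) / (2 * π))
      rw [div_lt_iff₀ (by positivity)] at this
      nlinarith
  obtain ⟨p, q, n', hdom, hI1, hI2⟩ := exists_closure hL hθ0 hθ1
  have haDs := contDiff_aD hL hdom
  have hbDs := contDiff_bD hL hdom
  have haDc := haDs.continuous
  have hbDc := hbDs.continuous
  set A : ℝ → ℝ := fun t => ∫ s in (0:ℝ)..t, aD ll p q s with hA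
  set B : ℝ → ℝ := fun t => ∫ s in (0:ℝ)..t, bD ll p q s with hB
  have hAd : ∀ t, HasDerivAt A (aD ll p q t) t := hasDerivAt_primitive haDc
  have hBd : ∀ t, HasDerivAt B (bD ll p q t) t := hasDerivAt_primitive hbDc
  have hAs : ContDiff ℝ ∞ A := contDiff_primitive haDs
  have hBs : ContDiff ℝ ∞ B := contDiff_primitive hbDs
  have hAper : ∀ t, A (t + 1) = A t + (θ + 2 * π * n') := by
    intro t
    simp only [hA]
    rw [primitive_add_period haDc (aD_one ll p q) t, hI1]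
  have hBper : ∀ t, B (t + 1) = B t + (- θ + 2 * π * n') := by
    intro t
    simp only [hB]
    rw [primitive_add_period hbDc (bD_one ll p q) t, hI2]
  -- the reduced coordinates
  set T : ℝ × ℝ → ℝ := fun z => Y z / L with hT
  have JT : Jt T (fun z => Y₁ z / L) (fun z => Y₂ z / L) := by
    have := JY.const_mul (1 / L)
    refine (this.congr ?_ ?_).congr_fun ?_ <;>
    · intro z
      ring
  set Xh : ℝ × ℝ → ℝ := fun z => X z / √ε with hXh
  have JXh : Jt Xh (fun z => X₁ z / √ε) (fun z => X₂ z / √ε) := by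
    have := JX.const_mul (1 / √ε)
    refine (this.congr ?_ ?_).congr_fun ?_ <;>
    · intro z
      ring
  have sT : ContDiff ℝ ∞ T := sY.div_const L
  have sXh : ContDiff ℝ ∞ Xh := sX.div_const _
  -- derivative of the latitude
  set S' : ℝ → ℝ := fun t => -(2 * π * q * sin (2 * π * t)) with hS'
  have hSSd : ∀ t, HasDerivAt (fun t => SS p q t) (S' t) t := by
    intro t
    have h1 : HasDerivAt (fun t : ℝ => cos (2 * π * t)) (- sin (2 * π * t) * (2 * π)) t := by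
      simpa using ((hasDerivAt_id' t).const_mul (2 * π)).cos
    have h2 := (h1.const_mul q).const_add (π / 4 + p)
    refine h2.congr_deriv ?_
    simp only [hS']
    ring
  have JS : Jt (fun z => SS p q (T z)) (fun z => S' (T z) * (Y₁ z / L))
      (fun z => S' (T z) * (Y₂ z / L)) := Jt.comp_real hSSd JT
  have sS : ContDiff ℝ ∞ (fun z => SS p q (T z)) := (contDiff_SS p q).comp sT
  -- the phases
  set P₁ : ℝ × ℝ → ℝ := fun z => Xh z + A (T z) with hP₁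
  set P₂ : ℝ × ℝ → ℝ := fun z => Xh z - B (T z) with hP₂
  have JP₁ : Jt P₁ (fun z => X₁ z / √ε + aD ll p q (T z) * (Y₁ z / L))
      (fun z => X₂ z / √ε + aD ll p q (T z) * (Y₂ z / L)) := JXh.add (Jt.comp_real hAd JT)
  have JP₂ : Jt P₂ (fun z => X₁ z / √ε - bD ll p q (T z) * (Y₁ z / L))
      (fun z => X₂ z / √ε - bD ll p q (T z) * (Y₂ z / L)) := JXh.sub (Jt.comp_real hBd JT)
  have sP₁ : ContDiff ℝ ∞ P₁ := sXh.add (hAs.comp sT)
  have sP₂ : ContDiff ℝ ∞ P₂ := sXh.sub (hBs.comp sT)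
  -- the radii
  set a : ℝ × ℝ → ℝ := fun z => R z * cos (SS p q (T z)) with ha
  set b : ℝ × ℝ → ℝ := fun z => R z * sin (SS p q (T z)) with hb
  have Ja := JR.mul JS.cos
  have Jb := JR.mul JS.sin
  have sa : ContDiff ℝ ∞ a := sR.mul sS.cos
  have sb : ContDiff ℝ ∞ b := sR.mul sS.sin
  have J1 := Ja.mul JP₁.cos
  have J2 := Ja.mul JP₁.sin
  have J3 := Jb.mul JP₂.cos
  have J4 := Jb.mul JP₂.sin
  have s1 : ContDiff ℝ ∞ (fun z => a z * cos (P₁ z)) := sa.mul sP₁.cos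
  have s2 : ContDiff ℝ ∞ (fun z => a z * sin (P₁ z)) := sa.mul sP₁.sin
  have s3 : ContDiff ℝ ∞ (fun z => b z * cos (P₂ z)) := sb.mul sP₂.cos
  have s4 : ContDiff ℝ ∞ (fun z => b z * sin (P₂ z)) := sb.mul sP₂.sin
  have sF := vec4_smooth s1 s2 s3 s4
  refine ⟨_, sF, ?_, ?_, ?_⟩
  · -- the first period
    intro z
    have e1 : T (z + l) = T z := by simp only [hT, hYl z]
    have e2 : Xh (z + l) = Xh z + n * (2 * π) := by
      simp only [hXh, hXl z]
      field_simp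
    have e3 : P₁ (z + l) = P₁ z + n * (2 * π) := by
      simp only [hP₁, e1, e2]; ring
    have e4 : P₂ (z + l) = P₂ z + n * (2 * π) := by
      simp only [hP₂, e1, e2]; ring
    have e5 : a (z + l) = a z := by simp only [ha, hRl z, e1]
    have e6 : b (z + l) = b z := by simp only [hb, hRl z, e1]
    simp only [vec4, e3, e4, e5, e6, cos_add_int_mul_two_pi, sin_add_int_mul_two_pi]
  · -- the second period
    intro z
    have e1 : T (z + m) = T z + 1 := by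
      simp only [hT, hYm z]
      field_simp
    have e2 : Xh (z + m) = Xh z + τ / √ε := by
      simp only [hXh, hXm z]
      ring
    have e3 : P₁ (z + m) = P₁ z + ((n' - k : ℤ) : ℝ) * (2 * π) := by
      simp only [hP₁, e1, e2, hAper]
      push_cast
      linear_combination - hθeq
    have e4 : P₂ (z + m) = P₂ z + ((- n' - k : ℤ) : ℝ) * (2 * π) := by
      simp only [hP₂, e1, e2, hBper]
      push_cast
      linear_combination - hθeq
    have e5 : a (z + m) = a z := by simp only [ha, hRm z, e1, SS_one]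
    have e6 : b (z + m) = b z := by simp only [hb, hRm z, e1, SS_one]
    simp only [vec4, e3, e4, e5, e6, cos_add_int_mul_two_pi, sin_add_int_mul_two_pi]
  · -- the metric
    intro z v w
    rw [inner_vec4 J1 J2 J3 J4 sF]
    set t := T z with ht
    set cS := cos (SS p q t) with hcS
    set sS' := sin (SS p q t) with hsS
    have hcSpos : 0 < cS := SS_cos_pos hdom t
    have hsSpos : 0 < sS' := SS_sin_pos hdom t
    have hcs : cS ^ 2 + sS' ^ 2 = 1 := cos_sq_add_sin_sq _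
    set h := hh ll q t with hh'
    have hhs : S' t ^ 2 + (ll * h) ^ 2 = ll ^ 2 := by
      have e := hh_sq hL hdom.2.1 hdom.2.2 t
      rw [← hh'] at e
      have hl0 : ll ≠ 0 := by linarith
      simp only [hS']
      rw [mul_pow, e]
      field_simp
      ring
    have hA' : cS * aD ll p q t = ll * h * sS' := by
      have : aD ll p q t = ll * h * (sS' / cS) := rfl
      rw [this]
      field_simp
    have hB' : sS' * bD ll p q t = ll * h * cS := by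
      have : bD ll p q t = ll * h * (cS / sS') := rfl
      rw [this]
      field_simp
    have hlsq : ll ^ 2 = L ^ 2 / ε := by
      rw [hll, div_pow, sq_abs, Real.sq_sqrt hε.le]
    have hε' : √ε ^ 2 = ε := Real.sq_sqrt hε.le
    have hcP1 := cos_sq_add_sin_sq (P₁ z)
    have hcP2 := cos_sq_add_sin_sq (P₂ z)
    -- the three components of the metric
    have key : ∀ (t1 t2 X1 X2 Rx Ry : ℝ),
        (Rx * cS + R z * (- sS' * (S' t * t1))) * (Ry * cS + R z * (- sS' * (S' t * t2)))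
          + R z * cS * (R z * cS) * ((X1 + aD ll p q t * t1) * (X2 + aD ll p q t * t2))
          + (Rx * sS' + R z * (cS * (S' t * t1))) * (Ry * sS' + R z * (cS * (S' t * t2)))
          + R z * sS' * (R z * sS') * ((X1 - bD ll p q t * t1) * (X2 - bD ll p q t * t2))
          = Rx * Ry + R z ^ 2 * (X1 * X2 + ll ^ 2 * (t1 * t2)) := by
      intro t1 t2 X1 X2 Rx Ry
      exact cone_alg _ _ _ _ _ _ _ _ _ _ _ _ _ _ hcs hA' hB' hhs
    have hid : ∀ X1 X2 Y1 Y2 : ℝ, X1 / √ε * (X2 / √ε) + ll ^ 2 * (Y1 / L * (Y2 / L))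
        = (X1 * X2 + Y1 * Y2) / ε := by
      intro X1 X2 Y1 Y2
      rw [hlsq]
      have e : X1 / √ε * (X2 / √ε) = X1 * X2 / √ε ^ 2 := by
        field_simp
      rw [e, hε']
      field_simp
    -- the sum over the four components for a pair of directions
    have pair : ∀ (X1 X2 Y1 Y2 Rx Ry : ℝ),
        ((Rx * cS + R z * (- sS' * (S' t * (Y1 / L)))) * cos (P₁ z)
            + R z * cS * (- sin (P₁ z) * (X1 / √ε + aD ll p q t * (Y1 / L))))
          * ((Ry * cS + R z * (- sS' * (S' t * (Y2 / L)))) * cos (P₁ z)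
            + R z * cS * (- sin (P₁ z) * (X2 / √ε + aD ll p q t * (Y2 / L))))
        + ((Rx * cS + R z * (- sS' * (S' t * (Y1 / L)))) * sin (P₁ z)
            + R z * cS * (cos (P₁ z) * (X1 / √ε + aD ll p q t * (Y1 / L))))
          * ((Ry * cS + R z * (- sS' * (S' t * (Y2 / L)))) * sin (P₁ z)
            + R z * cS * (cos (P₁ z) * (X2 / √ε + aD ll p q t * (Y2 / L))))
        + ((Rx * sS' + R z * (cS * (S' t * (Y1 / L)))) * cos (P₂ z)
            + R z * sS' * (- sin (P₂ z) * (X1 / √ε - bD ll p q t * (Y1 / L))))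
          * ((Ry * sS' + R z * (cS * (S' t * (Y2 / L)))) * cos (P₂ z)
            + R z * sS' * (- sin (P₂ z) * (X2 / √ε - bD ll p q t * (Y2 / L))))
        + ((Rx * sS' + R z * (cS * (S' t * (Y1 / L)))) * sin (P₂ z)
            + R z * sS' * (cos (P₂ z) * (X1 / √ε - bD ll p q t * (Y1 / L))))
          * ((Ry * sS' + R z * (cS * (S' t * (Y2 / L)))) * sin (P₂ z)
            + R z * sS' * (cos (P₂ z) * (X2 / √ε - bD ll p q t * (Y2 / L))))
        = Rx * Ry + R z ^ 2 / ε * (X1 * X2 + Y1 * Y2) := by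
      intro X1 X2 Y1 Y2 Rx Ry
      have e1 := circle_pair (R z * cS) (Rx * cS + R z * (- sS' * (S' t * (Y1 / L))))
        (Ry * cS + R z * (- sS' * (S' t * (Y2 / L)))) (cos (P₁ z)) (sin (P₁ z))
        (X1 / √ε + aD ll p q t * (Y1 / L)) (X2 / √ε + aD ll p q t * (Y2 / L)) hcP1
      have e2 := circle_pair (R z * sS') (Rx * sS' + R z * (cS * (S' t * (Y1 / L))))
        (Ry * sS' + R z * (cS * (S' t * (Y2 / L)))) (cos (P₂ z)) (sin (P₂ z))
        (X1 / √ε - bD ll p q t * (Y1 / L)) (X2 / √ε - bD ll p q t * (Y2 / L)) hcP2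
      have e3 := key (Y1 / L) (Y2 / L) (X1 / √ε) (X2 / √ε) Rx Ry
      rw [hid] at e3
      have e4 : R z ^ 2 * ((X1 * X2 + Y1 * Y2) / ε) = R z ^ 2 / ε * (X1 * X2 + Y1 * Y2) := by ring
      rw [e4] at e3
      rw [← e3]
      linear_combination e1 + e2
    have H11 := pair (X₁ z) (X₁ z) (Y₁ z) (Y₁ z) (R₁ z) (R₁ z)
    have H12 := pair (X₁ z) (X₂ z) (Y₁ z) (Y₂ z) (R₁ z) (R₂ z)
    have H21 := pair (X₂ z) (X₁ z) (Y₂ z) (Y₁ z) (R₂ z) (R₁ z)
    have H22 := pair (X₂ z) (X₂ z) (Y₂ z) (Y₂ z) (R₂ z) (R₂ z)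
    have G11 : R₁ z * R₁ z + R z ^ 2 / ε * (X₁ z * X₁ z + Y₁ z * Y₁ z) = g₁₁ z := by
      rw [← h11 z]; ring
    have G12 : R₁ z * R₂ z + R z ^ 2 / ε * (X₁ z * X₂ z + Y₁ z * Y₂ z) = g₁₂ z := h12 z
    have G21 : R₂ z * R₁ z + R z ^ 2 / ε * (X₂ z * X₁ z + Y₂ z * Y₁ z) = g₁₂ z := by
      rw [← h12 z]; ring
    have G22 : R₂ z * R₂ z + R z ^ 2 / ε * (X₂ z * X₂ z + Y₂ z * Y₂ z) = g₂₂ z := by
      rw [← h22 z]; ring
    rw [G11] at H11
    rw [G12] at H12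
    rw [G21] at H21
    rw [G22] at H22
    linear_combination (v.1 * w.1) * H11 + (v.1 * w.2) * H12 + (v.2 * w.1) * H21
      + (v.2 * w.2) * H22

end

end Vale.Agent.Lib.P205.T2
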