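import Mathlib

/-!
Tuning the parameter: an elementary consequence of the intermediate value theorem.
-/

namespace Vale.Agent.Lib.P205.T2

open Real

/-- **Tuning.** For continuous functions of a parameter `t`, there are arbitrarily small positive
values of `t` at which the length of the first period is an integer multiple of `2 π √t` and at
which the second period is long compared to `√t`. -/
theorem tuning {A B C D : ℝ → ℝ} (hA : Continuous A) (hB : Continuous B) (hC : Continuous C)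
    (hD : Continuous D) (hdet : A 0 * D 0 - B 0 * C 0 ≠ 0) {ε₀ : ℝ} (hε₀ : 0 < ε₀) :
    ∃ (t : ℝ) (n : ℤ), 0 < t ∧ t ≤ ε₀ ∧ 0 < A t ^ 2 + B t ^ 2 ∧
      √(A t ^ 2 + B t ^ 2) = 2 * π * n * √t ∧
      1000 ≤ |A t * D t - B t * C t| / √(A t ^ 2 + B t ^ 2) / √t := by
  have hpi := pi_pos
  set ℓ : ℝ → ℝ := fun t => √(A t ^ 2 + B t ^ 2) with hℓdef
  have hℓ : Continuous ℓ := ((hA.pow 2).add (hB.pow 2)).sqrt
  set Ar : ℝ → ℝ := fun t => A t * D t - B t * C t with hArdef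
  have hAr : Continuous Ar := (hA.mul hD).sub (hB.mul hC)
  have hpos0 : 0 < A 0 ^ 2 + B 0 ^ 2 := by
    by_contra hn
    have h1 : A 0 = 0 := by nlinarith [sq_nonneg (A 0), sq_nonneg (B 0)]
    have h2 : B 0 = 0 := by nlinarith [sq_nonneg (A 0), sq_nonneg (B 0)]
    apply hdet
    rw [h1, h2]
    ring
  set ℓ₀ := ℓ 0 with hℓ₀
  have hℓ₀pos : 0 < ℓ₀ := Real.sqrt_pos.mpr hpos0
  set d₀ := |Ar 0| with hd₀
  have hd₀pos : 0 < d₀ := abs_pos.mpr hdet
  have e1 : ∀ᶠ t in nhds (0:ℝ), ℓ₀ / 2 < ℓ t :=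
    hℓ.continuousAt.eventually (lt_mem_nhds (by linarith))
  have e2 : ∀ᶠ t in nhds (0:ℝ), ℓ t < 2 * ℓ₀ :=
    hℓ.continuousAt.eventually (gt_mem_nhds (by linarith))
  have e3 : ∀ᶠ t in nhds (0:ℝ), d₀ / 2 < |Ar t| :=
    (continuous_abs.comp hAr).continuousAt.eventually (lt_mem_nhds (by
      simp only [Function.comp]
      linarith))
  obtain ⟨η, hη, hall⟩ := Metric.eventually_nhds_iff.mp (e1.and (e2.and e3))
  have hK : 0 < d₀ / (4000 * ℓ₀) := by positivity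
  set t₂ := min ε₀ (min (η / 2) ((d₀ / (4000 * ℓ₀)) ^ 2)) with ht₂
  have ht₂pos : 0 < t₂ := lt_min hε₀ (lt_min (half_pos hη) (pow_pos hK 2))
  have ht₂1 : t₂ ≤ ε₀ := min_le_left _ _
  have ht₂2 : t₂ ≤ η / 2 := (min_le_right _ _).trans (min_le_left _ _)
  have ht₂3 : t₂ ≤ (d₀ / (4000 * ℓ₀)) ^ 2 := (min_le_right _ _).trans (min_le_right _ _)
  have hnear : ∀ t, 0 < t → t ≤ t₂ → ℓ₀ / 2 < ℓ t ∧ ℓ t < 2 * ℓ₀ ∧ d₀ / 2 < |Ar t| := by
    intro t h0 h1
    refine hall ?_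
    rw [Real.dist_eq, sub_zero, abs_of_pos h0]
    linarith
  have hsq : ∀ t, 0 < t → t ≤ t₂ → √t ≤ d₀ / (4000 * ℓ₀) := by
    intro t _ h1
    rw [Real.sqrt_le_left hK.le]
    exact h1.trans ht₂3
  set n : ℕ := ⌈ℓ t₂ / (2 * π * √t₂)⌉₊ + 1 with hn
  have hnpos : (0:ℝ) < n := by
    rw [hn]
    positivity
  have hs2 : 0 < √t₂ := Real.sqrt_pos.mpr ht₂pos
  have hn2 : ℓ t₂ ≤ 2 * π * n * √t₂ := by
    have h1 : ℓ t₂ / (2 * π * √t₂) ≤ n := by
      rw [hn]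
      push_cast
      have := Nat.le_ceil (ℓ t₂ / (2 * π * √t₂))
      linarith
    have h2 := (div_le_iff₀ (by positivity : 0 < 2 * π * √t₂)).mp h1
    linarith
  have hK2 : 0 < ℓ₀ / (4 * π * n) := by positivity
  set t₁ := min t₂ ((ℓ₀ / (4 * π * n)) ^ 2) with ht₁
  have ht₁pos : 0 < t₁ := lt_min ht₂pos (pow_pos hK2 2)
  have ht₁2 : t₁ ≤ t₂ := min_le_left _ _
  have ht₁3 : √t₁ ≤ ℓ₀ / (4 * π * n) := by
    rw [Real.sqrt_le_left hK2.le]
    exact min_le_right _ _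
  have hn1 : 2 * π * n * √t₁ ≤ ℓ t₁ := by
    have h1 := (hnear t₁ ht₁pos ht₁2).1
    have h2 : 2 * π * n * √t₁ ≤ 2 * π * n * (ℓ₀ / (4 * π * n)) :=
      mul_le_mul_of_nonneg_left ht₁3 (by positivity)
    have h3 : 2 * π * n * (ℓ₀ / (4 * π * n)) = ℓ₀ / 2 := by
      field_simp
      ring
    linarith
  -- the intermediate value theorem
  set g : ℝ → ℝ := fun t => ℓ t - 2 * π * n * √t with hg
  have hgc : Continuous g := hℓ.sub (continuous_const.mul Real.continuous_sqrt)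
  have hiv := intermediate_value_Icc' ht₁2 hgc.continuousOn
  have hmem : (0:ℝ) ∈ Set.Icc (g t₂) (g t₁) := by
    constructor
    · simp only [hg]
      linarith
    · simp only [hg]
      linarith
  obtain ⟨t, ⟨ht1, ht2⟩, hgt⟩ := hiv hmem
  have ht0 : 0 < t := lt_of_lt_of_le ht₁pos ht1
  have ht2' : t ≤ ε₀ := ht2.trans ht₂1
  obtain ⟨n1, n2, n3⟩ := hnear t ht0 ht2
  have hℓt : 0 < ℓ t := by linarith
  have hst : 0 < √t := Real.sqrt_pos.mpr ht0
  refine ⟨t, (n : ℤ), ht0, ht2', ?_, ?_, ?_⟩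
  · by_contra hc
    have : ℓ t = 0 := Real.sqrt_eq_zero_of_nonpos (not_lt.mp hc)
    linarith
  · simp only [Int.cast_natCast]
    simp only [hg] at hgt
    change ℓ t = _
    linarith
  · change 1000 ≤ |Ar t| / ℓ t / √t
    rw [div_div, le_div_iff₀ (by positivity)]
    have h1 := hsq t ht0 ht2
    have h2 : ℓ t * √t ≤ 2 * ℓ₀ * (d₀ / (4000 * ℓ₀)) :=
      mul_le_mul n2.le h1 hst.le (by positivity)
    have h3 : 2 * ℓ₀ * (d₀ / (4000 * ℓ₀)) = d₀ / 2000 := by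
      field_simp
      ring
    linarith

end Vale.Agent.Lib.P205.T2
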