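import Vale.Agent.Lib.P205.T2.Joint
import Vale.Agent.Lib.P205.T2.Tuning
import Vale.Agent.Lib.P205.T2.Immersion

/-!
The last step: from the flat coordinates with tuned periods to the immersion.
-/

namespace Vale.Agent.Lib.P205.T2

open scoped ContDiff
open Real

noncomputable section

lemma ang_smooth {G : Geo} (hf : G.Flat) (hs : GeoSmooth G) : ContDiff ℝ ∞ G.ang :=
  (Geo.Jang hf).contDiff (Geo.a₁_smooth hs) (Geo.a₂_smooth hs)

lemma Th_smooth {G : Geo} (hf : G.Flat) (hs : GeoSmooth G) : ContDiff ℝ ∞ G.Th := by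
  have ha := ang_smooth hf hs
  have h1 := Geo.S₁₁_smooth hs
  have h2 := Geo.S₁₂_smooth hs
  have h3 := Geo.S₂₂_smooth hs
  refine (Geo.JTh hf).contDiff ?_ ?_
  · exact (ha.cos.mul h1).sub (ha.sin.mul h2)
  · exact (ha.cos.mul h2).sub (ha.sin.mul h3)

lemma Ta_smooth {G : Geo} (hf : G.Flat) (hs : GeoSmooth G) : ContDiff ℝ ∞ G.Ta := by
  have ha := ang_smooth hf hs
  have h1 := Geo.S₁₁_smooth hs
  have h2 := Geo.S₁₂_smooth hs
  have h3 := Geo.S₂₂_smooth hs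
  refine (Geo.JTa hf).contDiff ?_ ?_
  · exact (ha.sin.mul h1).add (ha.cos.mul h2)
  · exact (ha.sin.mul h2).add (ha.cos.mul h3)

/-- **The last step.** -/
theorem final_step {G : Geo} (hs : GeoSmooth G) (hf : G.Flat) {l m : ℝ × ℝ} (hl : GeoPer G l)
    (hm : GeoPer G m) (hd : det2 l m ≠ 0) {R e : ℝ × ℝ → ℝ}
    (JR : Jt R (fun z => R z * G.p₁ z) (fun z => R z * G.p₂ z)) (sR : ContDiff ℝ ∞ R)
    (hRl : Pd R l) (hRm : Pd R m) (hR2 : ∀ z, R z ^ 2 / G.ε * G.E z ^ 2 = e z)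
    (hε : 0 < G.ε) {n : ℤ}
    (hpos : 0 < G.Th l ^ 2 + G.Ta l ^ 2)
    (htune : √(G.Th l ^ 2 + G.Ta l ^ 2) = 2 * π * n * √G.ε)
    (hL : 1000 ≤ |G.Th l * G.Ta m - G.Ta l * G.Th m| / √(G.Th l ^ 2 + G.Ta l ^ 2) / √G.ε) :
    ∃ F : ℝ × ℝ → EuclideanSpace ℝ (Fin 4), ContDiff ℝ ∞ F ∧ (∀ z, F (z + l) = F z) ∧
      (∀ z, F (z + m) = F z) ∧
      ∀ z v w, inner ℝ (fderiv ℝ F z v) (fderiv ℝ F z w) = e z * (v.1 * w.1 + v.2 * w.2) := by
  obtain ⟨p1, p2, p3, p4, -⟩ := Geo.periods hf hl hm hd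
  set A := G.Th l with hA
  set B := G.Ta l with hB
  set C := G.Th m with hC
  set D := G.Ta m with hD
  set ℓ := √(A ^ 2 + B ^ 2) with hℓ
  have hℓpos : 0 < ℓ := Real.sqrt_pos.mpr hpos
  have hℓsq : ℓ ^ 2 = A ^ 2 + B ^ 2 := Real.sq_sqrt hpos.le
  have JT := Geo.JTh hf
  have JS := Geo.JTa hf
  have JX : Jt (fun z => (A * G.Th z + B * G.Ta z) / ℓ)
      (fun z => (A * G.Ax z + B * G.Bx z) / ℓ) (fun z => (A * G.Ay z + B * G.By z) / ℓ) := by
    have h := ((JT.const_mul A).add (JS.const_mul B)).const_mul (1 / ℓ)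
    refine (h.congr ?_ ?_).congr_fun ?_ <;>
    · intro z
      ring
  have JY : Jt (fun z => (- B * G.Th z + A * G.Ta z) / ℓ)
      (fun z => (- B * G.Ax z + A * G.Bx z) / ℓ) (fun z => (- B * G.Ay z + A * G.By z) / ℓ) := by
    have h := ((JT.const_mul (- B)).add (JS.const_mul A)).const_mul (1 / ℓ)
    refine (h.congr ?_ ?_).congr_fun ?_ <;>
    · intro z
      ring
  have sT := Th_smooth hf hs
  have sS := Ta_smooth hf hs
  have sX : ContDiff ℝ ∞ (fun z => (A * G.Th z + B * G.Ta z) / ℓ) :=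
    ((contDiff_const.mul sT).add (contDiff_const.mul sS)).div_const ℓ
  have sY : ContDiff ℝ ∞ (fun z => (- B * G.Th z + A * G.Ta z) / ℓ) :=
    ((contDiff_const.mul sT).add (contDiff_const.mul sS)).div_const ℓ
  have hmet := Geo.metric_flat (G := G)
  have hε0 := hε.ne'
  have hℓ0 := hℓpos.ne'
  have key := immersion_of_coords (ε := G.ε) (g₁₁ := e) (g₁₂ := fun _ => 0) (g₂₂ := e)
    (l := l) (m := m) (n := n) (τ := (A * C + B * D) / ℓ) (L := (- B * C + A * D) / ℓ)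
    hε JR JX JY sR sX sY ?_ ?_ ?_ hRl hRm ?_ ?_ ?_ ?_ ?_
  · obtain ⟨F, h1, h2, h3, h4⟩ := key
    refine ⟨F, h1, h2, h3, fun z v w => ?_⟩
    rw [h4 z v w]
    ring
  · intro z
    obtain ⟨m1, -, -, -⟩ := hmet z
    rw [← hR2 z]
    have e1 : ((A * G.Ax z + B * G.Bx z) / ℓ) ^ 2 + ((- B * G.Ax z + A * G.Bx z) / ℓ) ^ 2
        = G.Ax z ^ 2 + G.Bx z ^ 2 := by
      field_simp
      rw [hℓsq]
      ring
    rw [e1, m1]
    field_simp
    ring
  · intro z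
    obtain ⟨-, m2, -, -⟩ := hmet z
    have e1 : ((A * G.Ax z + B * G.Bx z) / ℓ) * ((A * G.Ay z + B * G.By z) / ℓ)
        + ((- B * G.Ax z + A * G.Bx z) / ℓ) * ((- B * G.Ay z + A * G.By z) / ℓ)
        = G.Ax z * G.Ay z + G.Bx z * G.By z := by
      field_simp
      rw [hℓsq]
      ring
    rw [e1, m2]
    field_simp
    ring
  · intro z
    obtain ⟨-, -, m3, -⟩ := hmet z
    rw [← hR2 z]
    have e1 : ((A * G.Ay z + B * G.By z) / ℓ) ^ 2 + ((- B * G.Ay z + A * G.By z) / ℓ) ^ 2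
        = G.Ay z ^ 2 + G.By z ^ 2 := by
      field_simp
      rw [hℓsq]
      ring
    rw [e1, m3]
    field_simp
    ring
  · intro z
    simp only [p1 z, p2 z]
    rw [← htune]
    field_simp
    rw [hℓsq]
    ring
  · intro z
    simp only [p1 z, p2 z]
    field_simp
    ring
  · intro z
    simp only [p3 z, p4 z]
    field_simp
    ring
  · intro z
    simp only [p3 z, p4 z]
    field_simp
    ring
  · have e2 : |(- B * C + A * D) / ℓ| = |A * D - B * C| / ℓ := by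
      rw [abs_div, abs_of_pos hℓpos]
      congr 2
      ring
    rw [e2]
    exact hL

end

end Vale.Agent.Lib.P205.T2
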