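import Vale.Agent.Lib.P205.T2.Ev

/-!
The fixed point problem for the perturbation of the conformal factor.
-/

namespace Vale.Agent.Lib.P205.T2

open scoped ComplexConjugate ContDiff
open Complex

noncomputable section

/-- The data of the fixed point problem. -/
structure PD where
  L : Lat
  w : Wt
  U1 : XX
  U2 : XX
  U11 : XX
  U12 : XX
  U22 : XX
  r1 : Rl U1
  r2 : Rl U2
  r11 : Rl U11
  r12 : Rl U12
  r22 : Rl U22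

namespace Lat

variable (L : Lat)

/-- The denominator `1 + |k|²`. -/
def den (n : Gm) : ℝ := 1 + L.kx n ^ 2 + L.ky n ^ 2

lemma den_pos (n : Gm) : 0 < L.den n := by unfold den; positivity

lemma den_neg (n : Gm) : L.den (-n) = L.den n := by
  simp [den, L.kx_neg, L.ky_neg]

/-- Symbol of the inverse of `1 - Δ`. -/
def sJ (n : Gm) : ℂ := ((1 / L.den n : ℝ) : ℂ)
/-- Symbol of `∂ₓ (1 - Δ)⁻¹`. -/
def s1 (n : Gm) : ℂ := ((L.kx n / L.den n : ℝ) : ℂ) * I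
/-- Symbol of `∂_y (1 - Δ)⁻¹`. -/
def s2 (n : Gm) : ℂ := ((L.ky n / L.den n : ℝ) : ℂ) * I
/-- Symbol of `∂ₓ∂ₓ (1 - Δ)⁻¹`. -/
def s11 (n : Gm) : ℂ := ((- L.kx n ^ 2 / L.den n : ℝ) : ℂ)
/-- Symbol of `∂ₓ∂_y (1 - Δ)⁻¹`. -/
def s12 (n : Gm) : ℂ := ((- (L.kx n * L.ky n) / L.den n : ℝ) : ℂ)
/-- Symbol of `∂_y∂_y (1 - Δ)⁻¹`. -/
def s22 (n : Gm) : ℂ := ((- L.ky n ^ 2 / L.den n : ℝ) : ℂ)
/-- Symbol of the solution operator of the Laplace equation, conjugated with `1 - Δ`. -/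
def sB (n : Gm) : ℂ := if n = 0 then 0 else ((- (1 + 1 / (L.kx n ^ 2 + L.ky n ^ 2)) : ℝ) : ℂ)

lemma sJ_le (n : Gm) : ‖L.sJ n‖ ≤ 1 := by
  have h := L.den_pos n
  rw [sJ, Complex.norm_real, Real.norm_eq_abs, abs_of_pos (by positivity)]
  rw [div_le_one h]
  unfold den
  nlinarith [sq_nonneg (L.kx n), sq_nonneg (L.ky n)]

lemma s1_le (n : Gm) : ‖L.s1 n‖ ≤ 1 := by
  have h := L.den_pos n
  rw [s1, norm_mul, Complex.norm_I, mul_one, Complex.norm_real, Real.norm_eq_abs, abs_div,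
    abs_of_pos h, div_le_one h]
  unfold den
  have := abs_le_of_sq_le_sq' (a := L.kx n) (b := 1 + L.kx n ^ 2 + L.ky n ^ 2)
    (by nlinarith [sq_nonneg (L.kx n), sq_nonneg (L.ky n), sq_nonneg (L.kx n ^ 2),
      sq_nonneg (L.ky n ^ 2), mul_nonneg (sq_nonneg (L.kx n)) (sq_nonneg (L.ky n))])
    (by positivity)
  exact abs_le.mpr this

lemma s2_le (n : Gm) : ‖L.s2 n‖ ≤ 1 := by
  have h := L.den_pos n
  rw [s2, norm_mul, Complex.norm_I, mul_one, Complex.norm_real, Real.norm_eq_abs, abs_div,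
    abs_of_pos h, div_le_one h]
  unfold den
  have := abs_le_of_sq_le_sq' (a := L.ky n) (b := 1 + L.kx n ^ 2 + L.ky n ^ 2)
    (by nlinarith [sq_nonneg (L.kx n), sq_nonneg (L.ky n), sq_nonneg (L.kx n ^ 2),
      sq_nonneg (L.ky n ^ 2), mul_nonneg (sq_nonneg (L.kx n)) (sq_nonneg (L.ky n))])
    (by positivity)
  exact abs_le.mpr this

lemma s11_le (n : Gm) : ‖L.s11 n‖ ≤ 1 := by
  have h := L.den_pos n
  rw [s11, Complex.norm_real, Real.norm_eq_abs, abs_div, abs_of_pos h, div_le_one h, abs_neg,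
    abs_of_nonneg (sq_nonneg _)]
  unfold den
  nlinarith [sq_nonneg (L.ky n)]

lemma s22_le (n : Gm) : ‖L.s22 n‖ ≤ 1 := by
  have h := L.den_pos n
  rw [s22, Complex.norm_real, Real.norm_eq_abs, abs_div, abs_of_pos h, div_le_one h, abs_neg,
    abs_of_nonneg (sq_nonneg _)]
  unfold den
  nlinarith [sq_nonneg (L.kx n)]

lemma s12_le (n : Gm) : ‖L.s12 n‖ ≤ 1 := by
  have h := L.den_pos n
  rw [s12, Complex.norm_real, Real.norm_eq_abs, abs_div, abs_of_pos h, div_le_one h, abs_neg]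
  unfold den
  have := abs_le_of_sq_le_sq' (a := L.kx n * L.ky n) (b := 1 + L.kx n ^ 2 + L.ky n ^ 2)
    (by nlinarith [sq_nonneg (L.kx n), sq_nonneg (L.ky n), sq_nonneg (L.kx n ^ 2),
      sq_nonneg (L.ky n ^ 2), mul_nonneg (sq_nonneg (L.kx n)) (sq_nonneg (L.ky n)),
      sq_nonneg (L.kx n ^ 2 - L.ky n ^ 2)])
    (by positivity)
  exact abs_le.mpr this

/-- The bound of the solution operator. -/
def CB : ℝ := 1 + 1 / L.c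

lemma one_le_CB : 1 ≤ L.CB := by
  have := L.cpos
  unfold CB
  have : 0 < 1 / L.c := by positivity
  linarith

lemma sB_le (n : Gm) : ‖L.sB n‖ ≤ L.CB := by
  have h1 := L.one_le_CB
  by_cases h : n = 0
  · simp only [sB, h, if_true, norm_zero]
    linarith
  · simp only [sB, h, if_false]
    have h2 := L.lower n h
    have h3 := L.cpos
    have h4 : 0 < L.kx n ^ 2 + L.ky n ^ 2 := by linarith
    rw [Complex.norm_real, Real.norm_eq_abs, abs_neg, abs_of_pos (by positivity)]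
    unfold CB
    have : 1 / (L.kx n ^ 2 + L.ky n ^ 2) ≤ 1 / L.c := one_div_le_one_div_of_le h3 h2
    linarith

lemma sJ_sym (n : Gm) : L.sJ (-n) = conj (L.sJ n) := by
  simp only [sJ, den_neg, Complex.conj_ofReal]

lemma s1_sym (n : Gm) : L.s1 (-n) = conj (L.s1 n) := by
  simp only [s1, den_neg, L.kx_neg, map_mul, Complex.conj_ofReal, Complex.conj_I]
  push_cast
  ring

lemma s2_sym (n : Gm) : L.s2 (-n) = conj (L.s2 n) := by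
  simp only [s2, den_neg, L.ky_neg, map_mul, Complex.conj_ofReal, Complex.conj_I]
  push_cast
  ring

lemma s11_sym (n : Gm) : L.s11 (-n) = conj (L.s11 n) := by
  simp only [s11, den_neg, L.kx_neg, Complex.conj_ofReal]
  push_cast
  ring

lemma s22_sym (n : Gm) : L.s22 (-n) = conj (L.s22 n) := by
  simp only [s22, den_neg, L.ky_neg, Complex.conj_ofReal]
  push_cast
  ring

lemma s12_sym (n : Gm) : L.s12 (-n) = conj (L.s12 n) := by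
  simp only [s12, den_neg, L.kx_neg, L.ky_neg, Complex.conj_ofReal]
  push_cast
  ring

lemma sB_sym (n : Gm) : L.sB (-n) = conj (L.sB n) := by
  by_cases h : n = 0
  · simp [sB, h]
  · have h' : - n ≠ 0 := neg_ne_zero.mpr h
    simp only [sB, h, h', if_false, L.kx_neg, L.ky_neg, Complex.conj_ofReal, neg_sq]

end Lat

namespace PD

variable (P : PD)

/-- The atoms. -/
def aJ (b : XX) : XX := mlt P.L.sJ 1 P.L.sJ_le b
/-- The atoms. -/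
def aD1 (b : XX) : XX := mlt P.L.s1 1 P.L.s1_le b
/-- The atoms. -/
def aD2 (b : XX) : XX := mlt P.L.s2 1 P.L.s2_le b
/-- The atoms. -/
def aD11 (b : XX) : XX := mlt P.L.s11 1 P.L.s11_le b
/-- The atoms. -/
def aD12 (b : XX) : XX := mlt P.L.s12 1 P.L.s12_le b
/-- The atoms. -/
def aD22 (b : XX) : XX := mlt P.L.s22 1 P.L.s22_le b
/-- The Laplacian. -/
def aDl (b : XX) : XX := P.aD11 b + P.aD22 b

/-- The conformal factor `σ = 1 + ψ`. -/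
def sg (b : XX) : XX := one P.w + P.aJ b

/-- The product. -/
def m (x y : XX) : XX := mul P.w x y

/-- The quadratic part of the equation. -/
def N1 (b : XX) : XX :=
  (P.m (P.aD1 b) (P.aD1 b) + P.m (P.aD2 b) (P.aD2 b)) - P.m (P.aJ b) (P.aDl b)

/-- The function `P₁`. -/
def P1 (b : XX) : XX := P.m (P.sg b) P.U1 + P.aD1 b
/-- The function `P₂`. -/
def P2 (b : XX) : XX := P.m (P.sg b) P.U2 + P.aD2 b
/-- The function `X`. -/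
def XQ (b : XX) : XX := P.m (P.P1 b) (P.P1 b) + P.m (P.P2 b) (P.P2 b)
/-- The auxiliary function `σ₁ u₁ - σ₂ u₂`. -/
def sS (b : XX) : XX := P.m (P.aD1 b) P.U1 - P.m (P.aD2 b) P.U2
/-- The auxiliary function `σ₁ u₂ + σ₂ u₁`. -/
def sT (b : XX) : XX := P.m (P.aD1 b) P.U2 + P.m (P.aD2 b) P.U1
/-- The matrix `M̃`. -/
def M11 (b : XX) : XX :=
  (P.m (P.m (P.sg b) (P.sg b)) P.U11 + P.m (P.sg b) (P.aD11 b) + P.m (P.sg b) (P.sS b))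
    - P.m (P.aD2 b) (P.aD2 b)
/-- The matrix `M̃`. -/
def M22 (b : XX) : XX :=
  (P.m (P.m (P.sg b) (P.sg b)) P.U22 + P.m (P.sg b) (P.aD22 b) - P.m (P.sg b) (P.sS b))
    - P.m (P.aD1 b) (P.aD1 b)
/-- The matrix `M̃`. -/
def M12 (b : XX) : XX :=
  P.m (P.m (P.sg b) (P.sg b)) P.U12 + P.m (P.sg b) (P.aD12 b) + P.m (P.sg b) (P.sT b)
    + P.m (P.aD1 b) (P.aD2 b)

/-- The part of the equation carrying the factor `ε`. -/
def N2 (b : XX) : XX :=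
  P.m (P.XQ b) (P.m (P.sg b) (P.aDl b) - (P.m (P.aD1 b) (P.aD1 b) + P.m (P.aD2 b) (P.aD2 b)))
    + (P.m (P.M11 b) (P.M22 b) - P.m (P.M12 b) (P.M12 b))

/-- The map whose fixed points solve the equation. -/
def TT (ε : ℝ) (b : XX) : XX :=
  mlt P.L.sB P.L.CB P.L.sB_le (P.N1 b + (ε : ℂ) • P.N2 b)

end PD

/-- Boundedness and Lipschitz continuity on the unit ball. -/
def LBx (f : XX → XX) : Prop :=
  ∃ K B : ℝ, 0 ≤ K ∧ 0 ≤ B ∧ (∀ b, ‖b‖ ≤ 1 → ‖f b‖ ≤ B) ∧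
    ∀ b b', ‖b‖ ≤ 1 → ‖b'‖ ≤ 1 → ‖f b - f b'‖ ≤ K * ‖b - b'‖

lemma LBx.const (x : XX) : LBx fun _ => x :=
  ⟨0, ‖x‖, le_refl _, norm_nonneg _, fun _ _ => le_refl _, fun b b' _ _ => by simp⟩

lemma LBx.add {f g : XX → XX} (hf : LBx f) (hg : LBx g) : LBx fun b => f b + g b := by
  obtain ⟨K, B, hK, hB, h1, h2⟩ := hf
  obtain ⟨K', B', hK', hB', h1', h2'⟩ := hg
  refine ⟨K + K', B + B', by positivity, by positivity, fun b hb => ?_, fun b b' hb hb' => ?_⟩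
  · exact (norm_add_le _ _).trans (add_le_add (h1 b hb) (h1' b hb))
  · have e : f b + g b - (f b' + g b') = (f b - f b') + (g b - g b') := by abel
    rw [e, add_mul]
    exact (norm_add_le _ _).trans (add_le_add (h2 b b' hb hb') (h2' b b' hb hb'))

lemma LBx.sub {f g : XX → XX} (hf : LBx f) (hg : LBx g) : LBx fun b => f b - g b := by
  obtain ⟨K, B, hK, hB, h1, h2⟩ := hf
  obtain ⟨K', B', hK', hB', h1', h2'⟩ := hg
  refine ⟨K + K', B + B', by positivity, by positivity, fun b hb => ?_, fun b b' hb hb' => ?_⟩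
  · exact (norm_sub_le _ _).trans (add_le_add (h1 b hb) (h1' b hb))
  · have e : f b - g b - (f b' - g b') = (f b - f b') - (g b - g b') := by abel
    rw [e, add_mul]
    exact (norm_sub_le _ _).trans (add_le_add (h2 b b' hb hb') (h2' b b' hb hb'))

lemma LBx.mul (w : Wt) {f g : XX → XX} (hf : LBx f) (hg : LBx g) :
    LBx fun b => T2.mul w (f b) (g b) := by
  obtain ⟨K, B, hK, hB, h1, h2⟩ := hf
  obtain ⟨K', B', hK', hB', h1', h2'⟩ := hg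
  refine ⟨K * B' + B * K', B * B', by positivity, by positivity, fun b hb => ?_,
    fun b b' hb hb' => ?_⟩
  · exact (norm_mul_le w _ _).trans (mul_le_mul (h1 b hb) (h1' b hb) (norm_nonneg _) hB)
  · refine (mul_diff_le w _ _ _ _).trans ?_
    have e1 : ‖f b - f b'‖ * ‖g b‖ ≤ (K * ‖b - b'‖) * B' :=
      mul_le_mul (h2 b b' hb hb') (h1' b hb) (norm_nonneg _) (by positivity)
    have e2 : ‖f b'‖ * ‖g b - g b'‖ ≤ B * (K' * ‖b - b'‖) :=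
      mul_le_mul (h1 b' hb') (h2' b b' hb hb') (norm_nonneg _) hB
    calc _ ≤ (K * ‖b - b'‖) * B' + B * (K' * ‖b - b'‖) := add_le_add e1 e2
      _ = _ := by ring

lemma LBx.atom {s : Gm → ℂ} (hs : ∀ n, ‖s n‖ ≤ 1) : LBx (mlt s 1 hs) := by
  refine ⟨1, 1, zero_le_one, zero_le_one, fun b hb => ?_, fun b b' _ _ => ?_⟩
  · exact (norm_mlt_le hs b).trans (by linarith)
  · rw [← mlt_sub]
    exact norm_mlt_le hs _

namespace PD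

variable (P : PD)

lemma lb_J : LBx P.aJ := LBx.atom P.L.sJ_le
lemma lb_D1 : LBx P.aD1 := LBx.atom P.L.s1_le
lemma lb_D2 : LBx P.aD2 := LBx.atom P.L.s2_le
lemma lb_D11 : LBx P.aD11 := LBx.atom P.L.s11_le
lemma lb_D12 : LBx P.aD12 := LBx.atom P.L.s12_le
lemma lb_D22 : LBx P.aD22 := LBx.atom P.L.s22_le
lemma lb_Dl : LBx P.aDl := P.lb_D11.add P.lb_D22
lemma lb_sg : LBx P.sg := (LBx.const _).add P.lb_J

lemma lb_P1 : LBx P.P1 := (LBx.mul _ P.lb_sg (LBx.const _)).add P.lb_D1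
lemma lb_P2 : LBx P.P2 := (LBx.mul _ P.lb_sg (LBx.const _)).add P.lb_D2
lemma lb_XQ : LBx P.XQ := (LBx.mul _ P.lb_P1 P.lb_P1).add (LBx.mul _ P.lb_P2 P.lb_P2)
lemma lb_sS : LBx P.sS := (LBx.mul _ P.lb_D1 (LBx.const _)).sub (LBx.mul _ P.lb_D2 (LBx.const _))
lemma lb_sT : LBx P.sT := (LBx.mul _ P.lb_D1 (LBx.const _)).add (LBx.mul _ P.lb_D2 (LBx.const _))
lemma lb_M11 : LBx P.M11 :=
  (((LBx.mul _ (LBx.mul _ P.lb_sg P.lb_sg) (LBx.const _)).add (LBx.mul _ P.lb_sg P.lb_D11)).add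
    (LBx.mul _ P.lb_sg P.lb_sS)).sub (LBx.mul _ P.lb_D2 P.lb_D2)
lemma lb_M22 : LBx P.M22 :=
  (((LBx.mul _ (LBx.mul _ P.lb_sg P.lb_sg) (LBx.const _)).add (LBx.mul _ P.lb_sg P.lb_D22)).sub
    (LBx.mul _ P.lb_sg P.lb_sS)).sub (LBx.mul _ P.lb_D1 P.lb_D1)
lemma lb_M12 : LBx P.M12 :=
  (((LBx.mul _ (LBx.mul _ P.lb_sg P.lb_sg) (LBx.const _)).add (LBx.mul _ P.lb_sg P.lb_D12)).add
    (LBx.mul _ P.lb_sg P.lb_sT)).add (LBx.mul _ P.lb_D1 P.lb_D2)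
lemma lb_N2 : LBx P.N2 :=
  (LBx.mul _ P.lb_XQ ((LBx.mul _ P.lb_sg P.lb_Dl).sub
    ((LBx.mul _ P.lb_D1 P.lb_D1).add (LBx.mul _ P.lb_D2 P.lb_D2)))).add
    ((LBx.mul _ P.lb_M11 P.lb_M22).sub (LBx.mul _ P.lb_M12 P.lb_M12))

end PD

namespace PD

variable (P : PD)

lemma aJ_norm (b : XX) : ‖P.aJ b‖ ≤ ‖b‖ := by
  exact (norm_mlt_le P.L.sJ_le b).trans_eq (one_mul _)
lemma aD1_norm (b : XX) : ‖P.aD1 b‖ ≤ ‖b‖ := by
  exact (norm_mlt_le P.L.s1_le b).trans_eq (one_mul _)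
lemma aD2_norm (b : XX) : ‖P.aD2 b‖ ≤ ‖b‖ := by
  exact (norm_mlt_le P.L.s2_le b).trans_eq (one_mul _)
lemma aD11_norm (b : XX) : ‖P.aD11 b‖ ≤ ‖b‖ := by
  exact (norm_mlt_le P.L.s11_le b).trans_eq (one_mul _)
lemma aD12_norm (b : XX) : ‖P.aD12 b‖ ≤ ‖b‖ := by
  exact (norm_mlt_le P.L.s12_le b).trans_eq (one_mul _)
lemma aD22_norm (b : XX) : ‖P.aD22 b‖ ≤ ‖b‖ := by
  exact (norm_mlt_le P.L.s22_le b).trans_eq (one_mul _)
lemma aDl_norm (b : XX) : ‖P.aDl b‖ ≤ 2 * ‖b‖ := by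
  have h1 := P.aD11_norm b
  have h2 := P.aD22_norm b
  have := norm_add_le (P.aD11 b) (P.aD22 b)
  simp only [aDl]
  linarith

lemma aJ_sub (b b' : XX) : P.aJ b - P.aJ b' = P.aJ (b - b') := (mlt_sub _ _ _).symm
lemma aD1_sub (b b' : XX) : P.aD1 b - P.aD1 b' = P.aD1 (b - b') := (mlt_sub _ _ _).symm
lemma aD2_sub (b b' : XX) : P.aD2 b - P.aD2 b' = P.aD2 (b - b') := (mlt_sub _ _ _).symm
lemma aDl_sub (b b' : XX) : P.aDl b - P.aDl b' = P.aDl (b - b') := by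
  simp only [aDl, aD11, aD22, mlt_sub]
  abel

lemma N1_norm {b : XX} : ‖P.N1 b‖ ≤ 4 * ‖b‖ ^ 2 := by
  have h0 := norm_nonneg b
  have h1 : ‖P.m (P.aD1 b) (P.aD1 b)‖ ≤ ‖b‖ * ‖b‖ :=
    (norm_mul_le _ _ _).trans (mul_le_mul (P.aD1_norm b) (P.aD1_norm b) (norm_nonneg _) h0)
  have h2 : ‖P.m (P.aD2 b) (P.aD2 b)‖ ≤ ‖b‖ * ‖b‖ :=
    (norm_mul_le _ _ _).trans (mul_le_mul (P.aD2_norm b) (P.aD2_norm b) (norm_nonneg _) h0)
  have h3 : ‖P.m (P.aJ b) (P.aDl b)‖ ≤ ‖b‖ * (2 * ‖b‖) :=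
    (norm_mul_le _ _ _).trans (mul_le_mul (P.aJ_norm b) (P.aDl_norm b) (norm_nonneg _) h0)
  have h4 := norm_sub_le (P.m (P.aD1 b) (P.aD1 b) + P.m (P.aD2 b) (P.aD2 b)) (P.m (P.aJ b) (P.aDl b))
  have h5 := norm_add_le (P.m (P.aD1 b) (P.aD1 b)) (P.m (P.aD2 b) (P.aD2 b))
  simp only [N1]
  nlinarith

lemma N1_lip {b b' : XX} {ρ : ℝ} (hb : ‖b‖ ≤ ρ) (hb' : ‖b'‖ ≤ ρ) :
    ‖P.N1 b - P.N1 b'‖ ≤ 8 * ρ * ‖b - b'‖ := by
  have hρ : 0 ≤ ρ := (norm_nonneg _).trans hb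
  set d := ‖b - b'‖ with hd
  have hd0 : 0 ≤ d := norm_nonneg _
  have e1 : ‖P.m (P.aD1 b) (P.aD1 b) - P.m (P.aD1 b') (P.aD1 b')‖ ≤ d * ρ + ρ * d := by
    refine (mul_diff_le _ _ _ _ _).trans ?_
    rw [P.aD1_sub]
    exact add_le_add (mul_le_mul (P.aD1_norm _) ((P.aD1_norm b).trans hb) (norm_nonneg _) hd0)
      (mul_le_mul ((P.aD1_norm b').trans hb') (P.aD1_norm _) (norm_nonneg _) hρ)
  have e2 : ‖P.m (P.aD2 b) (P.aD2 b) - P.m (P.aD2 b') (P.aD2 b')‖ ≤ d * ρ + ρ * d := by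
    refine (mul_diff_le _ _ _ _ _).trans ?_
    rw [P.aD2_sub]
    exact add_le_add (mul_le_mul (P.aD2_norm _) ((P.aD2_norm b).trans hb) (norm_nonneg _) hd0)
      (mul_le_mul ((P.aD2_norm b').trans hb') (P.aD2_norm _) (norm_nonneg _) hρ)
  have e3 : ‖P.m (P.aJ b) (P.aDl b) - P.m (P.aJ b') (P.aDl b')‖ ≤ d * (2 * ρ) + ρ * (2 * d) := by
    refine (mul_diff_le _ _ _ _ _).trans ?_
    rw [P.aJ_sub, P.aDl_sub]
    refine add_le_add (mul_le_mul (P.aJ_norm _) ?_ (norm_nonneg _) hd0)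
      (mul_le_mul ((P.aJ_norm b').trans hb') (P.aDl_norm _) (norm_nonneg _) hρ)
    have := P.aDl_norm b
    linarith
  have e : P.N1 b - P.N1 b' = ((P.m (P.aD1 b) (P.aD1 b) - P.m (P.aD1 b') (P.aD1 b'))
      + (P.m (P.aD2 b) (P.aD2 b) - P.m (P.aD2 b') (P.aD2 b')))
      - (P.m (P.aJ b) (P.aDl b) - P.m (P.aJ b') (P.aDl b')) := by
    simp only [N1]
    abel
  rw [e]
  refine (norm_sub_le _ _).trans ?_
  have := norm_add_le (P.m (P.aD1 b) (P.aD1 b) - P.m (P.aD1 b') (P.aD1 b'))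
    (P.m (P.aD2 b) (P.aD2 b) - P.m (P.aD2 b') (P.aD2 b'))
  nlinarith

lemma TT_diff (ε : ℝ) (b b' : XX) : P.TT ε b - P.TT ε b'
    = mlt P.L.sB P.L.CB P.L.sB_le ((P.N1 b - P.N1 b') + (ε : ℂ) • (P.N2 b - P.N2 b')) := by
  simp only [TT, ← mlt_sub]
  congr 1
  rw [smul_sub]
  abel

lemma TT_diff' (ε ε' : ℝ) (b : XX) : P.TT ε b - P.TT ε' b
    = mlt P.L.sB P.L.CB P.L.sB_le (((ε - ε' : ℝ) : ℂ) • P.N2 b) := by
  simp only [TT, ← mlt_sub]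
  congr 1
  push_cast
  rw [sub_smul]
  abel

/-- The constants of the contraction argument. -/
theorem exists_constants : ∃ ρ ε₀ B BX : ℝ, 0 < ρ ∧ ρ ≤ 1 / 4 ∧ 0 < ε₀ ∧ ε₀ ≤ 1 ∧ 0 ≤ B ∧ 0 ≤ BX ∧
    ε₀ * BX ≤ 1 / 2 ∧ (∀ b, ‖b‖ ≤ ρ → ‖P.XQ b‖ ≤ BX) ∧
    (∀ ε, 0 ≤ ε → ε ≤ ε₀ → ∀ b, ‖b‖ ≤ ρ → ‖P.TT ε b‖ ≤ ρ) ∧
    (∀ ε, 0 ≤ ε → ε ≤ ε₀ → ∀ b b', ‖b‖ ≤ ρ → ‖b'‖ ≤ ρ → ‖P.TT ε b - P.TT ε b'‖ ≤ 1 / 2 * ‖b - b'‖) ∧
    (∀ ε ε' b, ‖b‖ ≤ ρ → ‖P.TT ε b - P.TT ε' b‖ ≤ B * |ε - ε'|) := by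
  obtain ⟨K₂, B₂, hK₂, hB₂, h1, h2⟩ := P.lb_N2
  obtain ⟨_, BX, _, hBX, hX, _⟩ := P.lb_XQ
  set CB := P.L.CB with hCB
  have hC1 : 1 ≤ CB := P.L.one_le_CB
  have hC0 : 0 < CB := by linarith
  set ρ : ℝ := 1 / (32 * CB) with hρ
  have hρ0 : 0 < ρ := by positivity
  have hρ1 : ρ ≤ 1 / 32 := by
    rw [hρ]
    exact one_div_le_one_div_of_le (by norm_num) (by linarith)
  have hρC : CB * ρ = 1 / 32 := by
    rw [hρ]
    field_simp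
  set ε₁ : ℝ := 1 / (4 * CB * (K₂ + 1)) with hε₁
  set ε₂ : ℝ := ρ / (2 * CB * (B₂ + 1)) with hε₂
  set ε₃ : ℝ := 1 / (2 * (BX + 1)) with hε₃
  have hε₁0 : 0 < ε₁ := by positivity
  have hε₂0 : 0 < ε₂ := by positivity
  have hε₃0 : 0 < ε₃ := by positivity
  set ε₀ : ℝ := min 1 (min ε₁ (min ε₂ ε₃)) with hε₀
  have hε₀0 : 0 < ε₀ := by
    simp only [hε₀, lt_min_iff]
    exact ⟨one_pos, hε₁0, hε₂0, hε₃0⟩
  have l1 : ε₀ ≤ 1 := min_le_left _ _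
  have l2 : ε₀ ≤ ε₁ := (min_le_right _ _).trans (min_le_left _ _)
  have l3 : ε₀ ≤ ε₂ := (min_le_right _ _).trans ((min_le_right _ _).trans (min_le_left _ _))
  have l4 : ε₀ ≤ ε₃ := (min_le_right _ _).trans ((min_le_right _ _).trans (min_le_right _ _))
  have hρ' : ∀ b : XX, ‖b‖ ≤ ρ → ‖b‖ ≤ 1 := fun b hb => hb.trans (by linarith)
  refine ⟨ρ, ε₀, CB * B₂, BX, hρ0, by linarith, hε₀0, l1, by positivity, hBX, ?_,
    fun b hb => hX b (hρ' b hb), ?_, ?_, ?_⟩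
  · have h3 : ε₃ * BX ≤ 1 / 2 := by
      rw [hε₃, div_mul_eq_mul_div, one_mul, div_le_iff₀ (by positivity)]
      linarith
    calc ε₀ * BX ≤ ε₃ * BX := mul_le_mul_of_nonneg_right l4 hBX
      _ ≤ 1 / 2 := h3
  · intro ε hε hε' b hb
    have hn : ‖(ε : ℂ) • P.N2 b‖ ≤ ε * B₂ := by
      rw [norm_smul, Complex.norm_real, Real.norm_of_nonneg hε]
      exact mul_le_mul_of_nonneg_left (h1 b (hρ' b hb)) hε
    have hN1 : ‖P.N1 b‖ ≤ 4 * ρ ^ 2 := P.N1_norm.trans (by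
      have := pow_le_pow_left₀ (norm_nonneg b) hb 2
      linarith)
    have hm := norm_mlt_le P.L.sB_le (P.N1 b + (ε : ℂ) • P.N2 b)
    have h4 := norm_add_le (P.N1 b) ((ε : ℂ) • P.N2 b)
    have h5 : CB * (4 * ρ ^ 2) = ρ / 8 := by
      have : CB * (4 * ρ ^ 2) = 4 * (CB * ρ) * ρ := by ring
      rw [this, hρC]
      ring
    have h6 : CB * (ε * B₂) ≤ ρ / 2 := by
      have e1 : ε * B₂ ≤ ε₂ * (B₂ + 1) :=
        mul_le_mul (hε'.trans l3) (by linarith) hB₂ hε₂0.le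
      have e2 : CB * (ε₂ * (B₂ + 1)) = ρ / 2 := by
        rw [hε₂]
        field_simp
      calc CB * (ε * B₂) ≤ CB * (ε₂ * (B₂ + 1)) := mul_le_mul_of_nonneg_left e1 hC0.le
        _ = _ := e2
    calc ‖P.TT ε b‖ ≤ CB * ‖P.N1 b + (ε : ℂ) • P.N2 b‖ := hm
      _ ≤ CB * (4 * ρ ^ 2 + ε * B₂) :=
        mul_le_mul_of_nonneg_left (h4.trans (add_le_add hN1 hn)) hC0.le
      _ = CB * (4 * ρ ^ 2) + CB * (ε * B₂) := by ring
      _ ≤ ρ := by rw [h5]; linarith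
  · intro ε hε hε' b b' hb hb'
    rw [TT_diff]
    have hm := norm_mlt_le P.L.sB_le ((P.N1 b - P.N1 b') + (ε : ℂ) • (P.N2 b - P.N2 b'))
    have h4 := norm_add_le (P.N1 b - P.N1 b') ((ε : ℂ) • (P.N2 b - P.N2 b'))
    set d := ‖b - b'‖ with hd
    have hd0 : 0 ≤ d := norm_nonneg _
    have hn : ‖(ε : ℂ) • (P.N2 b - P.N2 b')‖ ≤ ε * (K₂ * d) := by
      rw [norm_smul, Complex.norm_real, Real.norm_of_nonneg hε]
      exact mul_le_mul_of_nonneg_left (h2 b b' (hρ' b hb) (hρ' b' hb')) hε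
    have hN1 := P.N1_lip hb hb'
    have h6 : CB * (ε * K₂) ≤ 1 / 4 := by
      have e1 : ε * K₂ ≤ ε₁ * (K₂ + 1) :=
        mul_le_mul (hε'.trans l2) (by linarith) hK₂ hε₁0.le
      have e2 : CB * (ε₁ * (K₂ + 1)) = 1 / 4 := by
        rw [hε₁]
        field_simp
      calc CB * (ε * K₂) ≤ CB * (ε₁ * (K₂ + 1)) := mul_le_mul_of_nonneg_left e1 hC0.le
        _ = _ := e2
    calc _ ≤ CB * ‖(P.N1 b - P.N1 b') + (ε : ℂ) • (P.N2 b - P.N2 b')‖ := hm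
      _ ≤ CB * (8 * ρ * d + ε * (K₂ * d)) :=
        mul_le_mul_of_nonneg_left (h4.trans (add_le_add hN1 hn)) hC0.le
      _ = (8 * (CB * ρ) + CB * (ε * K₂)) * d := by ring
      _ ≤ (1 / 2) * d := by
        apply mul_le_mul_of_nonneg_right _ hd0
        rw [hρC]
        linarith
  · intro ε ε' b hb
    rw [TT_diff']
    have hm := norm_mlt_le P.L.sB_le (((ε - ε' : ℝ) : ℂ) • P.N2 b)
    have e : ‖((ε - ε' : ℝ) : ℂ) • P.N2 b‖ ≤ |ε - ε'| * B₂ := by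
      rw [norm_smul, Complex.norm_real, Real.norm_eq_abs]
      exact mul_le_mul_of_nonneg_left (h1 b (hρ' b hb)) (abs_nonneg _)
    calc _ ≤ CB * ‖((ε - ε' : ℝ) : ℂ) • P.N2 b‖ := hm
      _ ≤ CB * (|ε - ε'| * B₂) := mul_le_mul_of_nonneg_left e hC0.le
      _ = _ := by ring

lemma Rl_aJ {b : XX} (h : Rl b) : Rl (P.aJ b) := h.mlt _ P.L.sJ_sym
lemma Rl_aD1 {b : XX} (h : Rl b) : Rl (P.aD1 b) := h.mlt _ P.L.s1_sym
lemma Rl_aD2 {b : XX} (h : Rl b) : Rl (P.aD2 b) := h.mlt _ P.L.s2_sym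
lemma Rl_aD11 {b : XX} (h : Rl b) : Rl (P.aD11 b) := h.mlt _ P.L.s11_sym
lemma Rl_aD12 {b : XX} (h : Rl b) : Rl (P.aD12 b) := h.mlt _ P.L.s12_sym
lemma Rl_aD22 {b : XX} (h : Rl b) : Rl (P.aD22 b) := h.mlt _ P.L.s22_sym
lemma Rl_aDl {b : XX} (h : Rl b) : Rl (P.aDl b) := (P.Rl_aD11 h).add (P.Rl_aD22 h)
lemma Rl_sg {b : XX} (h : Rl b) : Rl (P.sg b) := (Rl_one _).add (P.Rl_aJ h)
lemma Rl_P1 {b : XX} (h : Rl b) : Rl (P.P1 b) := ((P.Rl_sg h).mul P.r1).add (P.Rl_aD1 h)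
lemma Rl_P2 {b : XX} (h : Rl b) : Rl (P.P2 b) := ((P.Rl_sg h).mul P.r2).add (P.Rl_aD2 h)
lemma Rl_XQ {b : XX} (h : Rl b) : Rl (P.XQ b) :=
  ((P.Rl_P1 h).mul (P.Rl_P1 h)).add ((P.Rl_P2 h).mul (P.Rl_P2 h))
lemma Rl_sS {b : XX} (h : Rl b) : Rl (P.sS b) :=
  ((P.Rl_aD1 h).mul P.r1).sub ((P.Rl_aD2 h).mul P.r2)
lemma Rl_sT {b : XX} (h : Rl b) : Rl (P.sT b) :=
  ((P.Rl_aD1 h).mul P.r2).add ((P.Rl_aD2 h).mul P.r1)
lemma Rl_M11 {b : XX} (h : Rl b) : Rl (P.M11 b) :=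
  ((((((P.Rl_sg h).mul (P.Rl_sg h))).mul P.r11).add ((P.Rl_sg h).mul (P.Rl_aD11 h))).add
    ((P.Rl_sg h).mul (P.Rl_sS h))).sub ((P.Rl_aD2 h).mul (P.Rl_aD2 h))
lemma Rl_M22 {b : XX} (h : Rl b) : Rl (P.M22 b) :=
  ((((((P.Rl_sg h).mul (P.Rl_sg h))).mul P.r22).add ((P.Rl_sg h).mul (P.Rl_aD22 h))).sub
    ((P.Rl_sg h).mul (P.Rl_sS h))).sub ((P.Rl_aD1 h).mul (P.Rl_aD1 h))
lemma Rl_M12 {b : XX} (h : Rl b) : Rl (P.M12 b) :=
  ((((((P.Rl_sg h).mul (P.Rl_sg h))).mul P.r12).add ((P.Rl_sg h).mul (P.Rl_aD12 h))).add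
    ((P.Rl_sg h).mul (P.Rl_sT h))).add ((P.Rl_aD1 h).mul (P.Rl_aD2 h))
lemma Rl_N1 {b : XX} (h : Rl b) : Rl (P.N1 b) :=
  (((P.Rl_aD1 h).mul (P.Rl_aD1 h)).add ((P.Rl_aD2 h).mul (P.Rl_aD2 h))).sub
    ((P.Rl_aJ h).mul (P.Rl_aDl h))
lemma Rl_N2 {b : XX} (h : Rl b) : Rl (P.N2 b) :=
  ((P.Rl_XQ h).mul (((P.Rl_sg h).mul (P.Rl_aDl h)).sub
    (((P.Rl_aD1 h).mul (P.Rl_aD1 h)).add ((P.Rl_aD2 h).mul (P.Rl_aD2 h))))).add
    (((P.Rl_M11 h).mul (P.Rl_M22 h)).sub ((P.Rl_M12 h).mul (P.Rl_M12 h)))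
lemma Rl_TT (ε : ℝ) {b : XX} (h : Rl b) : Rl (P.TT ε b) :=
  ((P.Rl_N1 h).add ((P.Rl_N2 h).smul ε)).mlt _ P.L.sB_sym

/-- Existence of the fixed point. -/
lemma exists_fixed {ρ ε : ℝ} (hρ : 0 ≤ ρ)
    (h1 : ∀ b, ‖b‖ ≤ ρ → ‖P.TT ε b‖ ≤ ρ)
    (h2 : ∀ b b', ‖b‖ ≤ ρ → ‖b'‖ ≤ ρ → ‖P.TT ε b - P.TT ε b'‖ ≤ 1 / 2 * ‖b - b'‖) :
    ∃ b, ‖b‖ ≤ ρ ∧ Rl b ∧ P.TT ε b = b := by
  set S : Set XX := {b | ‖b‖ ≤ ρ} ∩ {b | Rl b} with hS
  have hSc : IsClosed S :=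
    (isClosed_le continuous_norm continuous_const).inter isClosed_Rl
  have hcomp : CompleteSpace S := hSc.completeSpace_coe
  have h0 : (0 : XX) ∈ S := ⟨by simpa using hρ, Rl.zero⟩
  have hne : Nonempty S := ⟨⟨0, h0⟩⟩
  let g : S → S := fun b => ⟨P.TT ε b, h1 b b.2.1, P.Rl_TT ε b.2.2⟩
  have hg : ContractingWith (1 / 2) g := by
    refine ⟨by norm_num [← NNReal.coe_lt_coe], ?_⟩
    refine LipschitzWith.of_dist_le_mul fun x y => ?_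
    rw [Subtype.dist_eq, Subtype.dist_eq, dist_eq_norm, dist_eq_norm]
    have := h2 x y x.2.1 y.2.1
    simpa using this
  have hfix := hg.fixedPoint_isFixedPt
  refine ⟨(hg.fixedPoint g : S), (hg.fixedPoint g).2.1, (hg.fixedPoint g).2.2, ?_⟩
  exact congrArg Subtype.val hfix

end PD

end

end Vale.Agent.Lib.P205.T2
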