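import Mathlib

/-!
One dimensional Fourier series of smooth periodic functions.
-/

namespace Vale.Agent.Lib.P205.T2

open Complex MeasureTheory intervalIntegral
open scoped Real ComplexConjugate

noncomputable section

/-- The exponentials `e^{-2 π i n s}`. -/
def eN (n : ℤ) (s : ℝ) : ℂ := cexp (-(2 * π * I * n * s))

/-- The Fourier coefficients on the unit interval. -/
def Cf (g : ℝ → ℂ) (n : ℤ) : ℂ := ∫ s in (0:ℝ)..1, g s * eN n s

lemma norm_eN (n : ℤ) (s : ℝ) : ‖eN n s‖ = 1 := by
  have : -(2 * π * I * n * s) = ((-(2 * π * n * s) : ℝ) : ℂ) * I := by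
    push_cast
    ring
  rw [eN, this, Complex.norm_exp_ofReal_mul_I]

lemma eN_zero (n : ℤ) : eN n 0 = 1 := by simp [eN]

lemma eN_one (n : ℤ) : eN n 1 = 1 := by
  have : -(2 * π * I * n * ((1:ℝ) : ℂ)) = ((-n : ℤ) : ℂ) * (2 * π * I) := by
    push_cast
    ring
  rw [eN, this, Complex.exp_int_mul_two_pi_mul_I]

lemma hasDerivAt_eN (n : ℤ) (s : ℝ) :
    HasDerivAt (eN n) (-(2 * π * I * n) * eN n s) s := by
  have h0 : HasDerivAt (fun s : ℝ => (s : ℂ)) 1 s := Complex.ofRealCLM.hasDerivAt (x := s)
  have h : HasDerivAt (fun s : ℝ => -(2 * π * I * n * (s : ℂ))) (-(2 * π * I * n)) s := by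
    have := (h0.const_mul (2 * π * I * n)).fun_neg
    simpa using this
  have h2 := h.cexp
  have e : eN n = fun s : ℝ => cexp (-(2 * π * I * n * (s : ℂ))) := rfl
  rw [e]
  refine h2.congr_deriv ?_
  ring

lemma continuous_eN (n : ℤ) : Continuous (eN n) := by
  unfold eN
  fun_prop

/-- Integration by parts. -/
lemma Cf_deriv {g g' : ℝ → ℂ} (hg : ∀ s, HasDerivAt g (g' s) s) (hg' : Continuous g')
    (hp : g 1 = g 0) (n : ℤ) : Cf g' n = 2 * π * I * n * Cf g n := by
  have hgc : Continuous g := continuous_iff_continuousAt.mpr fun s => (hg s).continuousAt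
  have hd : ∀ s, HasDerivAt (fun s => g s * eN n s)
      (g' s * eN n s + g s * (-(2 * π * I * n) * eN n s)) s :=
    fun s => (hg s).mul (hasDerivAt_eN n s)
  have hc : Continuous fun s => g' s * eN n s + g s * (-(2 * π * I * n) * eN n s) := by
    have := continuous_eN n
    fun_prop
  have h := integral_eq_sub_of_hasDerivAt (a := 0) (b := 1) (fun s _ => hd s)
    (hc.intervalIntegrable _ _)
  rw [eN_one, eN_zero, hp, sub_self] at h
  have c1 : Continuous fun s => g' s * eN n s := hg'.mul (continuous_eN n)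
  have c2 : Continuous fun s => g s * (-(2 * π * I * n) * eN n s) :=
    hgc.mul (continuous_const.mul (continuous_eN n))
  rw [intervalIntegral.integral_add (c1.intervalIntegrable _ _) (c2.intervalIntegrable _ _)] at h
  have e : ∫ s in (0:ℝ)..1, g s * (-(2 * π * I * n) * eN n s)
      = -(2 * π * I * n) * Cf g n := by
    rw [Cf, ← intervalIntegral.integral_const_mul]
    congr 1
    funext s
    ring
  rw [e] at h
  simp only [Cf]
  simp only [Cf] at h
  linear_combination h

lemma norm_Cf_le {g : ℝ → ℂ} {M : ℝ} (hM : ∀ s, ‖g s‖ ≤ M) (n : ℤ) : ‖Cf g n‖ ≤ M := by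
  have h := intervalIntegral.norm_integral_le_of_norm_le_const (a := 0) (b := 1)
    (f := fun s => g s * eN n s) (C := M) (fun s _ => by
      rw [norm_mul, norm_eN, mul_one]
      exact hM s)
  simpa [Cf] using h

/-- Pointwise inversion for a continuous periodic function with summable coefficients. -/
lemma hasSum_Cf {g : ℝ → ℂ} (hc : Continuous g) (hp : ∀ s, g (s + 1) = g s)
    (hs : Summable (Cf g)) (s : ℝ) :
    HasSum (fun n : ℤ => Cf g n * cexp (2 * π * I * n * s)) (g s) := by
  have : Fact ((0:ℝ) < 1) := ⟨one_pos⟩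
  have hper : Function.Periodic g 1 := hp
  let f : C(AddCircle (1:ℝ), ℂ) :=
    ⟨hper.lift, continuous_coinduced_dom.mpr hc⟩
  have hcoef : ∀ n, fourierCoeff f n = Cf g n := by
    intro n
    rw [fourierCoeff_eq_intervalIntegral _ _ 0]
    simp only [zero_add, one_div, inv_one, one_smul, Cf]
    congr 1
    funext x
    rw [fourier_coe_apply]
    have : f (x : AddCircle (1:ℝ)) = g x := rfl
    rw [this, smul_eq_mul, mul_comm]
    congr 2
    push_cast
    ring
  have hs' : Summable (fourierCoeff f) := by
    have : fourierCoeff f = Cf g := funext hcoef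
    rwa [this]
  have h := has_pointwise_sum_fourier_series_of_summable hs' (s : AddCircle (1:ℝ))
  have e : (fun i => fourierCoeff f i • fourier i (s : AddCircle (1:ℝ)))
      = fun n : ℤ => Cf g n * cexp (2 * π * I * n * s) := by
    funext n
    rw [hcoef, fourier_coe_apply, smul_eq_mul]
    simp
  rw [e] at h
  exact h

/-- Summability of `1 / (1 + n²)` over the integers. -/
lemma summable_inv_one_add_sq : Summable fun n : ℤ => 1 / (1 + (n : ℝ) ^ 2) := by
  have h1 : Summable fun n : ℤ => 1 / (n : ℝ) ^ 2 :=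
    Real.summable_one_div_int_pow.mpr one_lt_two
  have h2 : Summable fun n : ℤ => if n = 0 then (1:ℝ) else 0 :=
    summable_of_ne_finset_zero (s := {0}) fun n hn => by
      have : n ≠ 0 := by simpa using hn
      simp [this]
  refine Summable.of_nonneg_of_le (fun n => by positivity) (fun n => ?_) (h1.add h2)
  by_cases h : n = 0
  · simp [h]
  · have hn : (0:ℝ) < (n:ℝ) ^ 2 := by
      have : (n : ℝ) ≠ 0 := by exact_mod_cast h
      positivity
    simp only [h, if_false, add_zero]
    exact one_div_le_one_div_of_le hn (by linarith)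

end

end Vale.Agent.Lib.P205.T2
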