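import Vale.Agent.Lib.P205.T2.Fourier1
import Vale.Agent.Lib.P205.T2.Per

/-!
Fourier series of smooth doubly periodic functions on the plane.
-/

namespace Vale.Agent.Lib.P205.T2

open Complex MeasureTheory intervalIntegral
open scoped Real ComplexConjugate ContDiff

noncomputable section

/-- Smooth functions with periods `(1, 0)` and `(0, 1)`. -/
structure DP (f : ℝ × ℝ → ℂ) : Prop where
  smooth : ContDiff ℝ ∞ f
  per1 : ∀ p, f (p + (1, 0)) = f p
  per2 : ∀ p, f (p + (0, 1)) = f p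

/-- The first partial derivative. -/
def d1 (f : ℝ × ℝ → ℂ) (p : ℝ × ℝ) : ℂ := fderiv ℝ f p (1, 0)

/-- The second partial derivative. -/
def d2 (f : ℝ × ℝ → ℂ) (p : ℝ × ℝ) : ℂ := fderiv ℝ f p (0, 1)

variable {f g : ℝ × ℝ → ℂ}

lemma contDiff_fderiv_apply (hf : ContDiff ℝ ∞ f) (v : ℝ × ℝ) :
    ContDiff ℝ ∞ (fun p => fderiv ℝ f p v) := by
  have h : ContDiff ℝ ∞ (fderiv ℝ f) := (contDiff_infty_iff_fderiv.mp hf).2
  exact h.clm_apply contDiff_const

lemma fderiv_per {a : ℝ × ℝ} (h : ∀ p, f (p + a) = f p) (p : ℝ × ℝ) :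
    fderiv ℝ f (p + a) = fderiv ℝ f p := by
  have e := fderiv_comp_add_right (𝕜 := ℝ) (f := f) (x := p) a
  have e2 : (fun x => f (x + a)) = f := funext h
  rw [e2] at e
  exact e.symm

lemma DP.d1 (hf : DP f) : DP (d1 f) where
  smooth := contDiff_fderiv_apply hf.smooth _
  per1 p := by simp only [T2.d1, fderiv_per hf.per1]
  per2 p := by simp only [T2.d1, fderiv_per hf.per2]

lemma DP.d2 (hf : DP f) : DP (d2 f) where
  smooth := contDiff_fderiv_apply hf.smooth _
  per1 p := by simp only [T2.d2, fderiv_per hf.per1]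
  per2 p := by simp only [T2.d2, fderiv_per hf.per2]

lemma DP.sub_smul (hf : DP f) (hg : DP g) (c : ℂ) : DP (fun p => f p - c * g p) where
  smooth := hf.smooth.sub (contDiff_const.mul hg.smooth)
  per1 p := by simp only [hf.per1, hg.per1]
  per2 p := by simp only [hf.per2, hg.per2]

lemma DP.continuous (hf : DP f) : Continuous f := hf.smooth.continuous

lemma DP.bounded (hf : DP f) : ∃ M : ℝ, ∀ p, ‖f p‖ ≤ M := by
  have hd : det2 ((1:ℝ), (0:ℝ)) ((0:ℝ), (1:ℝ)) ≠ 0 := by simp [det2]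
  obtain ⟨w, hw⟩ := exists_max_of_periodic (f := fun p => ‖f p‖) hf.continuous.norm
    (l := (1, 0)) (m := (0, 1)) (fun z => by simp only [hf.per1]) (fun z => by simp only [hf.per2])
    hd
  exact ⟨‖f w‖, hw⟩

lemma hasDerivAt_slice1 (hf : DP f) (s t : ℝ) :
    HasDerivAt (fun s => f (s, t)) (T2.d1 f (s, t)) s := by
  have h1 : HasFDerivAt f (fderiv ℝ f (s, t)) (s, t) :=
    (hf.smooth.differentiable (by simp) (s, t)).hasFDerivAt
  have h2 : HasDerivAt (fun s : ℝ => (s, t)) ((1:ℝ), (0:ℝ)) s :=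
    (hasDerivAt_id s).prodMk (hasDerivAt_const s t)
  exact h1.comp_hasDerivAt s h2

lemma hasDerivAt_slice2 (hf : DP f) (s t : ℝ) :
    HasDerivAt (fun t => f (s, t)) (T2.d2 f (s, t)) t := by
  have h1 : HasFDerivAt f (fderiv ℝ f (s, t)) (s, t) :=
    (hf.smooth.differentiable (by simp) (s, t)).hasFDerivAt
  have h2 : HasDerivAt (fun t : ℝ => (s, t)) ((0:ℝ), (1:ℝ)) t :=
    (hasDerivAt_const t s).prodMk (hasDerivAt_id t)
  exact h1.comp_hasDerivAt t h2

lemma DP.slice1_per (hf : DP f) (s t : ℝ) : f (s + 1, t) = f (s, t) := by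
  have := hf.per1 (s, t)
  simpa using this

lemma DP.slice2_per (hf : DP f) (s t : ℝ) : f (s, t + 1) = f (s, t) := by
  have := hf.per2 (s, t)
  simpa using this

/-- The double coefficients. -/
def cc (f : ℝ × ℝ → ℂ) (n m : ℤ) : ℂ := Cf (fun t => Cf (fun s => f (s, t)) n) m

lemma Cf_const_mul (c : ℂ) (g : ℝ → ℂ) (n : ℤ) : Cf (fun s => c * g s) n = c * Cf g n := by
  simp only [Cf]
  rw [← intervalIntegral.integral_const_mul]
  congr 1
  funext s
  ring

lemma Cf_sub {g h : ℝ → ℂ} (hg : Continuous g) (hh : Continuous h) (n : ℤ) :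
    Cf (fun s => g s - h s) n = Cf g n - Cf h n := by
  simp only [Cf]
  have c1 : Continuous fun s => g s * eN n s := hg.mul (continuous_eN n)
  have c2 : Continuous fun s => h s * eN n s := hh.mul (continuous_eN n)
  rw [← intervalIntegral.integral_sub (c1.intervalIntegrable _ _) (c2.intervalIntegrable _ _)]
  congr 1
  funext s
  ring

/-- The inner coefficients are continuous. -/
lemma continuous_inner (hf : Continuous f) (n : ℤ) :
    Continuous fun t => Cf (fun s => f (s, t)) n := by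
  simp only [Cf]
  refine continuous_parametric_intervalIntegral_of_continuous' ?_ 0 1
  have := continuous_eN n
  simp only [Function.uncurry_def]
  fun_prop

lemma continuous_inner' (hf : Continuous f) (n : ℤ) :
    Continuous fun s => Cf (fun t => f (s, t)) n := by
  simp only [Cf]
  refine continuous_parametric_intervalIntegral_of_continuous' ?_ 0 1
  have := continuous_eN n
  simp only [Function.uncurry_def]
  fun_prop

/-- Fubini for the double coefficients. -/
lemma cc_swap (hf : Continuous f) (n m : ℤ) :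
    cc f n m = Cf (fun s => Cf (fun t => f (s, t)) m) n := by
  simp only [cc, Cf]
  have e1 : ∀ t, (∫ s in (0:ℝ)..1, f (s, t) * eN n s) * eN m t
      = ∫ s in (0:ℝ)..1, f (s, t) * eN n s * eN m t := fun t =>
    (intervalIntegral.integral_mul_const _ _).symm
  have e2 : ∀ s, (∫ t in (0:ℝ)..1, f (s, t) * eN m t) * eN n s
      = ∫ t in (0:ℝ)..1, f (s, t) * eN m t * eN n s := fun s =>
    (intervalIntegral.integral_mul_const _ _).symm
  simp only [e1, e2]
  have c1 := continuous_eN n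
  have c2 := continuous_eN m
  have hcont : Continuous (Function.uncurry fun t s => f (s, t) * eN n s * eN m t) := by
    simp only [Function.uncurry_def]
    fun_prop
  have h2 := hcont.continuousOn.integrableOn_compact
    (K := Set.Icc (0:ℝ) 1 ×ˢ Set.Icc (0:ℝ) 1) (μ := volume) (isCompact_Icc.prod isCompact_Icc)
  have hsw := intervalIntegral_intervalIntegral_swap
    (F := fun t s => f (s, t) * eN n s * eN m t) (a := 0) (b := 1) (c := 0) (d := 1) (by
      refine h2.mono_set ?_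
      simp only [Set.uIoc_of_le (zero_le_one' ℝ)]
      exact Set.prod_mono Set.Ioc_subset_Icc_self Set.Ioc_subset_Icc_self)
  rw [hsw]
  congr 1
  funext s
  congr 1
  funext t
  ring

lemma Cf_d1 (hf : DP f) (t : ℝ) (n : ℤ) :
    Cf (fun s => T2.d1 f (s, t)) n = 2 * π * I * n * Cf (fun s => f (s, t)) n :=
  Cf_deriv (fun s => hasDerivAt_slice1 hf s t)
    (hf.d1.continuous.comp (by fun_prop)) (by
      have := hf.slice1_per 0 t
      simpa using this) n

lemma Cf_d2 (hf : DP f) (s : ℝ) (n : ℤ) :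
    Cf (fun t => T2.d2 f (s, t)) n = 2 * π * I * n * Cf (fun t => f (s, t)) n :=
  Cf_deriv (fun t => hasDerivAt_slice2 hf s t)
    (hf.d2.continuous.comp (by fun_prop)) (by
      have := hf.slice2_per s 0
      simpa using this) n

lemma cc_d1 (hf : DP f) (n m : ℤ) : cc (T2.d1 f) n m = 2 * π * I * n * cc f n m := by
  simp only [cc, Cf_d1 hf]
  exact Cf_const_mul _ _ _

lemma cc_d2 (hf : DP f) (n m : ℤ) : cc (T2.d2 f) n m = 2 * π * I * m * cc f n m := by
  rw [cc_swap hf.d2.continuous, cc_swap hf.continuous]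
  simp only [Cf_d2 hf]
  exact Cf_const_mul _ _ _

lemma cc_sub (hf : Continuous f) (hg : Continuous g) (c : ℂ) (n m : ℤ) :
    cc (fun p => f p - c * g p) n m = cc f n m - c * cc g n m := by
  simp only [cc]
  have e : ∀ t, Cf (fun s => f (s, t) - c * g (s, t)) n
      = Cf (fun s => f (s, t)) n - c * Cf (fun s => g (s, t)) n := by
    intro t
    rw [Cf_sub (g := fun s => f (s, t)) (h := fun s => c * g (s, t))
      (hf.comp (by fun_prop)) (continuous_const.mul (hg.comp (by fun_prop))), Cf_const_mul]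
  simp only [e]
  rw [Cf_sub (g := fun t => Cf (fun s => f (s, t)) n) (h := fun t => c * Cf (fun s => g (s, t)) n)
    (continuous_inner hf n) (continuous_const.mul (continuous_inner hg n)), Cf_const_mul]

lemma norm_cc_le {M : ℝ} (hM : ∀ p, ‖f p‖ ≤ M) (n m : ℤ) : ‖cc f n m‖ ≤ M :=
  norm_Cf_le (fun _ => norm_Cf_le (fun _ => hM _) _) _

/-- The operator `1 - ∂₁² / 4π²`. -/
def Lo1 (f : ℝ × ℝ → ℂ) (p : ℝ × ℝ) : ℂ := f p - (1 / (4 * π ^ 2) : ℂ) * T2.d1 (T2.d1 f) p

/-- The operator `1 - ∂₂² / 4π²`. -/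
def Lo2 (f : ℝ × ℝ → ℂ) (p : ℝ × ℝ) : ℂ := f p - (1 / (4 * π ^ 2) : ℂ) * T2.d2 (T2.d2 f) p

lemma DP.Lo1 (hf : DP f) : DP (Lo1 f) := hf.sub_smul hf.d1.d1 _

lemma DP.Lo2 (hf : DP f) : DP (Lo2 f) := hf.sub_smul hf.d2.d2 _

lemma pi_ne : (π : ℂ) ≠ 0 := by exact_mod_cast Real.pi_ne_zero

lemma cc_Lo1 (hf : DP f) (n m : ℤ) : cc (Lo1 f) n m = (1 + (n : ℂ) ^ 2) * cc f n m := by
  have := pi_ne
  have e : Lo1 f = fun p => f p - (1 / (4 * π ^ 2) : ℂ) * T2.d1 (T2.d1 f) p := rfl
  rw [e, cc_sub hf.continuous hf.d1.d1.continuous, cc_d1 hf.d1, cc_d1 hf]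
  field_simp
  rw [Complex.I_sq]
  ring

lemma cc_Lo2 (hf : DP f) (n m : ℤ) : cc (Lo2 f) n m = (1 + (m : ℂ) ^ 2) * cc f n m := by
  have := pi_ne
  have e : Lo2 f = fun p => f p - (1 / (4 * π ^ 2) : ℂ) * T2.d2 (T2.d2 f) p := rfl
  rw [e, cc_sub hf.continuous hf.d2.d2.continuous, cc_d2 hf.d2, cc_d2 hf]
  field_simp
  rw [Complex.I_sq]
  ring

/-- Decay of the double coefficients. -/
lemma decay (A : ℕ) : ∀ {f : ℝ × ℝ → ℂ}, DP f →
    ∃ M : ℝ, ∀ n m : ℤ, ((1 + (n : ℝ) ^ 2) * (1 + (m : ℝ) ^ 2)) ^ A * ‖cc f n m‖ ≤ M := by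
  induction A with
  | zero =>
    intro f hf
    obtain ⟨M, hM⟩ := hf.bounded
    exact ⟨M, fun n m => by simpa using norm_cc_le hM n m⟩
  | succ A ih =>
    intro f hf
    obtain ⟨M, hM⟩ := ih hf.Lo1.Lo2
    refine ⟨M, fun n m => ?_⟩
    have h := hM n m
    rw [cc_Lo2 hf.Lo1, cc_Lo1 hf, norm_mul, norm_mul] at h
    have e1 : ‖(1 + (n : ℂ) ^ 2)‖ = 1 + (n : ℝ) ^ 2 := by
      have : (1 + (n : ℂ) ^ 2) = ((1 + (n : ℝ) ^ 2 : ℝ) : ℂ) := by push_cast; ring
      rw [this, Complex.norm_real, Real.norm_of_nonneg (by positivity)]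
    have e2 : ‖(1 + (m : ℂ) ^ 2)‖ = 1 + (m : ℝ) ^ 2 := by
      have : (1 + (m : ℂ) ^ 2) = ((1 + (m : ℝ) ^ 2 : ℝ) : ℂ) := by push_cast; ring
      rw [this, Complex.norm_real, Real.norm_of_nonneg (by positivity)]
    rw [e1, e2] at h
    calc _ = ((1 + (n : ℝ) ^ 2) * (1 + (m : ℝ) ^ 2)) ^ A
          * ((1 + (m : ℝ) ^ 2) * ((1 + (n : ℝ) ^ 2) * ‖cc f n m‖)) := by ring
      _ ≤ M := h

/-- Decay of the coefficients of a slice. -/
lemma decay_slice (hf : DP f) : ∃ M : ℝ, ∀ (t : ℝ) (n : ℤ),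
    ‖Cf (fun s => f (s, t)) n‖ ≤ M * (1 / (1 + (n : ℝ) ^ 2)) := by
  obtain ⟨M, hM⟩ := hf.Lo1.bounded
  refine ⟨M, fun t n => ?_⟩
  have hpi := pi_ne
  have e : Cf (fun s => Lo1 f (s, t)) n = (1 + (n : ℂ) ^ 2) * Cf (fun s => f (s, t)) n := by
    have e0 : (fun s => Lo1 f (s, t))
        = fun s => f (s, t) - (1 / (4 * π ^ 2) : ℂ) * T2.d1 (T2.d1 f) (s, t) := rfl
    rw [e0, Cf_sub (g := fun s => f (s, t))
      (h := fun s => (1 / (4 * π ^ 2) : ℂ) * T2.d1 (T2.d1 f) (s, t))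
      (hf.continuous.comp (by fun_prop))
      (continuous_const.mul (hf.d1.d1.continuous.comp (by fun_prop))), Cf_const_mul,
      Cf_d1 hf.d1, Cf_d1 hf]
    field_simp
    rw [Complex.I_sq]
    ring
  have h := norm_Cf_le (g := fun s => Lo1 f (s, t)) (fun s => hM (s, t)) n
  rw [e, norm_mul] at h
  have e1 : ‖(1 + (n : ℂ) ^ 2)‖ = 1 + (n : ℝ) ^ 2 := by
    have : (1 + (n : ℂ) ^ 2) = ((1 + (n : ℝ) ^ 2 : ℝ) : ℂ) := by push_cast; ring
    rw [this, Complex.norm_real, Real.norm_of_nonneg (by positivity)]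
  rw [e1] at h
  have hp : (0:ℝ) < 1 + (n : ℝ) ^ 2 := by positivity
  rw [mul_one_div, le_div_iff₀ hp]
  linarith

lemma summable_product : Summable fun n : ℤ × ℤ =>
    (1 / (1 + (n.1 : ℝ) ^ 2)) * (1 / (1 + (n.2 : ℝ) ^ 2)) :=
  summable_inv_one_add_sq.mul_of_nonneg summable_inv_one_add_sq
    (fun _ => by positivity) (fun _ => by positivity)

/-- **Fourier series on the torus.** -/
theorem hasSum_cc (hf : DP f) (s t : ℝ) :
    HasSum (fun n : ℤ × ℤ => cc f n.1 n.2
      * (cexp (2 * π * I * n.1 * s) * cexp (2 * π * I * n.2 * t))) (f (s, t)) := by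
  obtain ⟨M, hM⟩ := decay 1 hf
  have hnorm1 : ∀ (z : ℝ), ∀ n : ℤ, ‖cexp (2 * π * I * n * z)‖ = 1 := by
    intro z n
    have : 2 * π * I * n * z = ((2 * π * n * z : ℝ) : ℂ) * I := by
      push_cast
      ring
    rw [this, Complex.norm_exp_ofReal_mul_I]
  have hbd : ∀ n : ℤ × ℤ, ‖cc f n.1 n.2‖
      ≤ M * ((1 / (1 + (n.1 : ℝ) ^ 2)) * (1 / (1 + (n.2 : ℝ) ^ 2))) := by
    intro n
    have h := hM n.1 n.2
    rw [pow_one] at h
    have hp : (0:ℝ) < (1 + (n.1 : ℝ) ^ 2) * (1 + (n.2 : ℝ) ^ 2) := by positivity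
    have e : M * ((1 / (1 + (n.1 : ℝ) ^ 2)) * (1 / (1 + (n.2 : ℝ) ^ 2)))
        = M / ((1 + (n.1 : ℝ) ^ 2) * (1 + (n.2 : ℝ) ^ 2)) := by
      field_simp
    rw [e, le_div_iff₀ hp]
    linarith
  have hsum : Summable fun n : ℤ × ℤ => cc f n.1 n.2
      * (cexp (2 * π * I * n.1 * s) * cexp (2 * π * I * n.2 * t)) := by
    refine Summable.of_norm_bounded (summable_product.mul_left M) fun n => ?_
    rw [norm_mul, norm_mul, hnorm1, hnorm1, one_mul, mul_one]
    exact hbd n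
  -- the value of the sum
  suffices h : ∑' n : ℤ × ℤ, cc f n.1 n.2
      * (cexp (2 * π * I * n.1 * s) * cexp (2 * π * I * n.2 * t)) = f (s, t) by
    rw [← h]
    exact hsum.hasSum
  rw [hsum.tsum_prod]
  -- the inner sums
  have hinner : ∀ n : ℤ, ∑' m : ℤ, cc f n m * (cexp (2 * π * I * n * s) * cexp (2 * π * I * m * t))
      = Cf (fun s => f (s, t)) n * cexp (2 * π * I * n * s) := by
    intro n
    have hper : ∀ t, Cf (fun s => f (s, t + 1)) n = Cf (fun s => f (s, t)) n := by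
      intro t
      simp only [hf.slice2_per]
    have hsm : Summable (Cf (fun t => Cf (fun s => f (s, t)) n)) := by
      refine Summable.of_norm_bounded
        ((summable_inv_one_add_sq.mul_left M)) fun m => ?_
      have h := hM n m
      rw [pow_one] at h
      have h1 : (1:ℝ) ≤ 1 + (n : ℝ) ^ 2 := by nlinarith [sq_nonneg (n : ℝ)]
      have hp : (0:ℝ) < 1 + (m : ℝ) ^ 2 := by positivity
      have hn0 := norm_nonneg (cc f n m)
      rw [mul_one_div, le_div_iff₀ hp]
      have e : cc f n m = Cf (fun t => Cf (fun s => f (s, t)) n) m := rfl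
      rw [← e]
      nlinarith [mul_le_mul_of_nonneg_right h1 (mul_nonneg hp.le hn0)]
    have h := hasSum_Cf (continuous_inner hf.continuous n) hper hsm t
    have h2 := (h.mul_right (cexp (2 * π * I * n * s))).tsum_eq
    rw [← h2]
    congr 1
    funext m
    simp only [cc]
    ring
  simp only [hinner]
  obtain ⟨M', hM'⟩ := decay_slice hf
  have hsm : Summable (Cf (fun s => f (s, t))) :=
    Summable.of_norm_bounded (summable_inv_one_add_sq.mul_left M') (fun n => hM' t n)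
  have h := hasSum_Cf (g := fun s => f (s, t)) (hf.continuous.comp (by fun_prop))
    (fun s => hf.slice1_per s t) hsm s
  exact h.tsum_eq

/-- Reality of the coefficients. -/
lemma cc_conj (hr : ∀ p, conj (f p) = f p) (n m : ℤ) :
    cc f (-n) (-m) = conj (cc f n m) := by
  have hN : ∀ (n : ℤ) (s : ℝ), conj (eN n s) = eN (-n) s := by
    intro n s
    simp only [eN]
    rw [← Complex.exp_conj]
    congr 1
    simp only [map_neg, map_mul, Complex.conj_ofReal, Complex.conj_I, map_intCast, map_ofNat]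
    push_cast
    ring
  have hCf : ∀ (g : ℝ → ℂ) (n : ℤ), conj (Cf g n) = Cf (fun s => conj (g s)) (-n) := by
    intro g n
    simp only [Cf]
    rw [← intervalIntegral_conj]
    congr 1
    funext s
    rw [map_mul, hN]
  simp only [cc]
  rw [hCf]
  congr 1
  funext t
  rw [hCf]
  simp only [hr]

end

end Vale.Agent.Lib.P205.T2
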