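import Vale.Agent.Lib.P205.T2.Pot

/-!
The flat coframe: structure equations and the curvature identity for the metric
`E² (dx² + dy²) - ε dv²`.
-/

namespace Vale.Agent.Lib.P205.T2

open scoped ContDiff

noncomputable section

lemma struct1 (E δ ε p₁ p₂ s₁₁ s₁₂ s₂₂ φ₁ φ₂ r rx ry dx dy a1 a2 : ℝ) (hE : 0 < E) (hδ0 : 0 < δ)
    (hδ : δ ^ 2 = E ^ 2 - ε * (p₁ ^ 2 + p₂ ^ 2)) (hr : r = E + δ)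
    (hdx : dx = (E ^ 2 * φ₁ - ε * (p₁ * s₁₁ + p₂ * s₁₂)) / δ)
    (hdy : dy = (E ^ 2 * φ₂ - ε * (p₁ * s₁₂ + p₂ * s₂₂)) / δ)
    (hrx : rx = E * φ₁ + dx) (hry : ry = E * φ₂ + dy)
    (ha1 : a1 = - (E / δ * φ₂) + ε / (r * δ) * (p₁ * s₁₂ - p₂ * s₁₁))
    (ha2 : a2 = E / δ * φ₁ + ε / (r * δ) * (p₁ * s₂₂ - p₂ * s₁₂)) :
    - (ε * (s₁₁ * p₂ + p₁ * s₁₂) / r - ε * (p₁ * p₂) * rx / r ^ 2) - ry / 2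
      + (ε * (p₁ * s₁₂ - p₂ * s₂₂) / r - ε * (p₁ ^ 2 - p₂ ^ 2) * ry / (2 * r ^ 2))
      = a1 * (r / 2 + ε * (p₁ ^ 2 - p₂ ^ 2) / (2 * r)) + a2 * (ε * (p₁ * p₂) / r) := by
  have hr0 : 0 < r := by rw [hr]; positivity
  subst hr
  subst hrx hry hdx hdy ha1 ha2
  field_simp
  linear_combination (- ε * p₂ * (s₁₁ + s₂₂)) * hδ

lemma struct2 (E δ ε p₁ p₂ s₁₁ s₁₂ s₂₂ φ₁ φ₂ r rx ry dx dy a1 a2 : ℝ) (hE : 0 < E) (hδ0 : 0 < δ)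
    (hδ : δ ^ 2 = E ^ 2 - ε * (p₁ ^ 2 + p₂ ^ 2)) (hr : r = E + δ)
    (hdx : dx = (E ^ 2 * φ₁ - ε * (p₁ * s₁₁ + p₂ * s₁₂)) / δ)
    (hdy : dy = (E ^ 2 * φ₂ - ε * (p₁ * s₁₂ + p₂ * s₂₂)) / δ)
    (hrx : rx = E * φ₁ + dx) (hry : ry = E * φ₂ + dy)
    (ha1 : a1 = - (E / δ * φ₂) + ε / (r * δ) * (p₁ * s₁₂ - p₂ * s₁₁))
    (ha2 : a2 = E / δ * φ₁ + ε / (r * δ) * (p₁ * s₂₂ - p₂ * s₁₂)) :
    rx / 2 + (ε * (p₁ * s₁₁ - p₂ * s₁₂) / r - ε * (p₁ ^ 2 - p₂ ^ 2) * rx / (2 * r ^ 2))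
      + (ε * (s₁₂ * p₂ + p₁ * s₂₂) / r - ε * (p₁ * p₂) * ry / r ^ 2)
      = a1 * (ε * (p₁ * p₂) / r) + a2 * (r / 2 - ε * (p₁ ^ 2 - p₂ ^ 2) / (2 * r)) := by
  have hr0 : 0 < r := by rw [hr]; positivity
  subst hr
  subst hrx hry hdx hdy ha1 ha2
  field_simp
  linear_combination (ε * p₁ * (s₁₁ + s₂₂)) * hδ

lemma curl_id (E δ ε p₁ p₂ s₁₁ s₁₂ s₂₂ φ₁ φ₂ φ₁₁ φ₂₂ r rx ry dx dy Edx Edy Xix Xiy C : ℝ)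
    (hE : 0 < E) (hδ0 : 0 < δ)
    (hδ : δ ^ 2 = E ^ 2 - ε * (p₁ ^ 2 + p₂ ^ 2)) (hr : r = E + δ)
    (hdx : dx = (E ^ 2 * φ₁ - ε * (p₁ * s₁₁ + p₂ * s₁₂)) / δ)
    (hdy : dy = (E ^ 2 * φ₂ - ε * (p₁ * s₁₂ + p₂ * s₂₂)) / δ)
    (hrx : rx = E * φ₁ + dx) (hry : ry = E * φ₂ + dy)
    (hEdx : Edx = (E * φ₁ * δ - E * dx) / δ ^ 2)
    (hEdy : Edy = (E * φ₂ * δ - E * dy) / δ ^ 2)
    (hXix : Xix = - (ε * (rx * δ + r * dx)) / (r * δ) ^ 2)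
    (hXiy : Xiy = - (ε * (ry * δ + r * dy)) / (r * δ) ^ 2)
    (hC : C = (s₁₁ - φ₁ * p₁ + φ₂ * p₂) * (s₂₂ + φ₁ * p₁ - φ₂ * p₂)
      - (s₁₂ - φ₁ * p₂ - φ₂ * p₁) ^ 2) :
    (Edx * φ₁ + E / δ * φ₁₁ + (Xix * (p₁ * s₂₂ - p₂ * s₁₂)))
      - (- (Edy * φ₂ + E / δ * φ₂₂) + Xiy * (p₁ * s₁₂ - p₂ * s₁₁))
      + ε / (r * δ) * (2 * s₁₁ * s₂₂ - 2 * s₁₂ ^ 2)
      = E / δ ^ 3 * ((φ₁₁ + φ₂₂) * δ ^ 2 + ε * C) := by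
  have hr0 : 0 < r := by rw [hr]; positivity
  subst hr
  subst hrx hry hdx hdy hEdx hEdy hXix hXiy hC
  field_simp
  linear_combination (E * δ ^ 2 * φ₁ ^ 2 + E * δ ^ 2 * φ₂ ^ 2 + E * ε * s₁₁ * s₂₂ - E * ε * s₁₂ ^ 2
    + 2 * E ^ 2 * δ * φ₁ ^ 2 + 2 * E ^ 2 * δ * φ₂ ^ 2 + E ^ 3 * φ₁ ^ 2 + E ^ 3 * φ₂ ^ 2
    + 2 * δ * ε * s₁₁ * s₂₂ - 2 * δ * ε * s₁₂ ^ 2) * hδ

lemma sq_ids (E δ ε p₁ p₂ r : ℝ) (hE : 0 < E) (hδ0 : 0 < δ)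
    (hδ : δ ^ 2 = E ^ 2 - ε * (p₁ ^ 2 + p₂ ^ 2)) (hr : r = E + δ) :
    (r / 2 - ε * (p₁ ^ 2 - p₂ ^ 2) / (2 * r)) ^ 2 + (ε * (p₁ * p₂) / r) ^ 2 = E ^ 2 - ε * p₁ ^ 2 ∧
    (r / 2 - ε * (p₁ ^ 2 - p₂ ^ 2) / (2 * r)) * (ε * (p₁ * p₂) / r)
      + (ε * (p₁ * p₂) / r) * (r / 2 + ε * (p₁ ^ 2 - p₂ ^ 2) / (2 * r)) = ε * (p₁ * p₂) ∧
    (ε * (p₁ * p₂) / r) ^ 2 + (r / 2 + ε * (p₁ ^ 2 - p₂ ^ 2) / (2 * r)) ^ 2 = E ^ 2 - ε * p₂ ^ 2 ∧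
    (r / 2 - ε * (p₁ ^ 2 - p₂ ^ 2) / (2 * r)) * (r / 2 + ε * (p₁ ^ 2 - p₂ ^ 2) / (2 * r))
      - (ε * (p₁ * p₂) / r) ^ 2 = E * δ := by
  have hr0 : 0 < r := by rw [hr]; positivity
  subst hr
  refine ⟨?_, ?_, ?_, ?_⟩
  · field_simp
    linear_combination (4 * E * δ + 3 * E ^ 2 + δ ^ 2 + ε * p₁ ^ 2 + ε * p₂ ^ 2) * hδ
  · field_simp
    ring
  · field_simp
    linear_combination (4 * E * δ + 3 * E ^ 2 + δ ^ 2 + ε * p₁ ^ 2 + ε * p₂ ^ 2) * hδ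
  · field_simp
    linear_combination (- E ^ 2 + δ ^ 2 - ε * p₁ ^ 2 - ε * p₂ ^ 2) * hδ

/-- The input data of the construction: the functions `E`, `∇ log E` and their derivatives, and the
first, second and third derivatives of the function `v`. -/
structure Geo where
  ε : ℝ
  (E φ₁ φ₂ φ₁₁ φ₁₂ φ₂₂ p₁ p₂ s₁₁ s₁₂ s₂₂ t₁ t₂ t₃ t₄ : ℝ × ℝ → ℝ)
  JE : Jt E (fun z => E z * φ₁ z) (fun z => E z * φ₂ z)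
  Jφ₁ : Jt φ₁ φ₁₁ φ₁₂
  Jφ₂ : Jt φ₂ φ₁₂ φ₂₂
  Jp₁ : Jt p₁ s₁₁ s₁₂
  Jp₂ : Jt p₂ s₁₂ s₂₂
  Js₁₁ : Jt s₁₁ t₁ t₂
  Js₁₂ : Jt s₁₂ t₂ t₃
  Js₂₂ : Jt s₂₂ t₃ t₄
  Epos : ∀ z, 0 < E z
  radpos : ∀ z, 0 < E z ^ 2 - ε * (p₁ z ^ 2 + p₂ z ^ 2)

namespace Geo

variable (G : Geo)

/-- The square root `δ`. -/
def δ (z : ℝ × ℝ) : ℝ := √(G.E z ^ 2 - G.ε * (G.p₁ z ^ 2 + G.p₂ z ^ 2))

lemma δ_pos (z : ℝ × ℝ) : 0 < G.δ z := Real.sqrt_pos.mpr (G.radpos z)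

lemma δ_sq (z : ℝ × ℝ) : G.δ z ^ 2 = G.E z ^ 2 - G.ε * (G.p₁ z ^ 2 + G.p₂ z ^ 2) :=
  Real.sq_sqrt (G.radpos z).le

/-- First partial derivative of `δ`. -/
def dx (z : ℝ × ℝ) : ℝ :=
  (G.E z ^ 2 * G.φ₁ z - G.ε * (G.p₁ z * G.s₁₁ z + G.p₂ z * G.s₁₂ z)) / G.δ z

/-- Second partial derivative of `δ`. -/
def dy (z : ℝ × ℝ) : ℝ :=
  (G.E z ^ 2 * G.φ₂ z - G.ε * (G.p₁ z * G.s₁₂ z + G.p₂ z * G.s₂₂ z)) / G.δ z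

lemma Jδ : Jt G.δ G.dx G.dy := by
  have hrad : Jt (fun z => G.E z * G.E z - G.ε * (G.p₁ z * G.p₁ z + G.p₂ z * G.p₂ z)) _ _ :=
    (G.JE.mul G.JE).sub (((G.Jp₁.mul G.Jp₁).add (G.Jp₂.mul G.Jp₂)).const_mul G.ε)
  have hne : ∀ z, G.E z * G.E z - G.ε * (G.p₁ z * G.p₁ z + G.p₂ z * G.p₂ z) ≠ 0 := by
    intro z
    have := G.radpos z
    nlinarith
  have h := hrad.sqrt hne
  have e : ∀ z, √(G.E z * G.E z - G.ε * (G.p₁ z * G.p₁ z + G.p₂ z * G.p₂ z)) = G.δ z := by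
    intro z
    simp only [δ]
    congr 1
    ring
  refine (h.congr ?_ ?_).congr_fun e
  · intro z
    rw [e z]
    have := G.δ_pos z
    simp only [dx]
    field_simp
    ring
  · intro z
    rw [e z]
    have := G.δ_pos z
    simp only [dy]
    field_simp
    ring

/-- The sum `E + δ`. -/
def r (z : ℝ × ℝ) : ℝ := G.E z + G.δ z

lemma r_pos (z : ℝ × ℝ) : 0 < G.r z := add_pos (G.Epos z) (G.δ_pos z)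

/-- First partial derivative of `r`. -/
def rx (z : ℝ × ℝ) : ℝ := G.E z * G.φ₁ z + G.dx z

/-- Second partial derivative of `r`. -/
def ry (z : ℝ × ℝ) : ℝ := G.E z * G.φ₂ z + G.dy z

lemma Jr : Jt G.r G.rx G.ry := G.JE.add G.Jδ

/-- Half the difference of the diagonal entries of the coframe matrix. -/
def Q (z : ℝ × ℝ) : ℝ := G.ε * (G.p₁ z ^ 2 - G.p₂ z ^ 2) / (2 * G.r z)

/-- First partial derivative of `Q`. -/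
def Qx (z : ℝ × ℝ) : ℝ :=
  G.ε * (G.p₁ z * G.s₁₁ z - G.p₂ z * G.s₁₂ z) / G.r z
    - G.ε * (G.p₁ z ^ 2 - G.p₂ z ^ 2) * G.rx z / (2 * G.r z ^ 2)

/-- Second partial derivative of `Q`. -/
def Qy (z : ℝ × ℝ) : ℝ :=
  G.ε * (G.p₁ z * G.s₁₂ z - G.p₂ z * G.s₂₂ z) / G.r z
    - G.ε * (G.p₁ z ^ 2 - G.p₂ z ^ 2) * G.ry z / (2 * G.r z ^ 2)

lemma JQ : Jt G.Q G.Qx G.Qy := by
  have h1 := ((G.Jp₁.mul G.Jp₁).sub (G.Jp₂.mul G.Jp₂)).const_mul G.ε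
  have h2 := h1.div (G.Jr.const_mul 2) (fun z => by have := G.r_pos z; positivity)
  refine (h2.congr ?_ ?_).congr_fun ?_
  · intro z
    have := G.r_pos z
    simp only [Qx]
    field_simp
    ring
  · intro z
    have := G.r_pos z
    simp only [Qy]
    field_simp
    ring
  · intro z
    simp only [Q]
    ring

/-- Minus the off-diagonal entry of the coframe matrix. -/
def q (z : ℝ × ℝ) : ℝ := G.ε * (G.p₁ z * G.p₂ z) / G.r z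

/-- First partial derivative of `q`. -/
def qx (z : ℝ × ℝ) : ℝ :=
  G.ε * (G.s₁₁ z * G.p₂ z + G.p₁ z * G.s₁₂ z) / G.r z
    - G.ε * (G.p₁ z * G.p₂ z) * G.rx z / G.r z ^ 2

/-- Second partial derivative of `q`. -/
def qy (z : ℝ × ℝ) : ℝ :=
  G.ε * (G.s₁₂ z * G.p₂ z + G.p₁ z * G.s₂₂ z) / G.r z
    - G.ε * (G.p₁ z * G.p₂ z) * G.ry z / G.r z ^ 2

lemma Jq : Jt G.q G.qx G.qy := by
  have h1 := (G.Jp₁.mul G.Jp₂).const_mul G.ε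
  have h2 := h1.div G.Jr (fun z => (G.r_pos z).ne')
  refine h2.congr ?_ ?_
  · intro z
    have := G.r_pos z
    simp only [qx]
    field_simp
  · intro z
    have := G.r_pos z
    simp only [qy]
    field_simp

/-- The quotient `E / δ`. -/
def Ed (z : ℝ × ℝ) : ℝ := G.E z / G.δ z

/-- First partial derivative of `Ed`. -/
def Edx (z : ℝ × ℝ) : ℝ := (G.E z * G.φ₁ z * G.δ z - G.E z * G.dx z) / G.δ z ^ 2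

/-- Second partial derivative of `Ed`. -/
def Edy (z : ℝ × ℝ) : ℝ := (G.E z * G.φ₂ z * G.δ z - G.E z * G.dy z) / G.δ z ^ 2

lemma JEd : Jt G.Ed G.Edx G.Edy := G.JE.div G.Jδ (fun z => (G.δ_pos z).ne')

/-- The factor `ε / (r δ)`. -/
def Xi (z : ℝ × ℝ) : ℝ := G.ε / (G.r z * G.δ z)

/-- First partial derivative of `Xi`. -/
def Xix (z : ℝ × ℝ) : ℝ :=
  - (G.ε * (G.rx z * G.δ z + G.r z * G.dx z)) / (G.r z * G.δ z) ^ 2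

/-- Second partial derivative of `Xi`. -/
def Xiy (z : ℝ × ℝ) : ℝ :=
  - (G.ε * (G.ry z * G.δ z + G.r z * G.dy z)) / (G.r z * G.δ z) ^ 2

lemma JXi : Jt G.Xi G.Xix G.Xiy := by
  have h := (Jt.const G.ε).div (G.Jr.mul G.Jδ)
    (fun z => (mul_pos (G.r_pos z) (G.δ_pos z)).ne')
  refine h.congr ?_ ?_
  · intro z
    simp only [Xix]
    ring
  · intro z
    simp only [Xiy]
    ring

/-- First auxiliary combination. -/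
def w₁ (z : ℝ × ℝ) : ℝ := G.p₁ z * G.s₁₂ z - G.p₂ z * G.s₁₁ z

/-- Second auxiliary combination. -/
def w₂ (z : ℝ × ℝ) : ℝ := G.p₁ z * G.s₂₂ z - G.p₂ z * G.s₁₂ z

lemma Jw₁ : Jt G.w₁ (fun z => G.p₁ z * G.t₂ z - G.p₂ z * G.t₁ z)
    (fun z => G.s₁₂ z ^ 2 + G.p₁ z * G.t₃ z - G.s₂₂ z * G.s₁₁ z - G.p₂ z * G.t₂ z) := by
  have h := (G.Jp₁.mul G.Js₁₂).sub (G.Jp₂.mul G.Js₁₁)
  refine h.congr ?_ ?_ <;>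
  · intro z
    ring

lemma Jw₂ : Jt G.w₂ (fun z => G.s₁₁ z * G.s₂₂ z + G.p₁ z * G.t₃ z - G.s₁₂ z ^ 2 - G.p₂ z * G.t₂ z)
    (fun z => G.p₁ z * G.t₄ z - G.p₂ z * G.t₃ z) := by
  have h := (G.Jp₁.mul G.Js₂₂).sub (G.Jp₂.mul G.Js₁₂)
  refine h.congr ?_ ?_ <;>
  · intro z
    ring

/-- The first component of the connection form. -/
def a₁ (z : ℝ × ℝ) : ℝ := - (G.Ed z * G.φ₂ z) + G.Xi z * G.w₁ z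

/-- The second component of the connection form. -/
def a₂ (z : ℝ × ℝ) : ℝ := G.Ed z * G.φ₁ z + G.Xi z * G.w₂ z

/-- First partial derivative of `a₁`. -/
def a₁x (z : ℝ × ℝ) : ℝ :=
  - (G.Edx z * G.φ₂ z + G.Ed z * G.φ₁₂ z)
    + (G.Xix z * G.w₁ z + G.Xi z * (G.p₁ z * G.t₂ z - G.p₂ z * G.t₁ z))

/-- Second partial derivative of `a₁`. -/
def a₁y (z : ℝ × ℝ) : ℝ :=
  - (G.Edy z * G.φ₂ z + G.Ed z * G.φ₂₂ z)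
    + (G.Xiy z * G.w₁ z
      + G.Xi z * (G.s₁₂ z ^ 2 + G.p₁ z * G.t₃ z - G.s₂₂ z * G.s₁₁ z - G.p₂ z * G.t₂ z))

/-- First partial derivative of `a₂`. -/
def a₂x (z : ℝ × ℝ) : ℝ :=
  G.Edx z * G.φ₁ z + G.Ed z * G.φ₁₁ z
    + (G.Xix z * G.w₂ z
      + G.Xi z * (G.s₁₁ z * G.s₂₂ z + G.p₁ z * G.t₃ z - G.s₁₂ z ^ 2 - G.p₂ z * G.t₂ z))

/-- Second partial derivative of `a₂`. -/
def a₂y (z : ℝ × ℝ) : ℝ :=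
  G.Edy z * G.φ₁ z + G.Ed z * G.φ₁₂ z
    + (G.Xiy z * G.w₂ z + G.Xi z * (G.p₁ z * G.t₄ z - G.p₂ z * G.t₃ z))

lemma Ja₁ : Jt G.a₁ G.a₁x G.a₁y := ((G.JEd.mul G.Jφ₂).neg).add (G.JXi.mul G.Jw₁)

lemma Ja₂ : Jt G.a₂ G.a₂x G.a₂y := (G.JEd.mul G.Jφ₁).add (G.JXi.mul G.Jw₂)

/-- The determinant in the curvature identity. -/
def C (z : ℝ × ℝ) : ℝ :=
  (G.s₁₁ z - G.φ₁ z * G.p₁ z + G.φ₂ z * G.p₂ z) * (G.s₂₂ z + G.φ₁ z * G.p₁ z - G.φ₂ z * G.p₂ z)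
    - (G.s₁₂ z - G.φ₁ z * G.p₂ z - G.φ₂ z * G.p₁ z) ^ 2

/-- **The curvature identity.** -/
lemma curl_eq (z : ℝ × ℝ) : G.a₂x z - G.a₁y z
    = G.E z / G.δ z ^ 3 * ((G.φ₁₁ z + G.φ₂₂ z) * G.δ z ^ 2 + G.ε * G.C z) := by
  have h := curl_id (G.E z) (G.δ z) G.ε (G.p₁ z) (G.p₂ z) (G.s₁₁ z) (G.s₁₂ z) (G.s₂₂ z)
    (G.φ₁ z) (G.φ₂ z) (G.φ₁₁ z) (G.φ₂₂ z) (G.r z) (G.rx z) (G.ry z) (G.dx z) (G.dy z)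
    (G.Edx z) (G.Edy z) (G.Xix z) (G.Xiy z) (G.C z) (G.Epos z) (G.δ_pos z) (G.δ_sq z) rfl rfl rfl
    rfl rfl rfl rfl rfl rfl rfl
  rw [← h]
  simp only [a₂x, a₁y, Ed, Xi, w₁, w₂]
  ring

/-- The entries of the coframe matrix. -/
def S₁₁ (z : ℝ × ℝ) : ℝ := G.r z / 2 - G.Q z

/-- The entries of the coframe matrix. -/
def S₁₂ (z : ℝ × ℝ) : ℝ := - G.q z

/-- The entries of the coframe matrix. -/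
def S₂₂ (z : ℝ × ℝ) : ℝ := G.r z / 2 + G.Q z

/-- Derivative of `S₁₁`. -/
def S₁₁x (z : ℝ × ℝ) : ℝ := G.rx z / 2 - G.Qx z
/-- Derivative of `S₁₁`. -/
def S₁₁y (z : ℝ × ℝ) : ℝ := G.ry z / 2 - G.Qy z
/-- Derivative of `S₁₂`. -/
def S₁₂x (z : ℝ × ℝ) : ℝ := - G.qx z
/-- Derivative of `S₁₂`. -/
def S₁₂y (z : ℝ × ℝ) : ℝ := - G.qy z
/-- Derivative of `S₂₂`. -/
def S₂₂x (z : ℝ × ℝ) : ℝ := G.rx z / 2 + G.Qx z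
/-- Derivative of `S₂₂`. -/
def S₂₂y (z : ℝ × ℝ) : ℝ := G.ry z / 2 + G.Qy z

lemma JS₁₁ : Jt G.S₁₁ G.S₁₁x G.S₁₁y := by
  have h := ((Jr G).const_mul (1 / 2)).sub G.JQ
  refine (h.congr ?_ ?_).congr_fun ?_ <;>
  · intro z
    simp only [S₁₁, S₁₁x, S₁₁y]
    ring

lemma JS₂₂ : Jt G.S₂₂ G.S₂₂x G.S₂₂y := by
  have h := ((Jr G).const_mul (1 / 2)).add G.JQ
  refine (h.congr ?_ ?_).congr_fun ?_ <;>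
  · intro z
    simp only [S₂₂, S₂₂x, S₂₂y]
    ring

lemma JS₁₂ : Jt G.S₁₂ G.S₁₂x G.S₁₂y := G.Jq.neg

/-- First structure equation. -/
lemma struct_eq1 (z : ℝ × ℝ) :
    G.S₁₂x z - G.S₁₁y z = G.a₁ z * G.S₂₂ z - G.a₂ z * G.S₁₂ z := by
  have h := struct1 (G.E z) (G.δ z) G.ε (G.p₁ z) (G.p₂ z) (G.s₁₁ z) (G.s₁₂ z) (G.s₂₂ z)
    (G.φ₁ z) (G.φ₂ z) (G.r z) (G.rx z) (G.ry z) (G.dx z) (G.dy z) (G.a₁ z) (G.a₂ z)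
    (G.Epos z) (G.δ_pos z) (G.δ_sq z) rfl rfl rfl rfl rfl
    (by simp only [a₁, Ed, Xi, w₁]) (by simp only [a₂, Ed, Xi, w₂])
  simp only [S₁₂x, S₁₁y, S₂₂, S₁₂, Qy, qx, Q, q]
  linarith

/-- Second structure equation. -/
lemma struct_eq2 (z : ℝ × ℝ) :
    G.S₂₂x z - G.S₁₂y z = - (G.a₁ z * G.S₁₂ z) + G.a₂ z * G.S₁₁ z := by
  have h := struct2 (G.E z) (G.δ z) G.ε (G.p₁ z) (G.p₂ z) (G.s₁₁ z) (G.s₁₂ z) (G.s₂₂ z)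
    (G.φ₁ z) (G.φ₂ z) (G.r z) (G.rx z) (G.ry z) (G.dx z) (G.dy z) (G.a₁ z) (G.a₂ z)
    (G.Epos z) (G.δ_pos z) (G.δ_sq z) rfl rfl rfl rfl rfl
    (by simp only [a₁, Ed, Xi, w₁]) (by simp only [a₂, Ed, Xi, w₂])
  simp only [S₂₂x, S₁₂y, S₁₁, S₁₂, Qx, qy, Q, q]
  linarith

/-- The square of the coframe matrix. -/
lemma S_sq (z : ℝ × ℝ) :
    G.S₁₁ z ^ 2 + G.S₁₂ z ^ 2 = G.E z ^ 2 - G.ε * G.p₁ z ^ 2 ∧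
    G.S₁₁ z * G.S₁₂ z + G.S₁₂ z * G.S₂₂ z = - (G.ε * (G.p₁ z * G.p₂ z)) ∧
    G.S₁₂ z ^ 2 + G.S₂₂ z ^ 2 = G.E z ^ 2 - G.ε * G.p₂ z ^ 2 ∧
    G.S₁₁ z * G.S₂₂ z - G.S₁₂ z ^ 2 = G.E z * G.δ z := by
  obtain ⟨h1, h2, h3, h4⟩ := sq_ids (G.E z) (G.δ z) G.ε (G.p₁ z) (G.p₂ z) (G.r z)
    (G.Epos z) (G.δ_pos z) (G.δ_sq z) rfl
  simp only [S₁₁, S₁₂, S₂₂, Q, q]
  refine ⟨?_, ?_, ?_, ?_⟩
  · rw [← h1]; ring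
  · linear_combination - h2
  · rw [← h3]; ring
  · rw [← h4]; ring

end Geo

end

end Vale.Agent.Lib.P205.T2
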