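import Mathlib

/-!
First order calculus on the plane: `Jt f f₁ f₂` says that the function `f` has everywhere the
differential `f₁ dx + f₂ dy`.
-/

namespace Vale.Agent.Lib.P205.T2

open ContinuousLinearMap MeasureTheory
open scoped ContDiff

noncomputable section

/-- The linear form `a dx + b dy`. -/
def dL (a b : ℝ) : ℝ × ℝ →L[ℝ] ℝ := a • fst ℝ ℝ ℝ + b • snd ℝ ℝ ℝ

@[simp] lemma dL_apply (a b : ℝ) (v : ℝ × ℝ) : dL a b v = a * v.1 + b * v.2 := by
  simp [dL]

/-- `f` has everywhere the differential `f₁ dx + f₂ dy`. -/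
def Jt (f f₁ f₂ : ℝ × ℝ → ℝ) : Prop := ∀ z, HasFDerivAt f (dL (f₁ z) (f₂ z)) z

variable {f f₁ f₂ g g₁ g₂ : ℝ × ℝ → ℝ}

lemma Jt.const (c : ℝ) : Jt (fun _ => c) (fun _ => 0) (fun _ => 0) := by
  intro z
  have : dL 0 0 = 0 := by ext <;> simp
  simpa [this] using hasFDerivAt_const c z

lemma Jt.congr (h : Jt f f₁ f₂) (h1 : ∀ z, f₁ z = g₁ z) (h2 : ∀ z, f₂ z = g₂ z) : Jt f g₁ g₂ := by
  intro z
  rw [← h1 z, ← h2 z]
  exact h z

lemma Jt.congr_fun (h : Jt f f₁ f₂) (h0 : ∀ z, f z = g z) : Jt g f₁ f₂ := by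
  have : f = g := funext h0
  rwa [← this]

lemma Jt.add (hf : Jt f f₁ f₂) (hg : Jt g g₁ g₂) :
    Jt (fun z => f z + g z) (fun z => f₁ z + g₁ z) (fun z => f₂ z + g₂ z) := by
  intro z
  refine ((hf z).add (hg z)).congr_fderiv ?_
  ext <;> simp <;> ring

lemma Jt.sub (hf : Jt f f₁ f₂) (hg : Jt g g₁ g₂) :
    Jt (fun z => f z - g z) (fun z => f₁ z - g₁ z) (fun z => f₂ z - g₂ z) := by
  intro z
  refine ((hf z).sub (hg z)).congr_fderiv ?_
  ext <;> simp

lemma Jt.neg (hf : Jt f f₁ f₂) : Jt (fun z => - f z) (fun z => - f₁ z) (fun z => - f₂ z) := by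
  intro z
  refine ((hf z).neg).congr_fderiv ?_
  ext <;> simp

lemma Jt.mul (hf : Jt f f₁ f₂) (hg : Jt g g₁ g₂) :
    Jt (fun z => f z * g z) (fun z => f₁ z * g z + f z * g₁ z)
      (fun z => f₂ z * g z + f z * g₂ z) := by
  intro z
  refine ((hf z).mul (hg z)).congr_fderiv ?_
  ext <;> simp <;> ring

lemma Jt.const_mul (c : ℝ) (hf : Jt f f₁ f₂) :
    Jt (fun z => c * f z) (fun z => c * f₁ z) (fun z => c * f₂ z) := by
  intro z
  refine ((hf z).const_mul c).congr_fderiv ?_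
  ext <;> simp

lemma Jt.inv (hf : Jt f f₁ f₂) (hne : ∀ z, f z ≠ 0) :
    Jt (fun z => (f z)⁻¹) (fun z => - f₁ z / f z ^ 2) (fun z => - f₂ z / f z ^ 2) := by
  intro z
  refine ((hasDerivAt_inv (hne z)).comp_hasFDerivAt z (hf z)).congr_fderiv ?_
  ext <;> simp <;> field_simp

lemma Jt.div (hf : Jt f f₁ f₂) (hg : Jt g g₁ g₂) (hne : ∀ z, g z ≠ 0) :
    Jt (fun z => f z / g z) (fun z => (f₁ z * g z - f z * g₁ z) / g z ^ 2)
      (fun z => (f₂ z * g z - f z * g₂ z) / g z ^ 2) := by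
  have h := hf.mul (hg.inv hne)
  refine (h.congr ?_ ?_).congr_fun ?_
  · intro z
    have := hne z
    field_simp
    ring
  · intro z
    have := hne z
    field_simp
    ring
  · intro z
    rw [div_eq_mul_inv]

lemma Jt.sqrt (hf : Jt f f₁ f₂) (hpos : ∀ z, f z ≠ 0) :
    Jt (fun z => √(f z)) (fun z => f₁ z / (2 * √(f z))) (fun z => f₂ z / (2 * √(f z))) := by
  intro z
  refine ((hf z).sqrt (hpos z)).congr_fderiv ?_
  ext <;> simp <;> ring

lemma Jt.sin (hf : Jt f f₁ f₂) :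
    Jt (fun z => Real.sin (f z)) (fun z => Real.cos (f z) * f₁ z)
      (fun z => Real.cos (f z) * f₂ z) := by
  intro z
  refine ((hf z).sin).congr_fderiv ?_
  ext <;> simp

lemma Jt.cos (hf : Jt f f₁ f₂) :
    Jt (fun z => Real.cos (f z)) (fun z => - Real.sin (f z) * f₁ z)
      (fun z => - Real.sin (f z) * f₂ z) := by
  intro z
  refine ((hf z).cos).congr_fderiv ?_
  ext <;> simp

lemma Jt.exp (hf : Jt f f₁ f₂) :
    Jt (fun z => Real.exp (f z)) (fun z => Real.exp (f z) * f₁ z)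
      (fun z => Real.exp (f z) * f₂ z) := by
  intro z
  refine ((hf z).exp).congr_fderiv ?_
  ext <;> simp

lemma Jt.comp_real {h : ℝ → ℝ} {h' : ℝ → ℝ} (hh : ∀ t, HasDerivAt h (h' t) t) (hf : Jt f f₁ f₂) :
    Jt (fun z => h (f z)) (fun z => h' (f z) * f₁ z) (fun z => h' (f z) * f₂ z) := by
  intro z
  refine ((hh (f z)).comp_hasFDerivAt z (hf z)).congr_fderiv ?_
  ext <;> simp

lemma Jt.continuous (hf : Jt f f₁ f₂) : Continuous f :=
  continuous_iff_continuousAt.mpr fun z => (hf z).continuousAt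

/-- Uniqueness of the first partial derivative. -/
lemma Jt.unique₁ (hf : Jt f f₁ f₂) (hg : Jt f g₁ g₂) (z : ℝ × ℝ) : f₁ z = g₁ z := by
  have h := (hf z).unique (hg z)
  have := congrArg (fun l => l (1, 0)) h
  simpa using this

/-- Uniqueness of the second partial derivative. -/
lemma Jt.unique₂ (hf : Jt f f₁ f₂) (hg : Jt f g₁ g₂) (z : ℝ × ℝ) : f₂ z = g₂ z := by
  have h := (hf z).unique (hg z)
  have := congrArg (fun l => l (0, 1)) h
  simpa using this

/-- Symmetry of the mixed derivative. -/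
lemma Jt.symm {a b c d : ℝ × ℝ → ℝ} (hf : Jt f f₁ f₂) (h1 : Jt f₁ a b) (h2 : Jt f₂ c d)
    (z : ℝ × ℝ) : b z = c z := by
  set D : ℝ × ℝ →L[ℝ] ℝ × ℝ →L[ℝ] ℝ :=
    (dL (a z) (b z)).smulRight (fst ℝ ℝ ℝ) + (dL (c z) (d z)).smulRight (snd ℝ ℝ ℝ) with hD
  have hD' : HasFDerivAt (fun y => dL (f₁ y) (f₂ y)) D z := by
    have e1 := (h1 z).smul_const (fst ℝ ℝ ℝ)
    have e2 := (h2 z).smul_const (snd ℝ ℝ ℝ)
    exact e1.add e2
  have hs := second_derivative_symmetric (f := f) (f' := fun y => dL (f₁ y) (f₂ y)) (f'' := D)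
    (x := z) (fun y => hf y) hD' (1, 0) (0, 1)
  have e : c z = b z := by simpa [hD] using hs
  exact e.symm

/-- A function with vanishing differential is constant. -/
lemma Jt.eq_const (hf : Jt f (fun _ => 0) (fun _ => 0)) (z w : ℝ × ℝ) : f z = f w := by
  have h0 : ∀ y, fderiv ℝ f y = 0 := by
    intro y
    have : dL 0 0 = 0 := by ext <;> simp
    have h := (hf y).fderiv
    rw [h, this]
  have hd : Differentiable ℝ f := fun y => (hf y).differentiableAt
  exact is_const_of_fderiv_eq_zero hd h0 z w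

/-- Smoothness from smoothness of the partial derivatives. -/
lemma Jt.contDiff (hf : Jt f f₁ f₂) (h1 : ContDiff ℝ ∞ f₁) (h2 : ContDiff ℝ ∞ f₂) :
    ContDiff ℝ ∞ f := by
  rw [contDiff_infty_iff_fderiv]
  refine ⟨fun z => (hf z).differentiableAt, ?_⟩
  have : fderiv ℝ f = fun z => (f₁ z) • fst ℝ ℝ ℝ + (f₂ z) • snd ℝ ℝ ℝ := by
    funext z
    exact (hf z).fderiv
  rw [this]
  exact (h1.smul contDiff_const).add (h2.smul contDiff_const)

/-- Translation. -/
lemma Jt.translate (hf : Jt f f₁ f₂) (l : ℝ × ℝ) :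
    Jt (fun z => f (z + l)) (fun z => f₁ (z + l)) (fun z => f₂ (z + l)) := by
  intro z
  exact (hf (z + l)).comp z ((hasFDerivAt_id z).add_const l)

/-- Directional derivative along a line. -/
lemma Jt.hasDerivAt_line (hf : Jt f f₁ f₂) (z l : ℝ × ℝ) (s : ℝ) :
    HasDerivAt (fun s : ℝ => f (z + s • l)) (f₁ (z + s • l) * l.1 + f₂ (z + s • l) * l.2) s := by
  have h1 : HasDerivAt (fun s : ℝ => z + s • l) l s := by
    simpa using ((hasDerivAt_id s).smul_const l).const_add z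
  have := (hf (z + s • l)).comp_hasDerivAt s h1
  simpa [Function.comp_def] using this

end

end Vale.Agent.Lib.P205.T2
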