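import Vale.Agent.Lib.P205.T2.MkGeo

/-!
Joint continuity of the flat coordinates in the parameter, and their value at the parameter `0`.
-/

namespace Vale.Agent.Lib.P205.T2

open scoped ContDiff

noncomputable section

/-- Joint continuity of a family of data. -/
structure GeoJoint (G : ℝ → Geo) : Prop where
  ε : Continuous fun t => (G t).ε
  E : Continuous fun q : ℝ × (ℝ × ℝ) => (G q.1).E q.2
  φ₁ : Continuous fun q : ℝ × (ℝ × ℝ) => (G q.1).φ₁ q.2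
  φ₂ : Continuous fun q : ℝ × (ℝ × ℝ) => (G q.1).φ₂ q.2
  p₁ : Continuous fun q : ℝ × (ℝ × ℝ) => (G q.1).p₁ q.2
  p₂ : Continuous fun q : ℝ × (ℝ × ℝ) => (G q.1).p₂ q.2
  s₁₁ : Continuous fun q : ℝ × (ℝ × ℝ) => (G q.1).s₁₁ q.2
  s₁₂ : Continuous fun q : ℝ × (ℝ × ℝ) => (G q.1).s₁₂ q.2
  s₂₂ : Continuous fun q : ℝ × (ℝ × ℝ) => (G q.1).s₂₂ q.2

/-- The potential depends continuously on the parameter. -/
lemma Pot_joint {A B : ℝ → ℝ × ℝ → ℝ} (hA : Continuous fun q : ℝ × (ℝ × ℝ) => A q.1 q.2)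
    (hB : Continuous fun q : ℝ × (ℝ × ℝ) => B q.1 q.2) :
    Continuous fun q : ℝ × (ℝ × ℝ) => Pot (A q.1) (B q.1) q.2 := by
  unfold Pot
  refine intervalIntegral.continuous_parametric_intervalIntegral_of_continuous'
    (f := fun (q : ℝ × (ℝ × ℝ)) (s : ℝ) => A q.1 (s • q.2) * q.2.1 + B q.1 (s • q.2) * q.2.2)
    ?_ 0 1
  have e : Continuous fun p : (ℝ × (ℝ × ℝ)) × ℝ => (p.1.1, p.2 • p.1.2) := by fun_prop
  have e1 : Continuous fun p : (ℝ × (ℝ × ℝ)) × ℝ => A p.1.1 (p.2 • p.1.2) := hA.comp e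
  have e2 : Continuous fun p : (ℝ × (ℝ × ℝ)) × ℝ => B p.1.1 (p.2 • p.1.2) := hB.comp e
  change Continuous fun p : (ℝ × (ℝ × ℝ)) × ℝ =>
    A p.1.1 (p.2 • p.1.2) * p.1.2.1 + B p.1.1 (p.2 • p.1.2) * p.1.2.2
  fun_prop

namespace GeoJoint

variable {G : ℝ → Geo} (h : GeoJoint G)
include h

lemma ε' : Continuous fun q : ℝ × (ℝ × ℝ) => (G q.1).ε := h.ε.comp continuous_fst

lemma δ : Continuous fun q : ℝ × (ℝ × ℝ) => (G q.1).δ q.2 :=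
  ((h.E.pow 2).sub (h.ε'.mul ((h.p₁.pow 2).add (h.p₂.pow 2)))).sqrt

lemma r : Continuous fun q : ℝ × (ℝ × ℝ) => (G q.1).r q.2 := h.E.add h.δ

lemma Q : Continuous fun q : ℝ × (ℝ × ℝ) => (G q.1).Q q.2 :=
  (h.ε'.mul ((h.p₁.pow 2).sub (h.p₂.pow 2))).div (continuous_const.mul h.r)
    (fun q => by have := (G q.1).r_pos q.2; positivity)

lemma q : Continuous fun q : ℝ × (ℝ × ℝ) => (G q.1).q q.2 :=
  (h.ε'.mul (h.p₁.mul h.p₂)).div h.r (fun q => ((G q.1).r_pos q.2).ne')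

lemma S₁₁ : Continuous fun q : ℝ × (ℝ × ℝ) => (G q.1).S₁₁ q.2 :=
  (h.r.div_const 2).sub h.Q

lemma S₁₂ : Continuous fun q : ℝ × (ℝ × ℝ) => (G q.1).S₁₂ q.2 := h.q.neg

lemma S₂₂ : Continuous fun q : ℝ × (ℝ × ℝ) => (G q.1).S₂₂ q.2 :=
  (h.r.div_const 2).add h.Q

lemma Ed : Continuous fun q : ℝ × (ℝ × ℝ) => (G q.1).Ed q.2 :=
  h.E.div h.δ (fun q => ((G q.1).δ_pos q.2).ne')

lemma Xi : Continuous fun q : ℝ × (ℝ × ℝ) => (G q.1).Xi q.2 :=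
  h.ε'.div (h.r.mul h.δ) (fun q => (mul_pos ((G q.1).r_pos q.2) ((G q.1).δ_pos q.2)).ne')

lemma w₁ : Continuous fun q : ℝ × (ℝ × ℝ) => (G q.1).w₁ q.2 :=
  (h.p₁.mul h.s₁₂).sub (h.p₂.mul h.s₁₁)

lemma w₂ : Continuous fun q : ℝ × (ℝ × ℝ) => (G q.1).w₂ q.2 :=
  (h.p₁.mul h.s₂₂).sub (h.p₂.mul h.s₁₂)

lemma a₁ : Continuous fun q : ℝ × (ℝ × ℝ) => (G q.1).a₁ q.2 :=
  (h.Ed.mul h.φ₂).neg.add (h.Xi.mul h.w₁)

lemma a₂ : Continuous fun q : ℝ × (ℝ × ℝ) => (G q.1).a₂ q.2 :=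
  (h.Ed.mul h.φ₁).add (h.Xi.mul h.w₂)

lemma ang : Continuous fun q : ℝ × (ℝ × ℝ) => (G q.1).ang q.2 :=
  Pot_joint (A := fun t => (G t).a₁) (B := fun t => (G t).a₂) h.a₁ h.a₂

lemma Ax : Continuous fun q : ℝ × (ℝ × ℝ) => (G q.1).Ax q.2 :=
  ((Real.continuous_cos.comp h.ang).mul h.S₁₁).sub ((Real.continuous_sin.comp h.ang).mul h.S₁₂)

lemma Ay : Continuous fun q : ℝ × (ℝ × ℝ) => (G q.1).Ay q.2 :=
  ((Real.continuous_cos.comp h.ang).mul h.S₁₂).sub ((Real.continuous_sin.comp h.ang).mul h.S₂₂)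

lemma Bx : Continuous fun q : ℝ × (ℝ × ℝ) => (G q.1).Bx q.2 :=
  ((Real.continuous_sin.comp h.ang).mul h.S₁₁).add ((Real.continuous_cos.comp h.ang).mul h.S₁₂)

lemma By : Continuous fun q : ℝ × (ℝ × ℝ) => (G q.1).By q.2 :=
  ((Real.continuous_sin.comp h.ang).mul h.S₁₂).add ((Real.continuous_cos.comp h.ang).mul h.S₂₂)

lemma Th : Continuous fun q : ℝ × (ℝ × ℝ) => (G q.1).Th q.2 :=
  Pot_joint (A := fun t => (G t).Ax) (B := fun t => (G t).Ay) h.Ax h.Ay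

lemma Ta : Continuous fun q : ℝ × (ℝ × ℝ) => (G q.1).Ta q.2 :=
  Pot_joint (A := fun t => (G t).Bx) (B := fun t => (G t).By) h.Bx h.By

lemma Th_at (z : ℝ × ℝ) : Continuous fun t => (G t).Th z := by
  have e : Continuous fun t : ℝ => ((t, z) : ℝ × (ℝ × ℝ)) := by fun_prop
  have e2 := Continuous.comp (g := fun q : ℝ × (ℝ × ℝ) => (G q.1).Th q.2)
    (f := fun t : ℝ => ((t, z) : ℝ × (ℝ × ℝ))) (GeoJoint.Th h) e
  exact e2

lemma Ta_at (z : ℝ × ℝ) : Continuous fun t => (G t).Ta z := by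
  have e : Continuous fun t : ℝ => ((t, z) : ℝ × (ℝ × ℝ)) := by fun_prop
  have e2 := Continuous.comp (g := fun q : ℝ × (ℝ × ℝ) => (G q.1).Ta q.2)
    (f := fun t : ℝ => ((t, z) : ℝ × (ℝ × ℝ))) (GeoJoint.Ta h) e
  exact e2

end GeoJoint

/-- The flat coordinates at the trivial data. -/
lemma Geo.base (G : Geo) (hε : G.ε = 0) (hE : ∀ z, G.E z = 1) (h1 : ∀ z, G.φ₁ z = 0)
    (h2 : ∀ z, G.φ₂ z = 0) (z : ℝ × ℝ) : G.Th z = z.1 ∧ G.Ta z = z.2 := by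
  have hδ : ∀ z, G.δ z = 1 := fun z => by simp [Geo.δ, hε, hE]
  have hr : ∀ z, G.r z = 2 := fun z => by
    simp only [Geo.r, hE, hδ]
    norm_num
  have hQ : ∀ z, G.Q z = 0 := fun z => by simp [Geo.Q, hε]
  have hq : ∀ z, G.q z = 0 := fun z => by simp [Geo.q, hε]
  have hS1 : ∀ z, G.S₁₁ z = 1 := fun z => by
    simp only [Geo.S₁₁, hr, hQ]
    norm_num
  have hS2 : ∀ z, G.S₁₂ z = 0 := fun z => by simp [Geo.S₁₂, hq]
  have hS3 : ∀ z, G.S₂₂ z = 1 := fun z => by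
    simp only [Geo.S₂₂, hr, hQ]
    norm_num
  have hX : ∀ z, G.Xi z = 0 := fun z => by simp [Geo.Xi, hε]
  have ha1 : ∀ z, G.a₁ z = 0 := fun z => by simp [Geo.a₁, hX, h2]
  have ha2 : ∀ z, G.a₂ z = 0 := fun z => by simp [Geo.a₂, hX, h1]
  have hang : ∀ z, G.ang z = 0 := fun z => by simp [Geo.ang, Pot, ha1, ha2]
  have hAx : ∀ z, G.Ax z = 1 := fun z => by simp [Geo.Ax, hang, hS1, hS2]
  have hAy : ∀ z, G.Ay z = 0 := fun z => by simp [Geo.Ay, hang, hS2, hS3]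
  have hBx : ∀ z, G.Bx z = 0 := fun z => by simp [Geo.Bx, hang, hS1, hS2]
  have hBy : ∀ z, G.By z = 1 := fun z => by simp [Geo.By, hang, hS2, hS3]
  constructor
  · simp [Geo.Th, Pot, hAx, hAy]
  · simp [Geo.Ta, Pot, hBx, hBy]

/-- Joint continuity of the data of a family of solutions. -/
lemma mkGeo_joint {U : Jet3} {F : ℝ → Jet3} {e : ℝ → ℝ} (hσ : ∀ t z, 0 < 1 + (F t).f z)
    (hrad : ∀ t z, 0 < 1 - e t * Xr (1 + (F t).f z) ((F t).f₁ z) ((F t).f₂ z) (U.f₁ z) (U.f₂ z))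
    (he : Continuous e) (h0 : Continuous fun q : ℝ × (ℝ × ℝ) => (F q.1).f q.2)
    (h1 : Continuous fun q : ℝ × (ℝ × ℝ) => (F q.1).f₁ q.2)
    (h2 : Continuous fun q : ℝ × (ℝ × ℝ) => (F q.1).f₂ q.2)
    (h11 : Continuous fun q : ℝ × (ℝ × ℝ) => (F q.1).f₁₁ q.2)
    (h12 : Continuous fun q : ℝ × (ℝ × ℝ) => (F q.1).f₁₂ q.2)
    (h22 : Continuous fun q : ℝ × (ℝ × ℝ) => (F q.1).f₂₂ q.2) :
    GeoJoint fun t => mkGeo U (F t) (e t) (hσ t) (hrad t) := by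
  have hv : Continuous fun q : ℝ × (ℝ × ℝ) => vv (F q.1) q.2 :=
    (continuous_const.add h0).inv₀ (fun q => (hσ q.1 q.2).ne')
  have u1 : Continuous fun q : ℝ × (ℝ × ℝ) => U.f₁ q.2 := U.s₁.continuous.comp continuous_snd
  have u2 : Continuous fun q : ℝ × (ℝ × ℝ) => U.f₂ q.2 := U.s₂.continuous.comp continuous_snd
  have u11 : Continuous fun q : ℝ × (ℝ × ℝ) => U.f₁₁ q.2 := U.s₁₁.continuous.comp continuous_snd
  have u12 : Continuous fun q : ℝ × (ℝ × ℝ) => U.f₁₂ q.2 := U.s₁₂.continuous.comp continuous_snd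
  have u22 : Continuous fun q : ℝ × (ℝ × ℝ) => U.f₂₂ q.2 := U.s₂₂.continuous.comp continuous_snd
  refine ⟨he, hv, (h1.mul hv).neg, (h2.mul hv).neg, u1.add (h1.mul hv), u2.add (h2.mul hv),
    (u11.add (h11.mul hv)).sub ((h1.pow 2).mul (hv.pow 2)),
    (u12.add (h12.mul hv)).sub ((h1.mul h2).mul (hv.pow 2)),
    (u22.add (h22.mul hv)).sub ((h2.pow 2).mul (hv.pow 2))⟩

end

end Vale.Agent.Lib.P205.T2
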