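import Vale.Agent.Lib.P205.T2.Coord

/-!
The flat coordinates of a doubly periodic flat metric change by translations under the periods.
-/

namespace Vale.Agent.Lib.P205.T2

open scoped ContDiff

noncomputable section

lemma dL_eq_zero {a b : ℝ} (h : dL a b = 0) : a = 0 ∧ b = 0 := by
  constructor
  · simpa using congrArg (fun f => f (1, 0)) h
  · simpa using congrArg (fun f => f (0, 1)) h

/-- At a maximum point of a function the partial derivatives vanish. -/
lemma Jt.eq_zero_of_max {f f₁ f₂ : ℝ × ℝ → ℝ} (hf : Jt f f₁ f₂) {w : ℝ × ℝ}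
    (hw : ∀ z, f z ≤ f w) : f₁ w = 0 ∧ f₂ w = 0 := by
  have h : IsLocalMax f w := Filter.Eventually.of_forall hw
  exact dL_eq_zero (h.hasFDerivAt_eq_zero (hf w))

/-- A nondegenerate map to the plane has no component which is doubly periodic. -/
lemma no_combo {X Y X₁ X₂ Y₁ Y₂ : ℝ × ℝ → ℝ} (hX : Jt X X₁ X₂) (hY : Jt Y Y₁ Y₂)
    (hdet : ∀ z, X₁ z * Y₂ z - X₂ z * Y₁ z ≠ 0) {l m : ℝ × ℝ} (hd : det2 l m ≠ 0) {α β : ℝ}
    (h1 : Pd (fun z => α * X z + β * Y z) l) (h2 : Pd (fun z => α * X z + β * Y z) m) :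
    α = 0 ∧ β = 0 := by
  have J := (hX.const_mul α).add (hY.const_mul β)
  obtain ⟨w, hw⟩ := exists_max_of_periodic J.continuous h1 h2 hd
  obtain ⟨e1, e2⟩ := J.eq_zero_of_max hw
  constructor
  · have : α * (X₁ w * Y₂ w - X₂ w * Y₁ w) = 0 := by linear_combination Y₂ w * e1 - Y₁ w * e2
    exact (mul_eq_zero.mp this).resolve_right (hdet w)
  · have : β * (X₁ w * Y₂ w - X₂ w * Y₁ w) = 0 := by linear_combination X₁ w * e2 - X₂ w * e1
    exact (mul_eq_zero.mp this).resolve_right (hdet w)

/-- A nondegenerate map to the plane has no doubly periodic radius function. -/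
lemma no_radius {X Y X₁ X₂ Y₁ Y₂ : ℝ × ℝ → ℝ} (hX : Jt X X₁ X₂) (hY : Jt Y Y₁ Y₂)
    (hdet : ∀ z, X₁ z * Y₂ z - X₂ z * Y₁ z ≠ 0) {l m : ℝ × ℝ} (hd : det2 l m ≠ 0)
    (h1 : Pd (fun z => X z ^ 2 + Y z ^ 2) l) (h2 : Pd (fun z => X z ^ 2 + Y z ^ 2) m) : False := by
  have J : Jt (fun z => X z * X z + Y z * Y z) _ _ := (hX.mul hX).add (hY.mul hY)
  have h1' : Pd (fun z => X z * X z + Y z * Y z) l := fun z => by
    have := h1 z
    simp only at this ⊢
    nlinarith
  have h2' : Pd (fun z => X z * X z + Y z * Y z) m := fun z => by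
    have := h2 z
    simp only at this ⊢
    nlinarith
  obtain ⟨w, hw⟩ := exists_max_of_periodic J.continuous h1' h2' hd
  obtain ⟨e1, e2⟩ := J.eq_zero_of_max hw
  have hx : X w = 0 := by
    have : X w * (X₁ w * Y₂ w - X₂ w * Y₁ w) = 0 := by
      linear_combination (Y₂ w / 2) * e1 - (Y₁ w / 2) * e2
    exact (mul_eq_zero.mp this).resolve_right (hdet w)
  have hy : Y w = 0 := by
    have : Y w * (X₁ w * Y₂ w - X₂ w * Y₁ w) = 0 := by
      linear_combination (X₁ w / 2) * e2 - (X₂ w / 2) * e1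
    exact (mul_eq_zero.mp this).resolve_right (hdet w)
  have hall : ∀ z, X z = 0 ∧ Y z = 0 := by
    intro z
    have := hw z
    simp only [hx, hy, mul_zero, add_zero] at this
    constructor <;> nlinarith [mul_self_nonneg (X z), mul_self_nonneg (Y z)]
  have hX0 : X = fun _ => 0 := funext fun z => (hall z).1
  have hc : Jt X (fun _ => 0) (fun _ => 0) := by
    rw [hX0]
    exact Jt.const 0
  have e3 := hX.unique₁ hc 0
  have e4 := hX.unique₂ hc 0
  apply hdet 0
  rw [e3, e4]
  ring

/-- The rotation part of a doubly equivariant nondegenerate map to the plane is trivial. -/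
lemma rotation_trivial {X Y X₁ X₂ Y₁ Y₂ : ℝ × ℝ → ℝ} (hX : Jt X X₁ X₂) (hY : Jt Y Y₁ Y₂)
    (hdet : ∀ z, X₁ z * Y₂ z - X₂ z * Y₁ z ≠ 0) {l m : ℝ × ℝ} (hd : det2 l m ≠ 0)
    {u v b b' u' v' c c' : ℝ} (huv : u ^ 2 + v ^ 2 = 1) (hu'v' : u' ^ 2 + v' ^ 2 = 1)
    (h1 : ∀ z, X (z + l) = u * X z - v * Y z + b) (h2 : ∀ z, Y (z + l) = v * X z + u * Y z + b')
    (h3 : ∀ z, X (z + m) = u' * X z - v' * Y z + c) (h4 : ∀ z, Y (z + m) = v' * X z + u' * Y z + c') :
    u = 1 := by
  by_contra hne
  have hD : 2 * (1 - u) ≠ 0 := by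
    intro h
    apply hne
    linarith
  set D := 2 * (1 - u) with hDdef
  set x₀ := ((1 - u) * b - v * b') / D with hx₀
  set y₀ := (v * b + (1 - u) * b') / D with hy₀
  have hDD : (1 - u) ^ 2 + v ^ 2 = D := by rw [hDdef]; nlinarith
  have fx : (1 - u) * x₀ + v * y₀ = b := by
    rw [hx₀, hy₀]
    field_simp
    linear_combination b * hDD
  have fy : - v * x₀ + (1 - u) * y₀ = b' := by
    rw [hx₀, hy₀]
    field_simp
    linear_combination b' * hDD
  -- commutation
  have comm1 : u' * b - v' * b' + c = u * c - v * c' + b := by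
    have e1 := h3 (0 + l)
    rw [h1 0, h2 0] at e1
    have e2 := h1 (0 + m)
    rw [h3 0, h4 0] at e2
    have e3 : (0 : ℝ × ℝ) + l + m = 0 + m + l := by abel
    rw [e3, e2] at e1
    linear_combination - e1
  have comm2 : v' * b + u' * b' + c' = v * c + u * c' + b' := by
    have e1 := h4 (0 + l)
    rw [h1 0, h2 0] at e1
    have e2 := h2 (0 + m)
    rw [h3 0, h4 0] at e2
    have e3 : (0 : ℝ × ℝ) + l + m = 0 + m + l := by abel
    rw [e3, e2] at e1
    linear_combination - e1
  -- the fixed point of the second motion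
  have gx : (1 - u') * x₀ + v' * y₀ = c := by
    have hmul : D * ((1 - u') * x₀ + v' * y₀) = D * c := by
      have e1 : D * x₀ = (1 - u) * b - v * b' := by rw [hx₀]; field_simp
      have e2 : D * y₀ = v * b + (1 - u) * b' := by rw [hy₀]; field_simp
      have : D * ((1 - u') * x₀ + v' * y₀) = (1 - u') * (D * x₀) + v' * (D * y₀) := by ring
      rw [this, e1, e2]
      have : ((1 - u') * b + v' * b') = (1 - u) * c + v * c' := by linear_combination - comm1
      have h5 : (- v' * b + (1 - u') * b') = - v * c + (1 - u) * c' := by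
        linear_combination - comm2
      linear_combination (1 - u) * this - v * h5 + c * (hDD)
    exact mul_left_cancel₀ hD hmul
  have gy : - v' * x₀ + (1 - u') * y₀ = c' := by
    have hmul : D * (- v' * x₀ + (1 - u') * y₀) = D * c' := by
      have e1 : D * x₀ = (1 - u) * b - v * b' := by rw [hx₀]; field_simp
      have e2 : D * y₀ = v * b + (1 - u) * b' := by rw [hy₀]; field_simp
      have : D * (- v' * x₀ + (1 - u') * y₀) = - v' * (D * x₀) + (1 - u') * (D * y₀) := by ring
      rw [this, e1, e2]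
      have : ((1 - u') * b + v' * b') = (1 - u) * c + v * c' := by linear_combination - comm1
      have h5 : (- v' * b + (1 - u') * b') = - v * c + (1 - u) * c' := by
        linear_combination - comm2
      linear_combination v * this + (1 - u) * h5 + c' * (hDD)
    exact mul_left_cancel₀ hD hmul
  -- the radius function
  have JX := hX.sub (Jt.const x₀)
  have JY := hY.sub (Jt.const y₀)
  refine no_radius JX JY ?_ hd ?_ ?_
  · intro z
    simpa using hdet z
  · intro z
    simp only [h1 z, h2 z]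
    have e1 : u * X z - v * Y z + b - x₀ = u * (X z - x₀) - v * (Y z - y₀) := by
      linear_combination - fx
    have e2 : v * X z + u * Y z + b' - y₀ = v * (X z - x₀) + u * (Y z - y₀) := by
      linear_combination - fy
    rw [e1, e2]
    linear_combination ((X z - x₀) ^ 2 + (Y z - y₀) ^ 2) * huv
  · intro z
    simp only [h3 z, h4 z]
    have e1 : u' * X z - v' * Y z + c - x₀ = u' * (X z - x₀) - v' * (Y z - y₀) := by
      linear_combination - gx
    have e2 : v' * X z + u' * Y z + c' - y₀ = v' * (X z - x₀) + u' * (Y z - y₀) := by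
      linear_combination - gy
    rw [e1, e2]
    linear_combination ((X z - x₀) ^ 2 + (Y z - y₀) ^ 2) * hu'v'

namespace Geo

variable {G : Geo} (hf : G.Flat) {l m : ℝ × ℝ}
include hf

omit hf in
lemma Pot_zero (A B : ℝ × ℝ → ℝ) : Pot A B 0 = 0 := by
  simp [Pot]

lemma ang_add (hp : GeoPer G l) (z : ℝ × ℝ) : G.ang (z + l) = G.ang z + G.ang l := by
  have J := ((Jang hf).translate l).sub (Jang hf)
  have J' : Jt (fun z => G.ang (z + l) - G.ang z) (fun _ => 0) (fun _ => 0) :=
    J.congr (fun z => by simp only [a₁_per hp z, sub_self])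
      (fun z => by simp only [a₂_per hp z, sub_self])
  have := J'.eq_const z 0
  simp only [zero_add] at this
  have h0 : G.ang 0 = 0 := Pot_zero _ _
  rw [h0] at this
  linarith

/-- The effect of a period on the coordinate differentials. -/
lemma coframe_add (hp : GeoPer G l) (z : ℝ × ℝ) :
    G.Ax (z + l) = Real.cos (G.ang l) * G.Ax z - Real.sin (G.ang l) * G.Bx z ∧
    G.Ay (z + l) = Real.cos (G.ang l) * G.Ay z - Real.sin (G.ang l) * G.By z ∧
    G.Bx (z + l) = Real.sin (G.ang l) * G.Ax z + Real.cos (G.ang l) * G.Bx z ∧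
    G.By (z + l) = Real.sin (G.ang l) * G.Ay z + Real.cos (G.ang l) * G.By z := by
  simp only [Ax, Ay, Bx, By, ang_add hf hp z, S₁₁_per hp z, S₁₂_per hp z, S₂₂_per hp z,
    Real.cos_add, Real.sin_add]
  refine ⟨?_, ?_, ?_, ?_⟩ <;> ring

lemma Th_add (hp : GeoPer G l) (z : ℝ × ℝ) :
    G.Th (z + l) = Real.cos (G.ang l) * G.Th z - Real.sin (G.ang l) * G.Ta z + G.Th l := by
  have J := ((JTh hf).translate l).sub
    (((JTh hf).const_mul (Real.cos (G.ang l))).sub ((JTa hf).const_mul (Real.sin (G.ang l))))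
  have J' : Jt (fun z => G.Th (z + l)
      - (Real.cos (G.ang l) * G.Th z - Real.sin (G.ang l) * G.Ta z)) (fun _ => 0) (fun _ => 0) :=
    J.congr (fun z => by rw [(coframe_add hf hp z).1]; ring)
      (fun z => by rw [(coframe_add hf hp z).2.1]; ring)
  have := J'.eq_const z 0
  simp only [zero_add] at this
  have h0 : G.Th 0 = 0 := Pot_zero _ _
  have h1 : G.Ta 0 = 0 := Pot_zero _ _
  rw [h0, h1] at this
  linarith

lemma Ta_add (hp : GeoPer G l) (z : ℝ × ℝ) :
    G.Ta (z + l) = Real.sin (G.ang l) * G.Th z + Real.cos (G.ang l) * G.Ta z + G.Ta l := by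
  have J := ((JTa hf).translate l).sub
    (((JTh hf).const_mul (Real.sin (G.ang l))).add ((JTa hf).const_mul (Real.cos (G.ang l))))
  have J' : Jt (fun z => G.Ta (z + l)
      - (Real.sin (G.ang l) * G.Th z + Real.cos (G.ang l) * G.Ta z)) (fun _ => 0) (fun _ => 0) :=
    J.congr (fun z => by rw [(coframe_add hf hp z).2.2.1]; ring)
      (fun z => by rw [(coframe_add hf hp z).2.2.2]; ring)
  have := J'.eq_const z 0
  simp only [zero_add] at this
  have h0 : G.Th 0 = 0 := Pot_zero _ _
  have h1 : G.Ta 0 = 0 := Pot_zero _ _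
  rw [h0, h1] at this
  linarith

omit hf in
lemma det_ne (z : ℝ × ℝ) : G.Ax z * G.By z - G.Ay z * G.Bx z ≠ 0 := by
  rw [(metric_flat z).2.2.2]
  exact (mul_pos (G.Epos z) (G.δ_pos z)).ne'

/-- **Periods.** The flat coordinates change by translations under the periods of the metric, and
the two translation vectors are linearly independent. -/
theorem periods (hl : GeoPer G l) (hm : GeoPer G m) (hd : det2 l m ≠ 0) :
    (∀ z, G.Th (z + l) = G.Th z + G.Th l) ∧ (∀ z, G.Ta (z + l) = G.Ta z + G.Ta l) ∧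
    (∀ z, G.Th (z + m) = G.Th z + G.Th m) ∧ (∀ z, G.Ta (z + m) = G.Ta z + G.Ta m) ∧
    G.Th l * G.Ta m - G.Ta l * G.Th m ≠ 0 := by
  have hc1 : Real.cos (G.ang l) = 1 :=
    rotation_trivial (JTh hf) (JTa hf) det_ne hd (u := Real.cos (G.ang l))
      (v := Real.sin (G.ang l)) (b := G.Th l) (b' := G.Ta l) (u' := Real.cos (G.ang m))
      (v' := Real.sin (G.ang m)) (c := G.Th m) (c' := G.Ta m)
      (Real.cos_sq_add_sin_sq _) (Real.cos_sq_add_sin_sq _)
      (Th_add hf hl) (Ta_add hf hl) (Th_add hf hm) (Ta_add hf hm)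
  have hd' : det2 m l ≠ 0 := by
    intro h
    apply hd
    simp only [det2] at h ⊢
    linarith
  have hc2 : Real.cos (G.ang m) = 1 :=
    rotation_trivial (JTh hf) (JTa hf) det_ne hd' (u := Real.cos (G.ang m))
      (v := Real.sin (G.ang m)) (b := G.Th m) (b' := G.Ta m) (u' := Real.cos (G.ang l))
      (v' := Real.sin (G.ang l)) (c := G.Th l) (c' := G.Ta l)
      (Real.cos_sq_add_sin_sq _) (Real.cos_sq_add_sin_sq _)
      (Th_add hf hm) (Ta_add hf hm) (Th_add hf hl) (Ta_add hf hl)
  have hs1 : Real.sin (G.ang l) = 0 := by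
    have := Real.cos_sq_add_sin_sq (G.ang l)
    rw [hc1] at this
    nlinarith
  have hs2 : Real.sin (G.ang m) = 0 := by
    have := Real.cos_sq_add_sin_sq (G.ang m)
    rw [hc2] at this
    nlinarith
  have e1 : ∀ z, G.Th (z + l) = G.Th z + G.Th l := fun z => by
    rw [Th_add hf hl, hc1, hs1]; ring
  have e2 : ∀ z, G.Ta (z + l) = G.Ta z + G.Ta l := fun z => by
    rw [Ta_add hf hl, hc1, hs1]; ring
  have e3 : ∀ z, G.Th (z + m) = G.Th z + G.Th m := fun z => by
    rw [Th_add hf hm, hc2, hs2]; ring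
  have e4 : ∀ z, G.Ta (z + m) = G.Ta z + G.Ta m := fun z => by
    rw [Ta_add hf hm, hc2, hs2]; ring
  refine ⟨e1, e2, e3, e4, ?_⟩
  intro h0
  -- a doubly periodic combination
  have key : ∀ α β : ℝ, α * G.Th l + β * G.Ta l = 0 → α * G.Th m + β * G.Ta m = 0 →
      α = 0 ∧ β = 0 := by
    intro α β h1 h2
    refine no_combo (JTh hf) (JTa hf) det_ne hd ?_ ?_
    · intro z
      simp only [e1 z, e2 z]
      linear_combination h1
    · intro z
      simp only [e3 z, e4 z]
      linear_combination h2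
  have a1 := key (- G.Ta l) (G.Th l) (by ring) (by linear_combination h0)
  have a2 := key (- G.Ta m) (G.Th m) (by linear_combination - h0) (by ring)
  have a3 := key 1 0
  have h3 : G.Th l = 0 := a1.2
  have h4 : G.Ta l = 0 := by linarith [a1.1]
  have h5 : G.Th m = 0 := a2.2
  have h6 : G.Ta m = 0 := by linarith [a2.1]
  have := (a3 (by rw [h3, h4]; ring) (by rw [h5, h6]; ring)).1
  norm_num at this

end Geo

end

end Vale.Agent.Lib.P205.T2
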