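import Vale.Agent.Lib.P205.T2.Data
import Vale.Agent.Lib.P205.T2.Periods

/-!
The geometric data attached to a solution of the equation.
-/

namespace Vale.Agent.Lib.P205.T2

open scoped ContDiff

noncomputable section

lemma Jt.congr' {f f₁ f₂ g g₁ g₂ : ℝ × ℝ → ℝ} (h : Jt f f₁ f₂) (h0 : ∀ z, f z = g z)
    (h1 : ∀ z, f₁ z = g₁ z) (h2 : ∀ z, f₂ z = g₂ z) : Jt g g₁ g₂ :=
  (h.congr h1 h2).congr_fun h0

/-- The inverse of the conformal factor. -/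
def vv (F : Jet3) (z : ℝ × ℝ) : ℝ := (1 + F.f z)⁻¹

section

variable {U F : Jet3} {ε : ℝ} (hσ : ∀ z, 0 < 1 + F.f z)
include hσ

lemma vv_pos (z : ℝ × ℝ) : 0 < vv F z := inv_pos.mpr (hσ z)

lemma vv_mul (z : ℝ × ℝ) : (1 + F.f z) * vv F z = 1 :=
  mul_inv_cancel₀ (hσ z).ne'

lemma Jv : Jt (vv F) (fun z => - (F.f₁ z * vv F z ^ 2)) (fun z => - (F.f₂ z * vv F z ^ 2)) := by
  have h := ((Jt.const 1).add F.J₀).inv (fun z => (hσ z).ne')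
  refine (h.congr ?_ ?_).congr_fun (fun z => rfl) <;>
  · intro z
    simp only [vv, zero_add]
    rw [inv_pow]
    ring

lemma vv_smooth : ContDiff ℝ ∞ (vv F) :=
  (contDiff_const.add F.s₀).inv (fun z => (hσ z).ne')

end

/-- The geometric data of a solution. -/
def mkGeo (U F : Jet3) (ε : ℝ) (hσ : ∀ z, 0 < 1 + F.f z)
    (hrad : ∀ z, 0 < 1 - ε * Xr (1 + F.f z) (F.f₁ z) (F.f₂ z) (U.f₁ z) (U.f₂ z)) : Geo where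
  ε := ε
  E := vv F
  φ₁ z := - (F.f₁ z * vv F z)
  φ₂ z := - (F.f₂ z * vv F z)
  φ₁₁ z := - (F.f₁₁ z * vv F z) + F.f₁ z ^ 2 * vv F z ^ 2
  φ₁₂ z := - (F.f₁₂ z * vv F z) + F.f₁ z * F.f₂ z * vv F z ^ 2
  φ₂₂ z := - (F.f₂₂ z * vv F z) + F.f₂ z ^ 2 * vv F z ^ 2
  p₁ z := U.f₁ z + F.f₁ z * vv F z
  p₂ z := U.f₂ z + F.f₂ z * vv F z
  s₁₁ z := U.f₁₁ z + F.f₁₁ z * vv F z - F.f₁ z ^ 2 * vv F z ^ 2
  s₁₂ z := U.f₁₂ z + F.f₁₂ z * vv F z - F.f₁ z * F.f₂ z * vv F z ^ 2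
  s₂₂ z := U.f₂₂ z + F.f₂₂ z * vv F z - F.f₂ z ^ 2 * vv F z ^ 2
  t₁ z := U.f₁₁₁ z + F.f₁₁₁ z * vv F z - 3 * F.f₁ z * F.f₁₁ z * vv F z ^ 2
    + 2 * F.f₁ z ^ 3 * vv F z ^ 3
  t₂ z := U.f₁₁₂ z + F.f₁₁₂ z * vv F z - (F.f₂ z * F.f₁₁ z + 2 * F.f₁ z * F.f₁₂ z) * vv F z ^ 2
    + 2 * F.f₁ z ^ 2 * F.f₂ z * vv F z ^ 3
  t₃ z := U.f₁₂₂ z + F.f₁₂₂ z * vv F z - (F.f₁ z * F.f₂₂ z + 2 * F.f₂ z * F.f₁₂ z) * vv F z ^ 2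
    + 2 * F.f₁ z * F.f₂ z ^ 2 * vv F z ^ 3
  t₄ z := U.f₂₂₂ z + F.f₂₂₂ z * vv F z - 3 * F.f₂ z * F.f₂₂ z * vv F z ^ 2
    + 2 * F.f₂ z ^ 3 * vv F z ^ 3
  JE := (Jv hσ).congr (fun z => by ring) (fun z => by ring)
  Jφ₁ := ((F.J₁.mul (Jv hσ)).neg).congr (fun z => by ring) (fun z => by ring)
  Jφ₂ := ((F.J₂.mul (Jv hσ)).neg).congr (fun z => by ring) (fun z => by ring)
  Jp₁ := (U.J₁.add (F.J₁.mul (Jv hσ))).congr (fun z => by ring) (fun z => by ring)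
  Jp₂ := (U.J₂.add (F.J₂.mul (Jv hσ))).congr (fun z => by ring) (fun z => by ring)
  Js₁₁ := ((U.J₁₁.add (F.J₁₁.mul (Jv hσ))).sub
      ((F.J₁.mul F.J₁).mul ((Jv hσ).mul (Jv hσ)))).congr' (fun z => by ring)
      (fun z => by ring) (fun z => by ring)
  Js₁₂ := ((U.J₁₂.add (F.J₁₂.mul (Jv hσ))).sub
      ((F.J₁.mul F.J₂).mul ((Jv hσ).mul (Jv hσ)))).congr' (fun z => by ring)
      (fun z => by ring) (fun z => by ring)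
  Js₂₂ := ((U.J₂₂.add (F.J₂₂.mul (Jv hσ))).sub
      ((F.J₂.mul F.J₂).mul ((Jv hσ).mul (Jv hσ)))).congr' (fun z => by ring)
      (fun z => by ring) (fun z => by ring)
  Epos := vv_pos hσ
  radpos z := by
    have h1 := vv_mul hσ z
    have h2 := vv_pos hσ z
    have e : vv F z ^ 2 - ε * ((U.f₁ z + F.f₁ z * vv F z) ^ 2 + (U.f₂ z + F.f₂ z * vv F z) ^ 2)
        = vv F z ^ 2 * (1 - ε * Xr (1 + F.f z) (F.f₁ z) (F.f₂ z) (U.f₁ z) (U.f₂ z)) := by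
      have e1 : vv F z * ((1 + F.f z) * U.f₁ z + F.f₁ z) = U.f₁ z + F.f₁ z * vv F z := by
        linear_combination U.f₁ z * h1
      have e2 : vv F z * ((1 + F.f z) * U.f₂ z + F.f₂ z) = U.f₂ z + F.f₂ z * vv F z := by
        linear_combination U.f₂ z * h1
      rw [← e1, ← e2]
      simp only [Xr]
      ring
    rw [e]
    exact mul_pos (by positivity) (hrad z)

section

variable {U F : Jet3} {ε : ℝ} (hσ : ∀ z, 0 < 1 + F.f z)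
  (hrad : ∀ z, 0 < 1 - ε * Xr (1 + F.f z) (F.f₁ z) (F.f₂ z) (U.f₁ z) (U.f₂ z))

include hσ in
lemma mkGeo_smooth : GeoSmooth (mkGeo U F ε hσ hrad) := by
  have hv := vv_smooth hσ
  have a0 := F.s₀
  have a1 := F.s₁
  have a2 := F.s₂
  have a3 := F.s₁₁
  have a4 := F.s₁₂
  have a5 := F.s₂₂
  have a6 := F.s₁₁₁
  have a7 := F.s₁₁₂
  have a8 := F.s₁₂₂
  have a9 := F.s₂₂₂
  have b1 := U.s₁
  have b2 := U.s₂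
  have b3 := U.s₁₁
  have b4 := U.s₁₂
  have b5 := U.s₂₂
  have b6 := U.s₁₁₁
  have b7 := U.s₁₁₂
  have b8 := U.s₁₂₂
  have b9 := U.s₂₂₂
  refine ⟨hv, ?_, ?_, ?_, ?_, ?_, ?_, ?_, ?_, ?_, ?_, ?_, ?_, ?_, ?_⟩ <;>
  · simp only [mkGeo]
    fun_prop

lemma mkGeo_per {l : ℝ × ℝ} (hU : U.Per l) (hF : F.Per l) : GeoPer (mkGeo U F ε hσ hrad) l := by
  have hv : Pd (vv F) l := fun z => by simp only [vv, hF.p₀ z]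
  refine ⟨hv, ?_, ?_, ?_, ?_, ?_, ?_, ?_⟩ <;>
  · intro z
    simp only [mkGeo, hv z, hU.p₁ z, hU.p₂ z, hU.p₁₁ z, hU.p₁₂ z, hU.p₂₂ z, hF.p₁ z, hF.p₂ z,
      hF.p₁₁ z, hF.p₁₂ z, hF.p₂₂ z]

end

/-- The algebraic form of the Gauss equation. -/
lemma curv_alg (ε σ v f₁ f₂ f₁₁ f₁₂ f₂₂ u₁ u₂ u₁₁ u₁₂ u₂₂ d2 : ℝ) (hσ : σ ≠ 0) (hv : v = σ⁻¹)
    (hd : d2 = v ^ 2 - ε * ((u₁ + f₁ * v) ^ 2 + (u₂ + f₂ * v) ^ 2)) :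
    (- (f₁₁ * v) + f₁ ^ 2 * v ^ 2 + (- (f₂₂ * v) + f₂ ^ 2 * v ^ 2)) * d2
      + ε * (((u₁₁ + f₁₁ * v - f₁ ^ 2 * v ^ 2) - (- (f₁ * v)) * (u₁ + f₁ * v)
            + (- (f₂ * v)) * (u₂ + f₂ * v))
          * ((u₂₂ + f₂₂ * v - f₂ ^ 2 * v ^ 2) + (- (f₁ * v)) * (u₁ + f₁ * v)
            - (- (f₂ * v)) * (u₂ + f₂ * v))
        - ((u₁₂ + f₁₂ * v - f₁ * f₂ * v ^ 2) - (- (f₁ * v)) * (u₂ + f₂ * v)
            - (- (f₂ * v)) * (u₁ + f₁ * v)) ^ 2)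
      = - v ^ 4 * ((1 - ε * Xr σ f₁ f₂ u₁ u₂) * (σ * (f₁₁ + f₂₂) - (f₁ ^ 2 + f₂ ^ 2))
        - ε * (M11r σ f₁ f₂ f₁₁ u₁ u₂ u₁₁ * M22r σ f₁ f₂ f₂₂ u₁ u₂ u₂₂
          - M12r σ f₁ f₂ f₁₂ u₁ u₂ u₁₂ ^ 2)) := by
  subst hv hd
  simp only [Xr, M11r, M22r, M12r]
  field_simp
  ring

section

variable {U F : Jet3} {ε : ℝ} (hσ : ∀ z, 0 < 1 + F.f z)
  (hrad : ∀ z, 0 < 1 - ε * Xr (1 + F.f z) (F.f₁ z) (F.f₂ z) (U.f₁ z) (U.f₂ z))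

/-- The equation implies the flatness of the metric. -/
theorem mkGeo_flat {l m : ℝ × ℝ} (hUl : U.Per l) (hFl : F.Per l) (hUm : U.Per m) (hFm : F.Per m)
    (hd : det2 l m ≠ 0) {m₀ : ℝ}
    (hpde : ∀ z, (1 - ε * Xr (1 + F.f z) (F.f₁ z) (F.f₂ z) (U.f₁ z) (U.f₂ z))
        * ((1 + F.f z) * (F.f₁₁ z + F.f₂₂ z) - (F.f₁ z ^ 2 + F.f₂ z ^ 2))
      - ε * (M11r (1 + F.f z) (F.f₁ z) (F.f₂ z) (F.f₁₁ z) (U.f₁ z) (U.f₂ z) (U.f₁₁ z)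
          * M22r (1 + F.f z) (F.f₁ z) (F.f₂ z) (F.f₂₂ z) (U.f₁ z) (U.f₂ z) (U.f₂₂ z)
        - M12r (1 + F.f z) (F.f₁ z) (F.f₂ z) (F.f₁₂ z) (U.f₁ z) (U.f₂ z) (U.f₁₂ z) ^ 2) = m₀) :
    (mkGeo U F ε hσ hrad).Flat := by
  set G := mkGeo U F ε hσ hrad with hG
  have key : ∀ z, (G.φ₁₁ z + G.φ₂₂ z) * G.δ z ^ 2 + G.ε * G.C z = (- m₀) * (vv F z ^ 4) := by
    intro z
    rw [G.δ_sq z]
    have := curv_alg ε (1 + F.f z) (vv F z) (F.f₁ z) (F.f₂ z) (F.f₁₁ z) (F.f₁₂ z) (F.f₂₂ z)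
      (U.f₁ z) (U.f₂ z) (U.f₁₁ z) (U.f₁₂ z) (U.f₂₂ z) (G.E z ^ 2 - G.ε * (G.p₁ z ^ 2 + G.p₂ z ^ 2))
      (hσ z).ne' rfl rfl
    rw [hpde z] at this
    rw [show (- m₀) * (vv F z ^ 4) = - vv F z ^ 4 * m₀ by ring, ← this]
    rfl
  have hm : - m₀ = 0 := Geo.curvature_zero (mkGeo_smooth hσ hrad) (mkGeo_per hσ hrad hUl hFl)
    (mkGeo_per hσ hrad hUm hFm) hd key (fun z => pow_pos (vv_pos hσ z) 4)
  intro z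
  rw [key z, hm, zero_mul]

/-- The radial function of the cone. -/
def Rr (U F : Jet3) (ε : ℝ) (z : ℝ × ℝ) : ℝ := √ε * (Real.exp (U.f z) * (1 + F.f z))

include hσ in
lemma JRr : Jt (Rr U F ε)
    (fun z => Rr U F ε z * (mkGeo U F ε hσ hrad).p₁ z)
    (fun z => Rr U F ε z * (mkGeo U F ε hσ hrad).p₂ z) := by
  have h := ((U.J₀.exp).mul ((Jt.const 1).add F.J₀)).const_mul (√ε)
  refine h.congr ?_ ?_
  · intro z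
    have e := vv_mul hσ z
    simp only [Rr, mkGeo]
    linear_combination (-(√ε * Real.exp (U.f z) * F.f₁ z)) * e
  · intro z
    have e := vv_mul hσ z
    simp only [Rr, mkGeo]
    linear_combination (-(√ε * Real.exp (U.f z) * F.f₂ z)) * e

lemma Rr_smooth : ContDiff ℝ ∞ (Rr U F ε) := by
  have h0 := U.s₀
  have h1 := F.s₀
  unfold Rr
  fun_prop

lemma Rr_per {l : ℝ × ℝ} (hU : U.Per l) (hF : F.Per l) : Pd (Rr U F ε) l := fun z => by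
  simp only [Rr, hU.p₀ z, hF.p₀ z]

include hσ in
/-- The square of the radial function. -/
lemma Rr_sq (hε : 0 < ε) (z : ℝ × ℝ) :
    Rr U F ε z ^ 2 / ε * (mkGeo U F ε hσ hrad).E z ^ 2 = Real.exp (2 * U.f z) := by
  have e := vv_mul hσ z
  have h1 : √ε ^ 2 = ε := Real.sq_sqrt hε.le
  have h2 : Real.exp (2 * U.f z) = Real.exp (U.f z) ^ 2 := by
    rw [← Real.exp_nat_mul]
    norm_num
  simp only [Rr, mkGeo]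
  rw [h2, mul_pow, h1, mul_pow]
  have h3 : ((1 + F.f z) * vv F z) ^ 2 = 1 := by rw [e]; norm_num
  have h4 : ε * (Real.exp (U.f z) ^ 2 * (1 + F.f z) ^ 2) / ε * vv F z ^ 2
      = Real.exp (U.f z) ^ 2 * ((1 + F.f z) * vv F z) ^ 2 := by
    field_simp
  rw [h4, h3, mul_one]

end

end

end Vale.Agent.Lib.P205.T2
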