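import Vale.Agent.Lib.P205.T2.Per

/-!
The Poincare lemma on the plane with an explicit potential.
-/

namespace Vale.Agent.Lib.P205.T2

open MeasureTheory intervalIntegral ContinuousLinearMap
open scoped ContDiff

noncomputable section

/-- The potential of the form `A dx + B dy` along rays from the origin. -/
def Pot (A B : ℝ × ℝ → ℝ) (z : ℝ × ℝ) : ℝ :=
  ∫ t in (0:ℝ)..1, (A (t • z) * z.1 + B (t • z) * z.2)

theorem Jt_Pot {A A₁ A₂ B B₁ B₂ : ℝ × ℝ → ℝ} (hA : Jt A A₁ A₂) (hB : Jt B B₁ B₂)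
    (hsym : ∀ z, A₂ z = B₁ z) : Jt (Pot A B) A B := by
  intro b
  set om : ℝ × ℝ → (ℝ × ℝ) →L[ℝ] ℝ := fun z => dL (A z) (B z) with hom
  set dom : ℝ × ℝ → (ℝ × ℝ) →L[ℝ] (ℝ × ℝ) →L[ℝ] ℝ := fun z =>
    (dL (A₁ z) (A₂ z)).smulRight (fst ℝ ℝ ℝ) + (dL (B₁ z) (B₂ z)).smulRight (snd ℝ ℝ ℝ) with hdo
  have h1 : ∀ x ∈ (Set.univ : Set (ℝ × ℝ)), HasFDerivWithinAt om (dom x) Set.univ x := by
    intro x _
    have e1 := (hA x).smul_const (fst ℝ ℝ ℝ)
    have e2 := (hB x).smul_const (snd ℝ ℝ ℝ)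
    exact (e1.add e2).hasFDerivWithinAt
  have h2 : ∀ a ∈ (Set.univ : Set (ℝ × ℝ)), ∀ x ∈ tangentConeAt ℝ Set.univ a,
      ∀ y ∈ tangentConeAt ℝ Set.univ a, dom a x y = dom a y x := by
    intro a _ x _ y _
    have e : ∀ x y : ℝ × ℝ, dom a x y
        = (A₁ a * x.1 + A₂ a * x.2) * y.1 + (B₁ a * x.1 + B₂ a * x.2) * y.2 := by
      intro x y
      simp [hdo]
    rw [e, e, hsym a]
    ring
  have h3 := convex_univ.hasFDerivWithinAt_curveIntegral_segment_of_hasFDerivWithinAt_symmetric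
    h1 h2 (Set.mem_univ (0 : ℝ × ℝ)) (Set.mem_univ b)
  rw [hasFDerivWithinAt_univ] at h3
  have h4 : (fun c => ∫ᶜ x in Path.segment (0 : ℝ × ℝ) c, om x) = Pot A B := by
    funext c
    rw [curveIntegral_segment]
    simp [Pot, hom, AffineMap.lineMap_apply]
  rw [h4] at h3
  exact h3

end

end Vale.Agent.Lib.P205.T2
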