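import Vale.Agent.Lib.P205.T2.Conv

/-!
Weighted Wiener algebra: absolutely summable Fourier coefficients with a submultiplicative weight.
The elements are stored as rescaled coefficient families in `ℓ¹`.
-/

namespace Vale.Agent.Lib.P205.T2

open scoped ENNReal ComplexConjugate

noncomputable section

/-- The size of a lattice point. -/
def nrm (n : Gm) : ℝ := |(n.1 : ℝ)| + |(n.2 : ℝ)|

lemma nrm_nonneg (n : Gm) : 0 ≤ nrm n := by unfold nrm; positivity

lemma nrm_neg (n : Gm) : nrm (-n) = nrm n := by simp [nrm]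

lemma nrm_add_le (n m : Gm) : nrm (n + m) ≤ nrm n + nrm m := by
  simp only [nrm, Prod.fst_add, Prod.snd_add, Int.cast_add]
  have h1 := abs_add_le (n.1 : ℝ) (m.1 : ℝ)
  have h2 := abs_add_le (n.2 : ℝ) (m.2 : ℝ)
  linarith

/-- Submultiplicative weights growing faster than every polynomial. -/
structure Wt where
  W : Gm → ℝ
  one_le : ∀ n, 1 ≤ W n
  zero : W 0 = 1
  submul : ∀ n m, W (n + m) ≤ W n * W m
  symm : ∀ n, W (-n) = W n
  poly : ∀ p : ℕ, ∃ C : ℝ, 0 < C ∧ ∀ n, (1 + nrm n) ^ p ≤ C * W n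

/-- The Banach space carrying the algebra. -/
abbrev XX := lp (fun _ : Gm => ℂ) 1

lemma XX.norm_eq (x : XX) : ‖x‖ = ∑' n, ‖x n‖ := by
  have := lp.norm_eq_tsum_rpow (p := 1) (by simp) x
  simpa using this

lemma XX.summ (x : XX) : Summable fun n => ‖x n‖ := by
  have := (lp.memℓp x).summable (by simp)
  simpa using this

/-- Constructing an element. -/
def XX.mk (f : Gm → ℂ) (hf : Summable fun n => ‖f n‖) : XX :=
  ⟨f, memℓp_gen (by simpa using hf)⟩

@[simp] lemma XX.mk_apply (f : Gm → ℂ) (hf : Summable fun n => ‖f n‖) (n : Gm) :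
    XX.mk f hf n = f n := rfl

lemma XX.ext' {x y : XX} (h : ∀ n, x n = y n) : x = y :=
  lp.ext (funext h)

lemma XX.norm_apply_le (x : XX) (n : Gm) : ‖x n‖ ≤ ‖x‖ := by
  rw [XX.norm_eq]
  exact (XX.summ x).le_tsum n (fun _ _ => norm_nonneg _)

lemma XX.sub_apply (x y : XX) (n : Gm) : (x - y) n = x n - y n := by
  rw [lp.coeFn_sub]; rfl

lemma XX.add_apply (x y : XX) (n : Gm) : (x + y) n = x n + y n := by
  rw [lp.coeFn_add]; rfl

lemma XX.smul_apply (c : ℂ) (x : XX) (n : Gm) : (c • x) n = c * x n := by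
  rw [lp.coeFn_smul]; rfl

lemma XX.neg_apply (x : XX) (n : Gm) : (- x) n = - x n := by
  rw [lp.coeFn_neg]; rfl

lemma XX.zero_apply (n : Gm) : (0 : XX) n = 0 := rfl

variable (w : Wt)

lemma Wt.pos (n : Gm) : 0 < w.W n := lt_of_lt_of_le one_pos (w.one_le n)

/-- The coefficient family of an element. -/
def coef (x : XX) (n : Gm) : ℂ := x n / (w.W n : ℂ)

lemma W_ne (n : Gm) : (w.W n : ℂ) ≠ 0 := by
  exact_mod_cast (w.pos n).ne'

lemma coef_eq (x : XX) (n : Gm) : x n = (w.W n : ℂ) * coef w x n := by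
  have := W_ne w n
  simp only [coef]
  field_simp

lemma norm_eq_coef (x : XX) (n : Gm) : ‖x n‖ = w.W n * ‖coef w x n‖ := by
  rw [coef_eq w x n, norm_mul, Complex.norm_real, Real.norm_of_nonneg (w.pos n).le]

lemma norm_coef_le (x : XX) (n : Gm) : ‖coef w x n‖ ≤ ‖x n‖ := by
  rw [norm_eq_coef w x n]
  exact le_mul_of_one_le_left (norm_nonneg _) (w.one_le n)

lemma summable_coef (x : XX) : Summable fun n => ‖coef w x n‖ :=
  Summable.of_nonneg_of_le (fun _ => norm_nonneg _) (norm_coef_le w x) (XX.summ x)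

lemma coef_sub (x y : XX) (n : Gm) : coef w (x - y) n = coef w x n - coef w y n := by
  simp only [coef, XX.sub_apply]; ring

lemma coef_add (x y : XX) (n : Gm) : coef w (x + y) n = coef w x n + coef w y n := by
  simp only [coef, XX.add_apply]; ring

lemma coef_smul (c : ℂ) (x : XX) (n : Gm) : coef w (c • x) n = c * coef w x n := by
  simp only [coef, XX.smul_apply]; ring

/-- Elements from a coefficient family. -/
def ofCoef (c : Gm → ℂ) (hc : Summable fun n => w.W n * ‖c n‖) : XX :=
  XX.mk (fun n => (w.W n : ℂ) * c n) (by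
    refine hc.congr fun n => ?_
    rw [norm_mul, Complex.norm_real, Real.norm_of_nonneg (w.pos n).le])

lemma coef_ofCoef (c : Gm → ℂ) (hc : Summable fun n => w.W n * ‖c n‖) (n : Gm) :
    coef w (ofCoef w c hc) n = c n := by
  have := W_ne w n
  simp only [coef, ofCoef, XX.mk_apply]
  field_simp

lemma eq_of_coef {x y : XX} (h : ∀ n, coef w x n = coef w y n) : x = y := by
  refine XX.ext' fun n => ?_
  rw [coef_eq w x, coef_eq w y, h]

/-- The key estimate of the product. -/
lemma conv_bound (x y : XX) (n : Gm) :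
    w.W n * ‖cv (coef w x) (coef w y) n‖ ≤ ∑' m, ‖x m‖ * ‖y (n - m)‖ := by
  have hs := summable_cv_inner (summable_coef w x) (summable_coef w y) n
  have hs1 : Summable fun m => ‖coef w x m * coef w y (n - m)‖ := by
    have := summable_cv_inner (f := fun m => (‖coef w x m‖ : ℂ)) (g := fun m => (‖coef w y m‖ : ℂ))
      (by simpa using summable_coef w x) (by simpa using summable_coef w y) n
    refine (this.norm).congr fun m => ?_
    simp
  have hr := (summable_real_cv (a := fun n => ‖x n‖) (b := fun n => ‖y n‖)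
    (fun _ => norm_nonneg _) (fun _ => norm_nonneg _) (XX.summ x) (XX.summ y))
  have hs2 : Summable fun m => ‖x m‖ * ‖y (n - m)‖ := by
    have h := summable_mul_of_summable_norm (f := fun n => ‖x n‖) (g := fun n => ‖y n‖)
      (by simpa using XX.summ x) (by simpa using XX.summ y)
    exact ((shear.summable_iff (f := fun p : Gm × Gm => ‖x p.1‖ * ‖y p.2‖)).mpr h).prod_factor n
  calc w.W n * ‖cv (coef w x) (coef w y) n‖
      ≤ w.W n * ∑' m, ‖coef w x m * coef w y (n - m)‖ := by
        apply mul_le_mul_of_nonneg_left (norm_tsum_le_tsum_norm hs1) (w.pos n).le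
    _ = ∑' m, w.W n * ‖coef w x m * coef w y (n - m)‖ := by
        rw [tsum_mul_left]
    _ ≤ ∑' m, ‖x m‖ * ‖y (n - m)‖ := by
        refine (hs1.mul_left _).tsum_le_tsum (fun m => ?_) hs2
        rw [norm_eq_coef w x m, norm_eq_coef w y (n - m), norm_mul]
        have e : w.W n ≤ w.W m * w.W (n - m) := by
          have := w.submul m (n - m)
          rwa [add_sub_cancel] at this
        have h0 : 0 ≤ ‖coef w x m‖ * ‖coef w y (n - m)‖ := by positivity
        calc w.W n * (‖coef w x m‖ * ‖coef w y (n - m)‖)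
            ≤ (w.W m * w.W (n - m)) * (‖coef w x m‖ * ‖coef w y (n - m)‖) :=
              mul_le_mul_of_nonneg_right e h0
          _ = _ := by ring

/-- The product of the algebra. -/
def mul (x y : XX) : XX :=
  XX.mk (fun n => (w.W n : ℂ) * cv (coef w x) (coef w y) n) (by
    have hr := (summable_real_cv (a := fun n => ‖x n‖) (b := fun n => ‖y n‖)
      (fun _ => norm_nonneg _) (fun _ => norm_nonneg _) (XX.summ x) (XX.summ y)).1
    refine Summable.of_nonneg_of_le (fun _ => norm_nonneg _) (fun n => ?_) hr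
    rw [norm_mul, Complex.norm_real, Real.norm_of_nonneg (w.pos n).le]
    exact conv_bound w x y n)

lemma coef_mul (x y : XX) (n : Gm) :
    coef w (mul w x y) n = cv (coef w x) (coef w y) n := by
  have := W_ne w n
  simp only [coef, mul, XX.mk_apply]
  field_simp

lemma norm_mul_le (x y : XX) : ‖mul w x y‖ ≤ ‖x‖ * ‖y‖ := by
  obtain ⟨hr, hr2⟩ := summable_real_cv (a := fun n => ‖x n‖) (b := fun n => ‖y n‖)
      (fun _ => norm_nonneg _) (fun _ => norm_nonneg _) (XX.summ x) (XX.summ y)
  rw [XX.norm_eq (mul w x y), XX.norm_eq x, XX.norm_eq y, ← hr2]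
  refine (XX.summ (mul w x y)).tsum_le_tsum (fun n => ?_) hr
  simp only [mul, XX.mk_apply]
  rw [norm_mul, Complex.norm_real, Real.norm_of_nonneg (w.pos n).le]
  exact conv_bound w x y n

lemma mul_sub_left (x x' y : XX) : mul w (x - x') y = mul w x y - mul w x' y := by
  refine eq_of_coef w fun n => ?_
  rw [coef_sub, coef_mul, coef_mul, coef_mul]
  simp only [cv]
  rw [← (summable_cv_inner (summable_coef w x) (summable_coef w y) n).tsum_sub
    (summable_cv_inner (summable_coef w x') (summable_coef w y) n)]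
  congr 1
  funext m
  rw [coef_sub]
  ring

lemma mul_sub_right (x y y' : XX) : mul w x (y - y') = mul w x y - mul w x y' := by
  refine eq_of_coef w fun n => ?_
  rw [coef_sub, coef_mul, coef_mul, coef_mul]
  simp only [cv]
  rw [← (summable_cv_inner (summable_coef w x) (summable_coef w y) n).tsum_sub
    (summable_cv_inner (summable_coef w x) (summable_coef w y') n)]
  congr 1
  funext m
  rw [coef_sub]
  ring

lemma mul_diff_le (x x' y y' : XX) :
    ‖mul w x y - mul w x' y'‖ ≤ ‖x - x'‖ * ‖y‖ + ‖x'‖ * ‖y - y'‖ := by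
  have e : mul w x y - mul w x' y' = mul w (x - x') y + mul w x' (y - y') := by
    rw [mul_sub_left, mul_sub_right]
    abel
  rw [e]
  exact (norm_add_le _ _).trans (add_le_add (norm_mul_le w _ _) (norm_mul_le w _ _))

/-- The unit. -/
def one : XX := ofCoef w (fun n => if n = 0 then 1 else 0) (by
  refine summable_of_ne_finset_zero (s := {0}) fun n hn => ?_
  have : n ≠ 0 := by simpa using hn
  simp [this])

lemma coef_one (n : Gm) : coef w (one w) n = if n = 0 then 1 else 0 :=
  coef_ofCoef w _ _ n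

/-- Bounded Fourier multipliers. -/
def mlt (s : Gm → ℂ) (M : ℝ) (hs : ∀ n, ‖s n‖ ≤ M) (x : XX) : XX :=
  XX.mk (fun n => s n * x n) (by
    refine Summable.of_nonneg_of_le (fun _ => norm_nonneg _) (fun n => ?_) ((XX.summ x).mul_left M)
    rw [norm_mul]
    exact mul_le_mul_of_nonneg_right (hs n) (norm_nonneg _))

section mlt

variable {s : Gm → ℂ} {M : ℝ} (hs : ∀ n, ‖s n‖ ≤ M)

lemma coef_mlt (x : XX) (n : Gm) : coef w (mlt s M hs x) n = s n * coef w x n := by
  simp only [coef, mlt, XX.mk_apply]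
  ring

lemma norm_mlt_le (x : XX) : ‖mlt s M hs x‖ ≤ M * ‖x‖ := by
  rw [XX.norm_eq, XX.norm_eq, ← tsum_mul_left]
  refine (XX.summ _).tsum_le_tsum (fun n => ?_) ((XX.summ x).mul_left M)
  simp only [mlt, XX.mk_apply]
  rw [norm_mul]
  exact mul_le_mul_of_nonneg_right (hs n) (norm_nonneg _)

lemma mlt_sub (x y : XX) : mlt s M hs (x - y) = mlt s M hs x - mlt s M hs y := by
  refine XX.ext' fun n => ?_
  simp only [mlt, XX.mk_apply, XX.sub_apply]
  ring

lemma mlt_add (x y : XX) : mlt s M hs (x + y) = mlt s M hs x + mlt s M hs y := by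
  refine XX.ext' fun n => ?_
  simp only [mlt, XX.mk_apply, XX.add_apply]
  ring

lemma mlt_smul (c : ℂ) (x : XX) : mlt s M hs (c • x) = c • mlt s M hs x := by
  refine XX.ext' fun n => ?_
  simp only [mlt, XX.mk_apply, XX.smul_apply]
  ring

lemma mlt_zero : mlt s M hs 0 = 0 := by
  refine XX.ext' fun n => ?_
  simp [mlt, XX.zero_apply]

lemma mlt_continuous (hM : 0 ≤ M) : Continuous (mlt s M hs) := by
  have : LipschitzWith (Real.toNNReal M) (mlt s M hs) := by
    refine LipschitzWith.of_dist_le_mul fun x y => ?_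
    rw [dist_eq_norm, dist_eq_norm, ← mlt_sub, Real.coe_toNNReal _ hM]
    exact norm_mlt_le hs _
  exact this.continuous

end mlt

/-- Elements whose function is real: the coefficient family is Hermitian. -/
def Rl (x : XX) : Prop := ∀ n, x (-n) = conj (x n)

lemma coef_Rl {x : XX} (h : Rl x) (n : Gm) : coef w x (-n) = conj (coef w x n) := by
  simp only [coef, h n, map_div₀, Complex.conj_ofReal, w.symm]

lemma Rl_of_coef {x : XX} (h : ∀ n, coef w x (-n) = conj (coef w x n)) : Rl x := by
  intro n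
  rw [coef_eq w x (-n), coef_eq w x n, h n, map_mul, Complex.conj_ofReal, w.symm]

lemma Rl.sub {x y : XX} (hx : Rl x) (hy : Rl y) : Rl (x - y) := by
  intro n
  simp only [XX.sub_apply, hx n, hy n, map_sub]

lemma Rl.add {x y : XX} (hx : Rl x) (hy : Rl y) : Rl (x + y) := by
  intro n
  simp only [XX.add_apply, hx n, hy n, map_add]

lemma Rl.smul {x : XX} (c : ℝ) (hx : Rl x) : Rl ((c : ℂ) • x) := by
  intro n
  simp only [XX.smul_apply, hx n, map_mul, Complex.conj_ofReal]

lemma Rl.zero : Rl (0 : XX) := by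
  intro n
  simp [XX.zero_apply]

lemma Rl_one : Rl (one w) := by
  refine Rl_of_coef w fun n => ?_
  rw [coef_one, coef_one]
  by_cases h : n = 0
  · simp [h]
  · have : - n ≠ 0 := neg_ne_zero.mpr h
    simp [h]

lemma Rl.mul {w : Wt} {x y : XX} (hx : Rl x) (hy : Rl y) : Rl (mul w x y) := by
  refine Rl_of_coef w fun n => ?_
  rw [coef_mul, coef_mul]
  simp only [cv]
  rw [Complex.conj_tsum, ← (Equiv.neg Gm).tsum_eq]
  congr 1
  funext m
  simp only [Equiv.neg_apply, map_mul]
  rw [coef_Rl w hx m, ← coef_Rl w hy (n - m)]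
  congr 2
  abel

lemma Rl.mlt {x : XX} (hx : Rl x) {s : Gm → ℂ} {M : ℝ} (hs : ∀ n, ‖s n‖ ≤ M)
    (hsym : ∀ n, s (-n) = conj (s n)) : Rl (mlt s M hs x) := by
  intro n
  simp only [T2.mlt, XX.mk_apply, hx n, hsym n, map_mul]

lemma isClosed_Rl : IsClosed {x : XX | Rl x} := by
  have : {x : XX | Rl x} = ⋂ n, {x : XX | x (-n) = conj (x n)} := by
    ext x
    simp [Rl]
  rw [this]
  refine isClosed_iInter fun n => ?_
  have hc : ∀ n : Gm, Continuous fun x : XX => x n := by
    intro n
    refine (LipschitzWith.of_dist_le_mul (K := 1) fun x y => ?_).continuous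
    rw [dist_eq_norm, dist_eq_norm, ← XX.sub_apply]
    simpa using XX.norm_apply_le (x - y) n
  exact isClosed_eq (hc _) (Complex.continuous_conj.comp (hc _))

end

end Vale.Agent.Lib.P205.T2
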